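import Mathlib

namespace Vale.Agent.P235

/-- Length of a walk: the sum of the lengths of its edges. -/
def wlen {V : Type} {G : SimpleGraph V} (l : Sym2 V → ℝ) {u v : V} (p : G.Walk u v) : ℝ :=
  (p.edges.map l).sum

/-- Shortest-path distance for edge lengths `l`. -/
noncomputable def gdist {V : Type} (G : SimpleGraph V) (l : Sym2 V → ℝ) (u v : V) : ℝ :=
  sInf {x : ℝ | ∃ p : G.Walk u v, wlen l p = x}

/-- `G` has a tree decomposition of width at most `k`. -/
def TreewidthLE {V : Type} (G : SimpleGraph V) (k : ℕ) : Prop :=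
  ∃ (T : Type) (_ : Fintype T) (H : SimpleGraph T) (B : T → Finset V),
    H.IsTree ∧ (∀ u v, G.Adj u v → ∃ t, u ∈ B t ∧ v ∈ B t) ∧
      (∀ v, (H.induce {t | v ∈ B t}).Connected) ∧ ∀ t, (B t).card ≤ k + 1

/-- `(V, d)` embeds into some `L_1(μ)` with distortion at most `C`. -/
def EmbedsL1 {V : Type} (d : V → V → ℝ) (C : ℝ) : Prop :=
  ∃ (Ω : Type) (_ : MeasurableSpace Ω) (μ : MeasureTheory.Measure Ω)
    (f : V → MeasureTheory.Lp ℝ 1 μ),
      ∀ x y, d x y ≤ ‖f x - f y‖ ∧ ‖f x - f y‖ ≤ C * d x y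

end Vale.Agent.P235
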