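import Vale.Agent.P235.GeoB

namespace Vale.Agent.P235

open Finset
open scoped BigOperators

namespace TACGAux

variable {V : Type} [Fintype V] [DecidableEq V] [MetricSpace V]

theorem le_cap (Z P : Finset V) (c : ℝ) (s : V) : psi Z P c s ≤ c :=
  (Finset.fold_min_le _).2 (Or.inl le_rfl)

theorem le_dist (Z P : Finset V) (c : ℝ) (s z : V) (h : z ∈ Z ∨ z ∉ P) :
    psi Z P c s ≤ dist s z :=
  (Finset.fold_min_le _).2 (Or.inr ⟨z, by simpa using h, le_rfl⟩)

theorem le_psi (Z P : Finset V) (c d : ℝ) (s : V) (h1 : d ≤ c)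
    (h2 : ∀ z, (z ∈ Z ∨ z ∉ P) → d ≤ dist s z) : d ≤ psi Z P c s :=
  (Finset.le_fold_min _).2 ⟨h1, fun z hz => h2 z (by simpa using hz)⟩

theorem nonneg (Z P : Finset V) (c : ℝ) (s : V) (hc : 0 ≤ c) : 0 ≤ psi Z P c s :=
  le_psi Z P c 0 s hc fun _ _ => dist_nonneg

theorem zero (Z P : Finset V) (c : ℝ) (s : V) (hc : 0 ≤ c) (h : s ∈ Z ∨ s ∉ P) :
    psi Z P c s = 0 :=
  le_antisymm (by simpa using le_dist Z P c s s h) (nonneg Z P c s hc)

theorem lip1 (Z P : Finset V) (c : ℝ) (s t : V) : psi Z P c s - psi Z P c t ≤ dist s t := by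
  have h : psi Z P c s - dist s t ≤ psi Z P c t := by
    refine le_psi Z P c _ t ?_ fun z hz => ?_
    · have := le_cap Z P c s
      have := dist_nonneg (x := s) (y := t)
      linarith
    · have := le_dist Z P c s z hz
      have := dist_triangle s t z
      linarith
  linarith

theorem lip (Z P : Finset V) (c : ℝ) (s t : V) : |psi Z P c s - psi Z P c t| ≤ dist s t := by
  have h1 := lip1 Z P c s t
  have h2 := lip1 Z P c t s
  rw [dist_comm] at h2
  exact abs_le.2 ⟨by linarith, h1⟩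

theorem near {Z P : Finset V} {r : ℝ} {s : V} (hp : ∀ y, dist s y ≤ r → y ∈ P)
    (h : ¬ r ≤ psi (Z ∩ P) P r s) : ∃ z ∈ Z, z ∈ P ∧ dist s z < r := by
  by_contra hn
  refine h (le_psi _ _ _ _ _ le_rfl fun z hz => ?_)
  by_contra hlt
  have hlt' : dist s z < r := not_le.1 hlt
  have hzP := hp z hlt'.le
  rcases hz with hz | hz
  · exact hn ⟨z, (mem_inter.1 hz).1, hzP, hlt'⟩
  · exact hz hzP

omit [Fintype V] [DecidableEq V] in
theorem contra {q : GP} {cl : Sc → V → Finset V} {X : ℕ → Finset V} {T e : ℕ} {s t : V}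
    (hΔ : 3 ≤ q.Δ) (hc : Chain X T (q.k + 1)) (hP : Parts q cl) (he : e ≤ T) (hs : s ∈ X e)
    {j : ℤ} (h1 : q.Δ * 2 ^ j < dist s t) (h2 : dist s t ≤ 2 * q.Δ * 2 ^ j) {b b' : ℕ}
    (hbb : b ≤ b') (hb' : b' ≤ e) {z z' : V} (hz : z ∈ X b) (hsz : dist s z < 2 ^ j)
    (hz' : z' ∈ X b') (hz'Q : z' ∈ cl (false, j) t) (htz : dist t z' < 2 ^ j) :
    ActG q cl (X b') (false, j) (cl (false, j) t) := by
  obtain ⟨w, hw, hd⟩ := hc.sep b b' e hbb hb' he z hz s hs
  have hr : (0 : ℝ) < 2 ^ j := by positivity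
  have hsw : dist s w < 2 ^ j := by
    have := dist_nonneg (x := w) (y := z)
    linarith
  refine ⟨⟨w, hw, z', hz', ?_, ?_⟩, z', hz', (hP (false, j)).eq t z' hz'Q⟩
  · have e1 : q.lo (false, j) = 2 ^ j := by simp [GP.lo]
    rw [e1]
    have a1 := dist_triangle4 s w z' t
    rw [dist_comm z' t] at a1
    nlinarith
  · have e1 : q.hi (false, j) = (2 * q.Δ + 2) * 2 ^ j := by simp [GP.hi]
    rw [e1]
    have a1 := dist_triangle4 w s t z'
    rw [dist_comm w s] at a1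
    nlinarith

omit [Fintype V] [DecidableEq V] in
theorem born {q : GP} {cl : Sc → V → Finset V} {X : ℕ → Finset V} {T n e : ℕ}
    (hc : Chain X T n) {j : Sc} {P : Finset V} (h : ActG q cl (X e) j P) :
    ∃ b, BornG q cl X j P b e := by
  have h0 : ¬ ActG q cl (X 0) j P := by
    rintro ⟨-, s, hs, -⟩
    rw [hc.zero] at hs
    simp at hs
  have he : 0 < e := by
    rcases Nat.eq_zero_or_pos e with h' | h'
    · rw [h'] at h; exact absurd h h0
    · exact h'
  obtain ⟨b, -, hb, hn, hall⟩ := GeoB.last_fail (fun σ => ActG q cl (X σ) j P) he h0 h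
  exact ⟨b, hb, hn, hall _ (Nat.lt_succ_self _) hb, fun σ h1 h2 => hall σ h1 h2.le⟩

end TACGAux

theorem psiF : PsiF where
  le_cap := fun _ _ _ _ => TACGAux.le_cap
  le_dist := fun _ _ _ _ => TACGAux.le_dist
  le_psi := fun _ _ _ _ => TACGAux.le_psi
  nonneg := fun _ _ _ _ => TACGAux.nonneg
  zero := fun _ _ _ _ => TACGAux.zero
  lip := fun _ _ _ _ => TACGAux.lip

theorem acg : ACGS := by
  intro V _ _ _ q cl X T e s t hΔ hc hP he hs ht hst hpad
  have hΔ0 : 0 < q.Δ := by linarith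
  have hρ : 0 < dist s t := dist_pos.2 hst
  obtain ⟨j, hj1, hj2⟩ := exists_mem_Ioc_zpow (div_pos hρ hΔ0) (one_lt_two (α := ℝ))
  have hr : (0 : ℝ) < 2 ^ j := by positivity
  have h1 : q.Δ * 2 ^ j < dist s t := by
    rw [lt_div_iff₀ hΔ0] at hj1; linarith
  have h2 : dist s t ≤ 2 * q.Δ * 2 ^ j := by
    rw [div_le_iff₀ hΔ0, zpow_add_one₀ two_ne_zero] at hj2; linarith
  have h1' : q.Δ * 2 ^ j < dist t s := by rwa [dist_comm]
  have h2' : dist t s ≤ 2 * q.Δ * 2 ^ j := by rwa [dist_comm]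
  have ecap : q.cap (false, j) = 2 ^ j := by simp [GP.cap]
  have escl : q.scl (false, j) = 2 ^ j := by simp [GP.scl]
  have hact : act q (X e) (false, j) := by
    refine ⟨s, hs, t, ht, ?_, ?_⟩
    · have e1 : q.lo (false, j) = 2 ^ j := by simp [GP.lo]
      rw [e1]; nlinarith
    · have e1 : q.hi (false, j) = (2 * q.Δ + 2) * 2 ^ j := by simp [GP.hi]
      rw [e1]; nlinarith
  have htP : t ∉ cl (false, j) s := fun h => by
    have := (hP (false, j)).diam s t h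
    rw [escl] at this; linarith
  have hsQ : s ∉ cl (false, j) t := fun h => by
    have := (hP (false, j)).diam t s h
    rw [escl] at this; linarith
  obtain ⟨b, hb⟩ := TACGAux.born hc (P := cl (false, j) s) ⟨hact, s, hs, rfl⟩
  obtain ⟨b', hb'⟩ := TACGAux.born hc (P := cl (false, j) t) ⟨hact, t, ht, rfl⟩
  by_cases hA : (2 : ℝ) ^ j ≤ psi (X b ∩ cl (false, j) s) (cl (false, j) s) (2 ^ j) s
  · refine ⟨j, _, b, hb, ?_⟩
    rw [ecap, TACGAux.zero _ _ _ t hr.le (Or.inr htP), sub_zero, abs_of_nonneg (hr.le.trans hA)]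
    nlinarith
  by_cases hB : (2 : ℝ) ^ j ≤ psi (X b' ∩ cl (false, j) t) (cl (false, j) t) (2 ^ j) t
  · refine ⟨j, _, b', hb', ?_⟩
    rw [ecap, TACGAux.zero _ _ _ s hr.le (Or.inr hsQ), zero_sub, abs_neg,
      abs_of_nonneg (hr.le.trans hB)]
    nlinarith
  exfalso
  obtain ⟨z, hz, hzP, hsz⟩ := TACGAux.near (hpad s hs t ht j h1 h2) hA
  obtain ⟨z', hz', hz'Q, htz⟩ := TACGAux.near (hpad t ht s hs j h1' h2') hB
  rcases le_total b b' with h | h
  · exact hb'.2.1 (TACGAux.contra hΔ hc hP he hs h1 h2 h hb'.1.le hz hsz hz' hz'Q htz)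
  · exact hb.2.1 (TACGAux.contra hΔ hc hP he ht h1' h2' h hb.1.le hz' htz hz hzP hsz)

end Vale.Agent.P235
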