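import Vale.Agent.P235.Sts

namespace Vale.Agent.P235

open Finset
open scoped BigOperators

namespace TBNAux

variable {V : Type} [Fintype V] [LinearOrder V]

/-- A system of local kernels. -/
structure Ker (S : V → Finset V) (k : V → Finset V → ℝ) : Prop where
  lt : ∀ v, ∀ u ∈ S v, u < v
  nn : ∀ v a, 0 ≤ k v a
  one : ∀ v a, v ∉ a → k v a + k v (insert v a) = 1
  loc : ∀ v C, k v C = k v (C ∩ insert v (S v))

variable {S : V → Finset V} {k : V → Finset V → ℝ}

omit [Fintype V] in
theorem step (hk : Ker S k) {N : Finset V} (hN : ∀ u ∈ N, S u ⊆ N) {v : V} (hv : v ∉ N)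
    (F : Finset V → ℝ) :
    ∑ a ∈ (insert v N).powerset, (∏ u ∈ insert v N, k u a) * F a =
      ∑ a ∈ N.powerset, (∏ u ∈ N, k u a) * (k v a * F a + k v (insert v a) * F (insert v a)) := by
  rw [Finset.sum_powerset_insert hv, ← Finset.sum_add_distrib]
  refine Finset.sum_congr rfl fun a _ => ?_
  rw [Finset.prod_insert hv, Finset.prod_insert hv]
  have h : ∏ u ∈ N, k u (insert v a) = ∏ u ∈ N, k u a := by
    refine Finset.prod_congr rfl fun u hu => ?_
    rw [hk.loc u (insert v a), hk.loc u a, Finset.insert_inter_of_notMem]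
    intro h
    rcases Finset.mem_insert.1 h with h | h
    · exact hv (h ▸ hu)
    · exact hv (hN u hu h)
  rw [h]
  ring

theorem marg (hk : Ker S k) (n : ℕ) : ∀ N : Finset V, Nᶜ.card = n → (∀ u ∈ N, S u ⊆ N) →
    ∀ h : Finset V → ℝ, ∑ C, (∏ u, k u C) * h (C ∩ N) =
      ∑ a ∈ N.powerset, (∏ u ∈ N, k u a) * h a := by
  induction n with
  | zero =>
    intro N hn _ h
    have : N = univ := by simpa using hn
    subst this
    simp
  | succ n ih =>
    intro N hn hN h
    have hne : Nᶜ.Nonempty := Finset.card_pos.1 (by omega)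
    have hv : Nᶜ.min' hne ∉ N := Finset.mem_compl.1 (Finset.min'_mem _ hne)
    have hS : S (Nᶜ.min' hne) ⊆ N := fun u hu => by
      by_contra hu'
      exact absurd (Finset.min'_le _ u (Finset.mem_compl.2 hu')) (not_le.2 (hk.lt _ u hu))
    generalize Nᶜ.min' hne = v at hv hS
    have h1 : (insert v N)ᶜ.card = n := by
      rw [Finset.compl_insert, Finset.card_erase_of_mem (Finset.mem_compl.2 hv), hn]
      rfl
    have h2 : ∀ u ∈ insert v N, S u ⊆ insert v N := fun u hu => by
      rcases Finset.mem_insert.1 hu with rfl | hu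
      · exact hS.trans (Finset.subset_insert _ _)
      · exact (hN u hu).trans (Finset.subset_insert _ _)
    have h3 := ih _ h1 h2 (fun a => h (a ∩ N))
    rw [step hk hN hv] at h3
    have h4 : insert v N ∩ N = N := Finset.inter_eq_right.2 (Finset.subset_insert _ _)
    simp only [Finset.inter_assoc, h4] at h3
    rw [h3]
    refine Finset.sum_congr rfl fun a ha => ?_
    have ha' : a ⊆ N := Finset.mem_powerset.1 ha
    rw [Finset.insert_inter_of_notMem hv, Finset.inter_eq_left.2 ha', ← add_mul,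
      hk.one v a (fun h => hv (ha' h)), one_mul]

/-- The conditional expectation of `φ` given the trace on `S v`. -/
def cnd (S : V → Finset V) (k : V → Finset V → ℝ) (v : V) (φ : Finset V → ℝ) (b : Finset V) : ℝ :=
  k v (b ∩ S v) * φ (b ∩ S v) + k v (insert v (b ∩ S v)) * φ (insert v (b ∩ S v))

theorem key (hk : Ker S k) {N : Finset V} (hN : ∀ u ∈ N, S u ⊆ N) {v : V} (hv : v ∉ N)
    (hS : S v ⊆ N) (φ h : Finset V → ℝ) :
    ∑ C, (∏ u, k u C) * (φ (C ∩ insert v (S v)) * h (C ∩ N)) =
      ∑ C, (∏ u, k u C) * (cnd S k v φ (C ∩ S v) * h (C ∩ N)) := by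
  have h2 : ∀ u ∈ insert v N, S u ⊆ insert v N := fun u hu => by
    rcases Finset.mem_insert.1 hu with rfl | hu
    · exact hS.trans (Finset.subset_insert _ _)
    · exact (hN u hu).trans (Finset.subset_insert _ _)
  have h3 := marg hk _ _ rfl h2 (fun a => φ (a ∩ insert v (S v)) * h (a ∩ N))
  have h4 := marg hk _ _ rfl hN (fun a => cnd S k v φ (a ∩ S v) * h (a ∩ N))
  have e1 : insert v N ∩ N = N := Finset.inter_eq_right.2 (Finset.subset_insert _ _)
  have e2 : insert v N ∩ insert v (S v) = insert v (S v) :=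
    Finset.inter_eq_right.2 (Finset.insert_subset_insert _ hS)
  have e3 : N ∩ S v = S v := Finset.inter_eq_right.2 hS
  simp only [Finset.inter_assoc, e1, e2, e3, Finset.inter_self] at h3 h4
  rw [h3, h4, step hk hN hv]
  refine Finset.sum_congr rfl fun a ha => ?_
  have ha' : a ⊆ N := Finset.mem_powerset.1 ha
  have hva : v ∉ a := fun h => hv (ha' h)
  have e4 : a ∩ insert v (S v) = a ∩ S v := Finset.inter_insert_of_notMem hva
  have e5 : insert v a ∩ insert v (S v) = insert v (a ∩ S v) := by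
    rw [Finset.insert_inter_distrib]
  rw [Finset.insert_inter_of_notMem hv, hk.loc v a, hk.loc v (insert v a), e4, e5]
  unfold cnd
  rw [Finset.inter_assoc, Finset.inter_self]
  ring

omit [Fintype V] in
theorem cnd01 (hk : Ker S k) (v : V) {φ : Finset V → ℝ} (hφ : U01 φ) : U01 (cnd S k v φ) := by
  intro b
  have hv : v ∉ b ∩ S v := fun h => lt_irrefl _ (hk.lt v v (Finset.mem_inter.1 h).2)
  have h1 := hk.one v _ hv
  have h2 := hk.nn v (b ∩ S v)
  have h3 := hk.nn v (insert v (b ∩ S v))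
  have h4 := hφ (b ∩ S v)
  have h5 := hφ (insert v (b ∩ S v))
  unfold cnd
  constructor
  · exact add_nonneg (mul_nonneg h2 h4.1) (mul_nonneg h3 h5.1)
  · nlinarith [mul_le_mul_of_nonneg_left h4.2 h2, mul_le_mul_of_nonneg_left h5.2 h3]

/-- The kernels built from the local weights. -/
noncomputable def kk (S : V → Finset V) (m0 m1 : V → Finset V → ℝ) (v : V) (C : Finset V) : ℝ :=
  if m0 v (C ∩ S v) = 0 then 1 / 2 else m1 v (C ∩ insert v (S v)) / m0 v (C ∩ S v)

omit [Fintype V] in
theorem kk_ker {m0 m1 : V → Finset V → ℝ} (hlt : ∀ v, ∀ u ∈ S v, u < v)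
    (h0 : ∀ v a, 0 ≤ m0 v a) (h1 : ∀ v a, 0 ≤ m1 v a)
    (hc : ∀ v a, a ⊆ S v → m0 v a = m1 v a + m1 v (insert v a)) : Ker S (kk S m0 m1) := by
  have hv : ∀ v, v ∉ S v := fun v h => lt_irrefl _ (hlt v v h)
  refine ⟨hlt, fun v a => ?_, fun v a ha => ?_, fun v C => ?_⟩
  · unfold kk
    split_ifs
    · norm_num
    · exact div_nonneg (h1 _ _) (h0 _ _)
  · unfold kk
    rw [Finset.insert_inter_of_notMem (hv v), Finset.inter_insert_of_notMem ha,
      ← Finset.insert_inter_distrib]
    split_ifs with h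
    · norm_num
    · rw [← add_div, ← hc v _ Finset.inter_subset_right, div_self h]
  · unfold kk
    have e : insert v (S v) ∩ S v = S v := Finset.inter_eq_right.2 (Finset.subset_insert _ _)
    rw [Finset.inter_assoc, Finset.inter_assoc, e, Finset.inter_self]

omit [Fintype V] in
theorem kk_mul {m0 m1 : V → Finset V → ℝ} (hlt : ∀ v, ∀ u ∈ S v, u < v)
    (h1 : ∀ v a, 0 ≤ m1 v a)
    (hc : ∀ v a, a ⊆ S v → m0 v a = m1 v a + m1 v (insert v a)) (v : V) (a : Finset V)
    (ha : a ⊆ S v) : m0 v a * kk S m0 m1 v a = m1 v a ∧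
      m0 v a * kk S m0 m1 v (insert v a) = m1 v (insert v a) := by
  have hv : v ∉ S v := fun h => lt_irrefl _ (hlt v v h)
  have hva : v ∉ a := fun h => hv (ha h)
  have e : a ∩ S v = a := Finset.inter_eq_left.2 ha
  unfold kk
  rw [Finset.insert_inter_of_notMem hv, Finset.inter_insert_of_notMem hva,
    ← Finset.insert_inter_distrib, e]
  have h2 := hc v a ha
  have h3 := h1 v a
  have h4 := h1 v (insert v a)
  split_ifs with h
  · rw [h] at h2 ⊢
    constructor <;> linarith
  · constructor <;> field_simp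

omit [Fintype V] in
theorem nX0 (S : V → Finset V) (v : V) : nX S (v, 0) = S v := by simp [nX]

omit [Fintype V] in
theorem nX1 (S : V → Finset V) (v : V) : nX S (v, 1) = insert v (S v) := by simp [nX]

omit [Fintype V] in
theorem nX2 (S : V → Finset V) (v : V) : nX S (v, 2) = {v} := by
  simp [nX]

theorem mem_cd (v x : V) : x ∈ (desc S v)ᶜ ↔ ¬ Desc S v x := by
  simp [desc]

end TBNAux

open TBNAux in
theorem bn : BNS := by
  intro V _ _ S dep μ Z hT hZ hrep h1 h2 h3 h4
  choose m hm0 hm using hrep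
  have hv : ∀ v, v ∉ S v := fun v h => lt_irrefl _ (hT.lt v v h)
  have r0 : ∀ v g, μ (v, 0) g = ∑ a ∈ (S v).powerset, m (v, 0) a * g a := fun v g => by
    rw [hm, nX0]
  have r1 : ∀ v g, μ (v, 1) g = ∑ a ∈ (S v).powerset,
      (m (v, 1) a * g a + m (v, 1) (insert v a) * g (insert v a)) := fun v g => by
    rw [hm, nX1, Finset.sum_powerset_insert (hv v), Finset.sum_add_distrib]
  have hc : ∀ v a, a ⊆ S v → m (v, 0) a = m (v, 1) a + m (v, 1) (insert v a) := by
    intro v a ha
    have h := h1 v (fun b => if b = a then 1 else 0)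
    rw [r0, r1] at h
    rw [Finset.sum_eq_single a, Finset.sum_eq_single a] at h
    · rw [Finset.insert_inter_of_notMem (hv v), Finset.inter_eq_left.2 ha] at h
      simpa using h.symm
    · intro b _ hb; simp [hb]
    · intro hb; exact absurd (Finset.mem_powerset.2 ha) hb
    · intro b hb hb'
      rw [Finset.insert_inter_of_notMem (hv v), Finset.inter_eq_left.2 (Finset.mem_powerset.1 hb)]
      simp [hb']
    · intro hb; exact absurd (Finset.mem_powerset.2 ha) hb
  have hk := kk_ker (S := S) (m0 := fun v => m (v, 0)) (m1 := fun v => m (v, 1)) hT.lt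
    (fun v a => hm0 _ a) (fun v a => hm0 _ a) hc
  have hmul := kk_mul (S := S) (m0 := fun v => m (v, 0)) (m1 := fun v => m (v, 1)) hT.lt
    (fun v a => hm0 _ a) hc
  generalize kk S (fun v => m (v, 0)) (fun v => m (v, 1)) = k at hk hmul
  have hkey : ∀ v (φ h : Finset V → ℝ),
      ∑ C, Z * (∏ u, k u C) * (φ (C ∩ insert v (S v)) * h (C \ desc S v)) =
        ∑ C, Z * (∏ u, k u C) * (cnd S k v φ (C ∩ S v) * h (C \ desc S v)) := by
    intro v φ h
    have hN : ∀ u ∈ (desc S v)ᶜ, S u ⊆ (desc S v)ᶜ := fun u hu w hw =>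
      (mem_cd v w).2 fun hd => (mem_cd v u).1 hu (hT.trans _ _ _ hd (hT.anc u w hw))
    have hvN : v ∉ (desc S v)ᶜ := fun h => (mem_cd v v).1 h (hT.refl v)
    have hS : S v ⊆ (desc S v)ᶜ := fun w hw =>
      (mem_cd v w).2 fun hd => absurd (hT.le _ _ hd) (not_le.2 (hT.lt v w hw))
    have := key hk hN hvN hS φ h
    simp only [Finset.sdiff_eq_inter_compl, mul_assoc Z, ← Finset.mul_sum, this]
  have hPQ : ∀ v, (∀ g : Finset V → ℝ, ∑ C, Z * (∏ u, k u C) * g (C ∩ S v) = μ (v, 0) g) →
      ∀ g : Finset V → ℝ, ∑ C, Z * (∏ u, k u C) * g (C ∩ insert v (S v)) = μ (v, 1) g := by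
    intro v hP g
    have h := hkey v g (fun _ => 1)
    simp only [mul_one] at h
    rw [h, hP, r0, r1]
    refine Finset.sum_congr rfl fun a ha => ?_
    have ha' : a ⊆ S v := Finset.mem_powerset.1 ha
    obtain ⟨e1, e2⟩ := hmul v a ha'
    unfold cnd
    rw [Finset.inter_eq_left.2 ha', mul_add, ← mul_assoc, ← mul_assoc, e1, e2]
  have hP : ∀ v, ∀ g : Finset V → ℝ, ∑ C, Z * (∏ u, k u C) * g (C ∩ S v) = μ (v, 0) g := by
    intro v
    induction v using WellFoundedLT.induction with
    | ind v ih =>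
      intro g
      by_cases hne : (S v).Nonempty
      · rw [h2 v hne, ← hPQ _ (ih _ (hT.lt v _ (hT.parmem v hne)))]
        have e : insert (par S v) (S (par S v)) ∩ S v = S v :=
          Finset.inter_eq_right.2 (hT.sub v hne)
        simp only [Finset.inter_assoc, e]
      · have e : S v = ∅ := Finset.not_nonempty_iff_eq_empty.1 hne
        have hz := h4 v hne
        have h5 := marg hk _ ∅ rfl (by simp) g
        rw [r0, e] at hz ⊢
        simp only [mul_assoc Z, ← Finset.mul_sum, h5]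
        simp only [Finset.powerset_empty, Finset.sum_singleton, Finset.prod_empty, one_mul,
          mul_one] at hz ⊢
        rw [hz]
  refine ⟨fun C => Z * ∏ u, k u C,
    fun C => mul_nonneg hZ (Finset.prod_nonneg fun u _ => hk.nn u C), ?_,
    fun v φ hφ => ⟨cnd S k v φ, cnd01 hk v hφ, hkey v φ⟩⟩
  rintro ⟨v, i⟩ g
  have hi : i = 0 ∨ i = 1 ∨ i = 2 := by fin_cases i <;> simp
  rcases hi with rfl | rfl | rfl
  · rw [nX0]; exact hP v g
  · rw [nX1]; exact hPQ v (hP v) g
  · rw [nX2, h3, ← hPQ v (hP v)]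
    have e : insert v (S v) ∩ {v} = {v} := Finset.inter_eq_right.2 (by simp)
    simp only [Finset.inter_assoc, e]

end Vale.Agent.P235
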