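import Vale.Agent.P235.Sts

namespace Vale.Agent.P235

open Finset
open scoped BigOperators

namespace TCNTAux

theorem cover (p : ℤ → Prop) (n : ℕ) (h : ∀ a b, p a → p b → b - a ≤ n) :
    ∃ F : Finset ℤ, F.card ≤ n + 1 ∧ ∀ a, a ∈ F ↔ p a := by
  classical
  by_cases hp : ∃ a, p a
  · obtain ⟨a, ha⟩ := hp
    obtain ⟨lb, h1, h2⟩ := Int.exists_least_of_bdd (P := p)
      ⟨a - n, fun z hz => by linarith [h z a hz ha]⟩ ⟨a, ha⟩
    refine ⟨(Icc lb (lb + n)).filter p, (card_filter_le _ _).trans ?_, fun z =>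
      ⟨fun hz => (mem_filter.1 hz).2, fun hz => mem_filter.2
        ⟨mem_Icc.2 ⟨h2 z hz, by linarith [h lb z h1 hz]⟩, hz⟩⟩⟩
    rw [Int.card_Icc]
    omega
  · exact ⟨∅, by simp, fun a => ⟨fun ha => absurd ha (notMem_empty a), fun ha => absurd ⟨a, ha⟩ hp⟩⟩

theorem sig (q : GP) (h0 : 0 < q.ζ) (h1 : q.ζ < 1) (d : ℝ) :
    ∃ F : Finset ℤ, F.card ≤ 2 * q.k + 7 ∧
      ∀ a, a ∈ F ↔ q.lo (true, a) < d ∧ d ≤ q.hi (true, a) := by
  have e0 : 0 < q.η := pow_pos h0 2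
  have e1 : q.η < 1 := pow_lt_one₀ h0.le h1 two_ne_zero
  refine cover _ (2 * q.k + 6) fun a b ha hb => ?_
  have h := ha.1.trans_le hb.2
  simp only [GP.lo, GP.hi, if_true] at h
  rw [← zpow_natCast, ← zpow_natCast, ← zpow_add₀ e0.ne', ← zpow_sub₀ e0.ne',
    zpow_lt_zpow_iff_right_of_lt_one₀ e0 e1] at h
  push_cast at h ⊢
  linarith

theorem two_lt (c : ℕ) {a b : ℤ} (h : (2 : ℝ) ^ b < c * 2 ^ a) : b - a < c := by
  have h1 : (c : ℝ) < 2 ^ c := by exact_mod_cast Nat.lt_two_pow_self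
  have h2 : (0 : ℝ) < 2 ^ a := zpow_pos two_pos a
  have h3 : (2 : ℝ) ^ b < 2 ^ ((c : ℤ) + a) := by
    rw [zpow_add₀ two_ne_zero, zpow_natCast]
    exact h.trans (mul_lt_mul_of_pos_right h1 h2)
  rw [zpow_lt_zpow_iff_right₀ one_lt_two] at h3
  linarith

theorem aux (q : GP) (m : ℕ) (hm : q.Δ = 3 * m) (d : ℝ) :
    ∃ F : Finset ℤ, F.card ≤ 6 * m + 3 ∧
      ∀ a, a ∈ F ↔ q.lo (false, a) < d ∧ d ≤ q.hi (false, a) := by
  refine cover _ (6 * m + 2) fun a b ha hb => ?_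
  have h := hb.1.trans_le ha.2
  simp only [GP.lo, GP.hi, Bool.false_eq_true, if_false, hm] at h
  refine (two_lt (6 * m + 2) ?_).le
  push_cast
  linarith

theorem one (Δ : ℝ) (hΔ : 0 < Δ) (d : ℝ) :
    ∃ F : Finset ℤ, F.card ≤ 1 ∧ ∀ a, a ∈ F ↔ Δ * 2 ^ a < d ∧ d ≤ 2 * Δ * 2 ^ a := by
  refine cover _ 0 fun a b ha hb => ?_
  have h := hb.1.trans_le ha.2
  have h3 : (2 : ℝ) ^ b < 2 ^ (a + 1) := by
    rw [zpow_add₀ two_ne_zero, zpow_one]
    refine lt_of_mul_lt_mul_left (a := Δ) ?_ hΔ.le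
    linarith
  rw [zpow_lt_zpow_iff_right₀ one_lt_two] at h3
  push_cast
  linarith

theorem both (q : GP) (m : ℕ) (hm : q.Δ = 3 * m) (h0 : 0 < q.ζ) (h1 : q.ζ < 1) (d : ℝ) :
    ∃ F : Finset Sc, F.card ≤ 2 * q.k + 6 * m + 12 ∧ ∀ j, j ∈ F ↔ q.lo j < d ∧ d ≤ q.hi j := by
  obtain ⟨F1, c1, m1⟩ := sig q h0 h1 d
  obtain ⟨F2, c2, m2⟩ := aux q m hm d
  refine ⟨F1.image (fun a => (true, a)) ∪ F2.image (fun a => (false, a)), ?_, ?_⟩
  · have := card_union_le (F1.image fun a => ((true, a) : Sc)) (F2.image fun a => (false, a))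
    have := card_image_le (s := F1) (f := fun a => ((true, a) : Sc))
    have := card_image_le (s := F2) (f := fun a => ((false, a) : Sc))
    omega
  · rintro ⟨b, a⟩
    cases b
    · rw [← m2]
      simp
    · rw [← m1]
      simp

theorem card_bi {α β : Type} [DecidableEq β] (s : Finset α) (f : α → Finset β) {n c : ℕ}
    (hs : s.card ≤ n) (hf : ∀ a, (f a).card ≤ c) : (s.biUnion f).card ≤ n * c :=
  card_biUnion_le.trans ((sum_le_card_nsmul _ _ c fun a _ => hf a).trans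
    (Nat.mul_le_mul_right c hs))

theorem card_sq {α : Type} {Y : Finset α} {n : ℕ} (h : Y.card ≤ n) : (Y ×ˢ Y).card ≤ n ^ 2 := by
  rw [card_product, pow_two]
  exact Nat.mul_le_mul h h

end TCNTAux

open TCNTAux

theorem cnt1 : CNT1S := by
  classical
  intro V _ _ q m hm h0 h1
  choose S hc hS using both q m hm h0 h1
  refine ⟨univ.biUnion fun p : V × V => S (dist p.1 p.2), ?_, fun j hj => ?_, fun Y hY => ?_⟩
  · rintro Y j ⟨s, -, t, -, h⟩
    exact mem_biUnion.2 ⟨(s, t), mem_univ _, (hS _ j).2 h⟩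
  · obtain ⟨p, -, hp⟩ := mem_biUnion.1 hj
    exact ⟨p.1, p.2, ((hS _ j).1 hp).1⟩
  · refine le_trans (card_le_card fun j hj => ?_)
      (card_bi (Y ×ˢ Y) (fun p : V × V => S (dist p.1 p.2)) (card_sq hY) fun _ => hc _)
    obtain ⟨s, hs, t, ht, h⟩ := (mem_filter.1 hj).2
    exact mem_biUnion.2 ⟨(s, t), mem_product.2 ⟨hs, ht⟩, (hS _ j).2 h⟩

theorem cnt2 : CNT2S := by
  classical
  intro V Z _ _ _ q cl ep X e hΔ h0 h1 hep hpad hX hX'
  choose S hc hS using sig q h0 h1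
  choose A ha hA using one q.Δ hΔ
  set J : Finset ℤ := (X (e - 1) ×ˢ X (e - 1)).biUnion (fun p : V × V => S (dist p.1 p.2)) ∪
    (X e ×ˢ X e).biUnion (fun p : V × V => S (dist p.1 p.2)) with hJ
  set E : Finset (Sc × V) := (X e ×ˢ X e).biUnion (fun p : V × V =>
    (A (dist p.1 p.2)).image fun j => ((false, j), p.1)) ∪
    (J ×ˢ X e).image fun p => ((true, p.1), p.2) with hE
  have cJ : J.card ≤ (q.k + 1) ^ 2 * (2 * q.k + 7) + (q.k + 1) ^ 2 * (2 * q.k + 7) :=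
    (card_union_le _ _).trans (add_le_add (card_bi _ _ (card_sq hX') fun _ => hc _)
      (card_bi _ _ (card_sq hX) fun _ => hc _))
  have cE : E.card ≤ (q.k + 1) ^ 3 * (4 * q.k + 20) := by
    refine (card_union_le _ _).trans ((add_le_add (card_bi _ _ (card_sq hX)
      fun _ => card_image_le.trans (ha _)) (card_image_le.trans ((card_product _ _).le.trans
        (Nat.mul_le_mul cJ hX)))).trans ?_)
    generalize q.k = k
    nlinarith [Nat.zero_le k, Nat.zero_le (k ^ 2), Nat.zero_le (k ^ 3)]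
  have hact : ∀ (Y : Finset V) (j : ℤ), act q Y (true, j) →
      j ∈ (Y ×ˢ Y).biUnion (fun p : V × V => S (dist p.1 p.2)) := by
    rintro Y j ⟨s, hs, t, ht, h⟩
    exact mem_biUnion.2 ⟨(s, t), mem_product.2 ⟨hs, ht⟩, (hS _ j).2 h⟩
  have hsub : univ.filter (fun z => ¬ Pad q (cl z) X e) ⊆
      E.biUnion fun p => univ.filter fun z => ¬ padded (cl z p.1) (q.scl p.1) p.2 := by
    intro z hz
    by_contra hn
    have hall : ∀ p ∈ E, padded (cl z p.1) (q.scl p.1) p.2 := fun p hp => by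
      by_contra h
      exact hn (mem_biUnion.2 ⟨p, hp, mem_filter.2 ⟨mem_univ _, h⟩⟩)
    refine (mem_filter.1 hz).2 ⟨fun s hs t ht j a1 a2 => ?_, fun j hj s hs => ?_⟩
    · exact hall ((false, j), s) (mem_union_left _ (mem_biUnion.2 ⟨(s, t),
        mem_product.2 ⟨hs, ht⟩, mem_image.2 ⟨j, (hA _ j).2 ⟨a1, a2⟩, rfl⟩⟩))
    · refine hall ((true, j), s) (mem_union_right _ (mem_image.2 ⟨(j, s),
        mem_product.2 ⟨?_, hs⟩, rfl⟩))
      exact hj.elim (fun h => mem_union_left _ (hact _ j h)) fun h => mem_union_right _ (hact _ j h)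
  have h2 : ((univ.filter (fun z => ¬ Pad q (cl z) X e)).card : ℝ) ≤
      ∑ p ∈ E, ((univ.filter fun z => ¬ padded (cl z p.1) (q.scl p.1) p.2).card : ℝ) := by
    exact_mod_cast (card_le_card hsub).trans card_biUnion_le
  have h3 := sum_le_card_nsmul E _ _ fun p (_ : p ∈ E) => hpad p.1 p.2
  have h4 : (E.card : ℝ) ≤ ((q.k : ℝ) + 1) ^ 3 * (4 * q.k + 20) := by exact_mod_cast cE
  have h5 : 0 ≤ ep * Fintype.card Z := mul_nonneg hep (Nat.cast_nonneg _)
  rw [nsmul_eq_mul] at h3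
  have h6 := mul_le_mul_of_nonneg_right h4 h5
  refine h2.trans (h3.trans (h6.trans (le_of_eq ?_)))
  ring

end Vale.Agent.P235
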