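import Vale.Agent.P235.Sts

namespace Vale.Agent.P235

open Finset
open scoped BigOperators

namespace TCOVAux

theorem right_good (g : ℕ → ℝ) (T : ℕ) : ∀ n s, T - s ≤ n →
    (∀ σ, s ≤ σ → σ < T → ∃ e, σ < e ∧ e ≤ T ∧ 0 ≤ ∑ i ∈ Ico σ e, g i) →
    0 ≤ ∑ i ∈ Ico s T, g i := by
  intro n
  induction n with
  | zero =>
    intro s hs _
    rw [Ico_eq_empty (by omega), sum_empty]
  | succ n ih =>
    intro s hs h
    by_cases h1 : s < T
    · obtain ⟨e, h2, h3, h4⟩ := h s le_rfl h1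
      rw [← sum_Ico_consecutive g h2.le h3]
      exact add_nonneg h4 (ih e (by omega) fun σ h5 h6 => h σ (by omega) h6)
    · rw [Ico_eq_empty h1, sum_empty]

theorem left_good (g : ℕ → ℝ) (s : ℕ) : ∀ T,
    (∀ σ, s ≤ σ → σ < T → ∃ b, s ≤ b ∧ b ≤ σ ∧ 0 ≤ ∑ i ∈ Ico b (σ + 1), g i) →
    0 ≤ ∑ i ∈ Ico s T, g i := by
  intro T
  induction T using Nat.strong_induction_on with
  | _ T ih =>
    intro h
    by_cases h1 : s < T
    · obtain ⟨σ, rfl⟩ : ∃ σ, T = σ + 1 := ⟨T - 1, by omega⟩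
      obtain ⟨b, h2, h3, h4⟩ := h σ (by omega) (by omega)
      rw [← sum_Ico_consecutive g h2 (by omega : b ≤ σ + 1)]
      exact add_nonneg (ih b (by omega) fun τ h5 h6 => h τ h5 (by omega)) h4
    · rw [Ico_eq_empty h1, sum_empty]

theorem tele (f : ℕ → ℝ) {b e : ℕ} (h : b ≤ e) :
    ∑ i ∈ Ico b e, (f i - f (i + 1)) = f b - f e := by
  induction e, h using Nat.le_induction with
  | base => simp
  | succ e h ih => rw [sum_Ico_succ_top h, ih]; ring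

theorem sum_cut (a d : ℕ → ℝ) {R I : Finset ℕ} (h : R ⊆ I) :
    ∑ i ∈ I, (a i - if i ∈ R then d i else 0) = ∑ i ∈ I, a i - ∑ i ∈ R, d i := by
  rw [sum_sub_distrib, ← sum_filter, filter_mem_eq_inter, inter_eq_right.2 h]

theorem cut_ge (a d : ℕ → ℝ) (R : Finset ℕ) {I : Finset ℕ} (hd : ∀ i ∈ I, 0 ≤ d i)
    (h : ∑ i ∈ I, d i ≤ ∑ i ∈ I, a i) : 0 ≤ ∑ i ∈ I, (a i - if i ∈ R then d i else 0) := by
  refine le_trans (by rw [sum_sub_distrib]; linarith : 0 ≤ ∑ i ∈ I, (a i - d i))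
    (sum_le_sum fun i hi => ?_)
  split_ifs
  · exact le_rfl
  · linarith [hd i hi]

end TCOVAux

open TCOVAux

theorem cov : COVS := by
  classical
  intro t0 T co f c S hc hco hf hS
  set d : ℕ → ℝ := fun σ => c / 2 * (f σ - f (σ + 1)) with hd
  set a : ℕ → ℝ := fun σ => co σ + if t0 < σ then co (σ - 1) else 0 with ha
  have hd0 : ∀ σ, t0 ≤ σ → σ < T → 0 ≤ d σ := fun σ h1 h2 =>
    mul_nonneg (by linarith) (by linarith [hf σ h1 h2])
  have ha1 : ∀ σ, co σ ≤ a σ := fun σ => by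
    simp only [ha]
    split_ifs
    · linarith [hco (σ - 1)]
    · linarith
  have ha0 : ∀ σ, 0 ≤ a σ := fun σ => (hco σ).trans (ha1 σ)
  have hsum : ∑ σ ∈ Ico t0 T, a σ ≤ 2 * ∑ σ ∈ Ico t0 T, co σ := by
    have h1 : ∀ n, t0 ≤ n → ∑ σ ∈ Ico t0 (n + 1), (if t0 < σ then co (σ - 1) else 0) =
        ∑ σ ∈ Ico t0 n, co σ := by
      intro n hn
      induction n, hn using Nat.le_induction with
      | base => simp
      | succ n hn ih =>
        rw [sum_Ico_succ_top (by omega), ih, if_pos (by omega), sum_Ico_succ_top hn]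
        rfl
    simp only [ha]
    rw [sum_add_distrib]
    by_cases h2 : t0 < T
    · obtain ⟨n, rfl⟩ : ∃ n, T = n + 1 := ⟨T - 1, by omega⟩
      rw [h1 n (by omega), sum_Ico_succ_top (by omega : t0 ≤ n)]
      linarith [hco n]
    · rw [Ico_eq_empty h2]
      simp
  have hSI : S ⊆ Ico t0 T := fun τ hτ => by
    obtain ⟨b, e, h1, h2, h3, h4, -⟩ := hS τ hτ
    exact mem_Ico.2 ⟨by omega, by omega⟩
  set R := S.filter fun τ => ∃ e, τ < e ∧ e ≤ T ∧ ∑ i ∈ Ico τ e, d i ≤ ∑ i ∈ Ico τ e, a i with hR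
  have hL : ∀ τ ∈ S \ R, ∃ b, t0 ≤ b ∧ b ≤ τ ∧
      ∑ i ∈ Ico b (τ + 1), d i ≤ ∑ i ∈ Ico b (τ + 1), a i := by
    intro τ hτ
    obtain ⟨hτ1, hτ2⟩ := mem_sdiff.1 hτ
    obtain ⟨b, e, h1, h2, h3, h4, h5⟩ := hS τ hτ1
    have h6 : ∑ i ∈ Ico τ e, a i < ∑ i ∈ Ico τ e, d i := by
      by_contra h7
      exact hτ2 (mem_filter.2 ⟨hτ1, e, h3, h4, not_lt.1 h7⟩)
    have hb1 : min (b + 1) τ ≤ τ := min_le_right _ _
    have hb2 : b ≤ min (b + 1) τ := le_min (by omega) h2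
    refine ⟨min (b + 1) τ, by omega, hb1, ?_⟩
    have h7 : ∑ σ ∈ Ico b e, co σ ≤ ∑ i ∈ Ico (min (b + 1) τ) e, a i := by
      by_cases h8 : b = τ
      · rw [show min (b + 1) τ = b by omega]
        exact sum_le_sum fun i _ => ha1 i
      · rw [show min (b + 1) τ = b + 1 by omega, sum_eq_sum_Ico_succ_bot (by omega : b < e),
          sum_eq_sum_Ico_succ_bot (by omega : b + 1 < e),
          sum_eq_sum_Ico_succ_bot (by omega : b + 1 < e)]
        have h9 : a (b + 1) = co (b + 1) + co b := by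
          simp only [ha]
          rw [if_pos (by omega)]
          rfl
        have h10 : ∑ i ∈ Ico (b + 1 + 1) e, co i ≤ ∑ i ∈ Ico (b + 1 + 1) e, a i :=
          sum_le_sum fun i _ => ha1 i
        linarith
    have h8 : ∑ i ∈ Ico (min (b + 1) τ) e, d i = c / 2 * (f (min (b + 1) τ) - f e) := by
      simp only [hd]
      rw [← mul_sum, tele f (by omega)]
    rw [← sum_Ico_consecutive a hb1 h3.le] at h7
    rw [← sum_Ico_consecutive d hb1 h3.le] at h8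
    rw [sum_Ico_succ_top hb1, sum_Ico_succ_top hb1]
    have h9 : d τ ≤ ∑ i ∈ Ico τ e, d i :=
      single_le_sum (f := d) (fun i hi => hd0 i (by have := mem_Ico.1 hi; omega)
        (by have := mem_Ico.1 hi; omega)) (mem_Ico.2 ⟨le_rfl, h3⟩)
    have h10 : 0 ≤ ∑ i ∈ Ico (min (b + 1) τ) τ, d i :=
      sum_nonneg fun i hi => hd0 i (by have := mem_Ico.1 hi; omega)
        (by have := mem_Ico.1 hi; omega)
    linarith [ha0 τ]
  have k1 := right_good (fun i => a i - if i ∈ R then d i else 0) T _ t0 le_rfl (by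
    intro σ h1 h2
    by_cases h3 : σ ∈ R
    · obtain ⟨e, h4, h5, h6⟩ := (mem_filter.1 h3).2
      exact ⟨e, h4, h5, cut_ge a d R (fun i hi => hd0 i (by have := mem_Ico.1 hi; omega)
        (by have := mem_Ico.1 hi; omega)) h6⟩
    · refine ⟨σ + 1, by omega, by omega, ?_⟩
      simp [h3, ha0])
  have k2 := left_good (fun i => a i - if i ∈ S \ R then d i else 0) t0 T (by
    intro σ h1 h2
    by_cases h3 : σ ∈ S \ R
    · obtain ⟨b, h4, h5, h6⟩ := hL σ h3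
      exact ⟨b, h4, h5, cut_ge a d _ (fun i hi => hd0 i (by have := mem_Ico.1 hi; omega)
        (by have := mem_Ico.1 hi; omega)) h6⟩
    · refine ⟨σ, h1, le_rfl, ?_⟩
      rw [Nat.Ico_succ_singleton, sum_singleton, if_neg h3, sub_zero]
      exact ha0 σ)
  have hRS : R ⊆ S := filter_subset _ _
  rw [sum_cut a d (hRS.trans hSI)] at k1
  rw [sum_cut a d (sdiff_subset.trans hSI)] at k2
  have k3 : ∑ i ∈ S \ R, d i + ∑ i ∈ R, d i = c / 2 * ∑ τ ∈ S, (f τ - f (τ + 1)) := by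
    rw [sum_sdiff hRS, mul_sum]
  linarith

theorem cons (hb : Base) : CONS := by
  intro k
  have hM : 2 ≤ 48 * (k + 1) * (k + 2) ^ 3 := by
    have : 1 ≤ (k + 1) * (k + 2) ^ 3 := Nat.succ_le_of_lt (by positivity)
    rw [mul_assoc]
    omega
  have hM' : (2 : ℝ) ≤ ((48 * (k + 1) * (k + 2) ^ 3 : ℕ) : ℝ) := by exact_mod_cast hM
  obtain ⟨p, hp, h1, h2, h3, h4⟩ := hb.m0.ex k
    (2 * (k + 1) ^ 3 * (2 * k + 6 * (8 * (k + 1) ^ 4 * (4 * k + 20)) + 12))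
    (48 * (k + 1) * (k + 2) ^ 3) (1 / ((48 * (k + 1) * (k + 2) ^ 3 : ℕ) : ℝ)) hM
    (by positivity) (by rw [div_le_one (by linarith)]; linarith)
  obtain ⟨a0, a1, -⟩ := hb.m0.a0 p hp
  set m : ℕ := 8 * (k + 1) ^ 4 * (4 * k + 20) with hm
  have hm0 : 0 < m := by positivity
  have hm1 : (1 : ℝ) ≤ m := by exact_mod_cast hm0
  have hpM : (2 : ℝ) ≤ p.M := by exact_mod_cast hp.M2
  have m0 := hb.ex.m2pos p.M hp.M2
  have hθ : 0 < p.a / (2 * (3 * (m : ℝ)) * p.M) := by positivity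
  refine ⟨p, ⟨k, 3 * m, p.a / (2 * (3 * (m : ℝ)) * p.M) * m2 p.M /
      (1000 * ((k : ℝ) + 1) ^ 2 * (3 * m + 1))⟩,
    ⟨p.a, p.a / (2 * (3 * (m : ℝ)) * p.M), m2 p.M, 1 / (16 * ((k : ℝ) + 1))⟩, m, hp,
    ⟨a0, a1, hθ, ?_, m0, hb.ex.m2le p.M hp.M2, ?_, ?_, ?_, ?_, ?_⟩,
    ⟨h1.symm, rfl, rfl, ?_, ?_⟩, h1, hm0, rfl, ?_, ?_⟩
  · show p.a / (2 * (3 * (m : ℝ)) * p.M) ≤ 1
    rw [div_le_one (by positivity)]
    nlinarith
  · show 0 ≤ 1 / (16 * ((k : ℝ) + 1))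
    positivity
  · show 16 * ((k : ℝ) + 1) * (1 / (16 * ((k : ℝ) + 1))) ≤ 1
    rw [mul_one_div_cancel (by positivity)]
  · show (3 : ℝ) ≤ 3 * m
    linarith
  · show 0 < p.a / (2 * (3 * (m : ℝ)) * p.M) * m2 p.M / (1000 * ((k : ℝ) + 1) ^ 2 * (3 * m + 1))
    positivity
  · show 1000 * ((k : ℝ) + 1) ^ 2 * (3 * m + 1) * (p.a / (2 * (3 * (m : ℝ)) * p.M) * m2 p.M /
      (1000 * ((k : ℝ) + 1) ^ 2 * (3 * m + 1))) ≤ p.a / (2 * (3 * (m : ℝ)) * p.M) * m2 p.M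
    rw [mul_div_cancel₀ _ (by positivity)]
  · show 2 * (3 * (m : ℝ)) * p.M * (p.a / (2 * (3 * (m : ℝ)) * p.M)) ≤ p.a
    rw [mul_div_cancel₀ _ (by positivity)]
  · show ((p.k : ℝ) + 2) ^ 3 * (2 * p.eb + 1 / p.M) ≤ 1 / (16 * ((k : ℝ) + 1))
    rw [h1, h4, h3]
    push_cast
    refine le_of_eq ?_
    field_simp
    ring
  · rw [h1, h2]
  · rw [hm]
    push_cast
    refine le_of_eq ?_
    field_simp
    ring

end Vale.Agent.P235
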