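import Vale.Agent.P235.Sts

namespace Vale.Agent.P235

open Finset
open scoped BigOperators

namespace TCutAAux

open MeasureTheory

theorem cut_meas {V : Type} [LinearOrder V] (X : Finset V) (F : V → ℝ) :
    ∀ g : Finset V → ℝ, Measurable fun y : ℝ => g (X.filter (fun s => y < F s)) := by
  induction X using Finset.induction_on with
  | empty => intro g; simp
  | insert a X _ ih =>
    intro g
    have h : (fun y : ℝ => g ((insert a X).filter (fun s => y < F s))) = fun y : ℝ =>
        if y < F a then g (insert a (X.filter (fun s => y < F s)))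
        else g (X.filter (fun s => y < F s)) := by
      funext y
      rw [Finset.filter_insert]
      split_ifs <;> rfl
    rw [h]
    exact Measurable.ite measurableSet_Iio (ih fun A => g (insert a A)) (ih g)

/-- The step function. -/
noncomputable def H (a y : ℝ) : ℝ := if y < a then 1 else 0

theorem H_meas (a : ℝ) : Measurable (H a) :=
  Measurable.ite measurableSet_Iio measurable_const measurable_const

theorem HH_eq {a b : ℝ} (h : a ≤ b) (y : ℝ) :
    |H a y - H b y| = (Set.Ico a b).indicator (fun _ => (1 : ℝ)) y := by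
  unfold H
  by_cases h1 : y < a
  · have h2 : y < b := h1.trans_le h
    have h3 : y ∉ Set.Ico a b := fun hh => absurd hh.1 (not_le.2 h1)
    simp [h1, h2, h3]
  · by_cases h2 : y < b
    · have h3 : y ∈ Set.Ico a b := ⟨not_lt.1 h1, h2⟩
      simp [h1, h2, h3]
    · have h3 : y ∉ Set.Ico a b := fun hh => h2 hh.2
      simp [h1, h2, h3]

theorem HH_ii (a b c d : ℝ) : IntervalIntegrable (fun y => |H a y - H b y|) volume c d := by
  refine (intervalIntegrable_const (c := (1 : ℝ))).mono_fun' ?_ (Filter.Eventually.of_forall ?_)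
  · exact (((H_meas a).sub (H_meas b)).abs).aestronglyMeasurable
  · intro y
    simp only [H, Real.norm_eq_abs, abs_abs]
    split_ifs <;> simp

theorem HH_int {a b L : ℝ} (h : a ≤ b) (hL : 0 ≤ L) :
    ∫ y in (-L)..L, |H a y - H b y| = volume.real (Set.Ioc (-L) L ∩ Set.Ico a b) := by
  simp only [HH_eq h]
  rw [intervalIntegral.integral_of_le (by linarith), setIntegral_indicator measurableSet_Ico]
  simp

theorem HH_le' {a b L : ℝ} (h : a ≤ b) (hL : 0 ≤ L) :
    ∫ y in (-L)..L, |H a y - H b y| ≤ b - a := by
  rw [HH_int h hL]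
  refine (measureReal_mono Set.inter_subset_right (by simp)).trans ?_
  rw [Real.volume_real_Ico_of_le h]

theorem HH_le (a b : ℝ) {L : ℝ} (hL : 0 ≤ L) : ∫ y in (-L)..L, |H a y - H b y| ≤ |a - b| := by
  rcases le_total a b with h | h
  · rw [abs_sub_comm a b, abs_of_nonneg (sub_nonneg.2 h)]
    exact HH_le' h hL
  · simp only [abs_sub_comm (H a _) (H b _)]
    rw [abs_of_nonneg (sub_nonneg.2 h)]
    exact HH_le' h hL

theorem HH_eq' {a b L : ℝ} (h : a ≤ b) (ha : -L ≤ a) (hb : b ≤ L) :
    ∫ y in (-L)..L, |H a y - H b y| = b - a := by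
  have hL : 0 ≤ L := by linarith
  refine le_antisymm (HH_le' h hL) ?_
  rw [HH_int h hL, ← Real.volume_real_Ioo_of_le h]
  refine measureReal_mono (fun y hy => ⟨⟨ha.trans_lt hy.1, hy.2.le.trans hb⟩, hy.1.le, hy.2⟩) ?_
  exact ne_top_of_le_ne_top (by simp) (measure_mono Set.inter_subset_right)

theorem HH_val {a b L : ℝ} (ha : |a| ≤ L) (hb : |b| ≤ L) :
    ∫ y in (-L)..L, |H a y - H b y| = |a - b| := by
  rcases le_total a b with h | h
  · rw [abs_sub_comm a b, abs_of_nonneg (sub_nonneg.2 h)]
    exact HH_eq' h (abs_le.1 ha).1 (abs_le.1 hb).2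
  · simp only [abs_sub_comm (H a _) (H b _)]
    rw [abs_of_nonneg (sub_nonneg.2 h)]
    exact HH_eq' h (abs_le.1 hb).1 (abs_le.1 ha).2

theorem ind_filter {V : Type} [LinearOrder V] (X : Finset V) (F : V → ℝ) {s : V} (hs : s ∈ X)
    (y : ℝ) : ind s (X.filter (fun t => y < F t)) = H (F s) y := by
  simp [ind, H, hs]

theorem pt_le {V : Type} [LinearOrder V] (X : Finset V) (g : Finset V → ℝ) (F F' : V → ℝ)
    (hg : U01 g) (y : ℝ) : |g (X.filter (fun s => y < F s)) - g (X.filter (fun s => y < F' s))| ≤
      ∑ s ∈ X, |H (F s) y - H (F' s) y| := by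
  by_cases h : ∀ s ∈ X, (y < F s ↔ y < F' s)
  · rw [Finset.filter_congr h, sub_self, abs_zero]
    exact Finset.sum_nonneg fun s _ => abs_nonneg _
  · push Not at h
    obtain ⟨s, hs, h⟩ := h
    have h1 : |H (F s) y - H (F' s) y| = 1 := by
      unfold H
      rcases h with ⟨h1, h2⟩ | ⟨h1, h2⟩
      · simp [h1, not_lt.2 h2]
      · simp [not_lt.2 h1, h2]
    have h2 := Finset.single_le_sum (f := fun s => |H (F s) y - H (F' s) y|)
      (fun s _ => abs_nonneg _) hs
    have h3 := hg (X.filter (fun s => y < F s))
    have h4 := hg (X.filter (fun s => y < F' s))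
    refine le_trans ?_ h2
    rw [h1, abs_le]
    constructor <;> linarith [h3.1, h3.2, h4.1, h4.2]

end TCutAAux

open TCutAAux MeasureTheory

theorem cut_ii {V : Type} [LinearOrder V] (X : Finset V) (g : Finset V → ℝ) (F : V → ℝ)
    (a b : ℝ) :
    IntervalIntegrable (fun y : ℝ => g (X.filter (fun s => y < F s))) volume a b := by
  refine (intervalIntegrable_const (c := ∑ A ∈ X.powerset, |g A|)).mono_fun'
    (cut_meas X F g).aestronglyMeasurable (Filter.Eventually.of_forall fun y => ?_)
  exact Finset.single_le_sum (f := fun A => |g A|) (fun A _ => abs_nonneg _)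
    (Finset.mem_powerset.2 (Finset.filter_subset _ _))

theorem cutA : CutA where
  rep := fun V _ L X g F => by
    unfold cutI
    simp only [← intervalIntegral.integral_mul_const]
    rw [← intervalIntegral.integral_finsetSum fun A _ =>
      (cut_ii X (fun A' => if A' = A then (1 : ℝ) else 0) F _ _).mul_const (g A)]
    refine intervalIntegral.integral_congr fun y _ => ?_
    simp only [ite_mul, one_mul, zero_mul]
    rw [Finset.sum_ite_eq, if_pos (Finset.mem_powerset.2 (Finset.filter_subset _ _))]
  mono := fun V _ L X g g' F hL h =>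
    intervalIntegral.integral_mono_on (by linarith) (cut_ii X g F _ _) (cut_ii X g' F _ _)
      fun y _ => h _ (Finset.filter_subset _ _)
  lin := fun V _ L X g g' F a b => by
    unfold cutI
    rw [intervalIntegral.integral_add ((cut_ii X g F _ _).const_mul a)
      ((cut_ii X g' F _ _).const_mul b), intervalIntegral.integral_const_mul,
      intervalIntegral.integral_const_mul]
  res := fun V _ L X Y g F h => by
    unfold cutI
    refine intervalIntegral.integral_congr fun y _ => ?_
    have e : X.filter (fun s => y < F s) ∩ Y = Y.filter (fun s => y < F s) := by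
      ext s
      simp only [Finset.mem_inter, Finset.mem_filter]
      exact ⟨fun hh => ⟨hh.2, hh.1.2⟩, fun hh => ⟨⟨h hh.1, hh.2⟩, hh.1⟩⟩
    simp only [e]
  congr := fun V _ L X g F F' h => by
    unfold cutI
    refine intervalIntegral.integral_congr fun y _ => ?_
    have e : X.filter (fun s => y < F s) = X.filter (fun s => y < F' s) :=
      Finset.filter_congr fun s hs => by rw [h s hs]
    simp only [e]
  const := fun V _ L X c F => by
    unfold cutI
    rw [intervalIntegral.integral_const, smul_eq_mul]
    ring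
  xor := fun V _ L X F s t hs ht h1 h2 => by
    unfold cutI
    simp only [ind_filter X F hs, ind_filter X F ht]
    exact HH_val h1 h2
  lip := fun V _ L X g F F' hL hg => by
    unfold cutI
    rw [← intervalIntegral.integral_sub (cut_ii X g F _ _) (cut_ii X g F' _ _)]
    refine (intervalIntegral.abs_integral_le_integral_abs (by linarith)).trans ?_
    refine le_trans ?_ (Finset.sum_le_sum fun s _ => HH_le (F s) (F' s) hL)
    rw [← intervalIntegral.integral_finsetSum fun s _ => HH_ii (F s) (F' s) _ _]
    refine intervalIntegral.integral_mono_on (by linarith)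
      ((cut_ii X g F _ _).sub (cut_ii X g F' _ _)).abs ?_ fun y _ => pt_le X g F F' hg y
    have := IntervalIntegrable.sum X (f := fun s y => |H (F s) y - H (F' s) y|)
      (μ := volume) (a := -L) (b := L) fun s _ => HH_ii (F s) (F' s) _ _
    refine this.congr fun y _ => ?_
    simp only [Finset.sum_apply]

end Vale.Agent.P235
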