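import Vale.Agent.P235.Sts

namespace Vale.Agent.P235

open Finset
open scoped BigOperators

namespace TCutBAux

variable {V : Type} [LinearOrder V]

theorem mem_up {X : Finset V} {F : V → ℝ} {s t : V} :
    t ∈ up X F s ↔ t ∈ X ∧ toLex (F s, s) ≤ toLex (F t, t) := by
  rw [up, mem_filter, Prod.Lex.toLex_le_toLex]

theorem up_le {X : Finset V} {F : V → ℝ} {s t : V} (h : t ∈ up X F s) : t ∈ X ∧ F s ≤ F t := by
  rw [up, mem_filter] at h
  exact ⟨h.1, h.2.elim le_of_lt fun h => h.1.le⟩

theorem tele (X : Finset V) (g : Finset V → ℝ) (F : V → ℝ) (n : ℕ) :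
    ∀ U : Finset V, U.card = n → U ⊆ X → (∀ s ∈ U, up X F s ⊆ U) →
      g U = g ∅ + ∑ s ∈ U, cc X g F s := by
  induction n with
  | zero =>
    intro U hU _ _
    rw [card_eq_zero.1 hU]
    simp
  | succ n ih =>
    intro U hU hX hc
    obtain ⟨s0, h0, hmin⟩ := exists_min_image U (fun s => toLex (F s, s))
      (card_pos.1 (by omega))
    have e : up X F s0 = U :=
      Subset.antisymm (hc s0 h0) fun t ht => mem_up.2 ⟨hX ht, hmin t ht⟩
    have h1 := ih (U.erase s0) (by rw [card_erase_of_mem h0]; omega) ((erase_subset _ _).trans hX)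
      (fun s hs t ht => by
        refine mem_erase.2 ⟨?_, hc s (mem_of_mem_erase hs) ht⟩
        rintro rfl
        have := le_antisymm (mem_up.1 ht).2 (hmin s (mem_of_mem_erase hs))
        exact (mem_erase.1 hs).1 (congrArg (fun p => (ofLex p).2) this))
    rw [← add_sum_erase U _ h0, cc, e]
    linarith

theorem tele' {X U : Finset V} (g : Finset V → ℝ) {F : V → ℝ} (hX : U ⊆ X)
    (hc : ∀ s ∈ U, up X F s ⊆ U) : g U = g ∅ + ∑ s ∈ U, cc X g F s :=
  tele X g F _ U rfl hX hc

/-- the step function -/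
noncomputable def st (a y : ℝ) : ℝ := if y < a then 1 else 0

theorem st_anti (a : ℝ) : Antitone (st a) := by
  intro y z h
  unfold st
  split_ifs with h1 h2
  · exact le_rfl
  · exact absurd (h.trans_lt h1) h2
  · exact zero_le_one
  · exact le_rfl

theorem st_int (a b c : ℝ) : IntervalIntegrable (st a) MeasureTheory.volume b c :=
  (st_anti a).intervalIntegrable

theorem st_val {a L : ℝ} (h : |a| ≤ L) : ∫ y in (-L)..L, st a y = a + L := by
  obtain ⟨h1, h2⟩ := abs_le.1 h
  rw [← intervalIntegral.integral_add_adjacent_intervals (st_int a (-L) a) (st_int a a L)]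
  have e1 : ∫ y in (-L)..a, st a y = ∫ _ in (-L)..a, (1 : ℝ) := by
    refine intervalIntegral.integral_congr_ae ?_
    filter_upwards [MeasureTheory.Measure.ae_ne MeasureTheory.volume a] with y hy hm
    rw [Set.uIoc_of_le h1] at hm
    exact if_pos (lt_of_le_of_ne hm.2 hy)
  have e2 : ∫ y in a..L, st a y = ∫ _ in a..L, (0 : ℝ) := by
    refine intervalIntegral.integral_congr fun y hm => ?_
    rw [Set.uIcc_of_le h2] at hm
    exact if_neg (not_lt.2 hm.1)
  rw [e1, e2]
  simp

theorem pw {X : Finset V} (g : Finset V → ℝ) {F0 F : V → ℝ}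
    (h : ∀ s ∈ X, ∀ t ∈ up X F0 s, F s ≤ F t) :
    (fun y => g (X.filter (fun s => y < F s))) =
      fun y => g ∅ + ∑ s ∈ X, cc X g F0 s * st (F s) y := by
  funext y
  rw [tele' g (F := F0) (filter_subset _ X) (fun s hs t ht => by
    rw [mem_filter] at hs ⊢
    exact ⟨(up_le ht).1, hs.2.trans_le (h s hs.1 t ht)⟩), sum_filter]
  congr 1
  refine sum_congr rfl fun s _ => ?_
  unfold st
  split_ifs <;> simp

omit [LinearOrder V] in
theorem sum_int (X : Finset V) (c F : V → ℝ) (a b : ℝ) :
    IntervalIntegrable (fun y => ∑ s ∈ X, c s * st (F s) y) MeasureTheory.volume a b := by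
  have := IntervalIntegrable.sum (μ := MeasureTheory.volume) (a := a) (b := b) X
    (f := fun s y => c s * st (F s) y) fun s _ => (st_int (F s) a b).const_mul (c s)
  have e : (∑ s ∈ X, fun y => c s * st (F s) y) = fun y => ∑ s ∈ X, c s * st (F s) y := by
    funext y
    rw [Finset.sum_apply]
  rwa [e] at this

theorem cut_int (X : Finset V) (g : Finset V → ℝ) (F : V → ℝ) (a b : ℝ) :
    IntervalIntegrable (fun y => g (X.filter (fun s => y < F s))) MeasureTheory.volume a b := by
  rw [pw g (F0 := F) fun s _ t ht => (up_le ht).2]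
  exact intervalIntegrable_const.add (sum_int X _ F a b)

theorem tot (X : Finset V) (g : Finset V → ℝ) (F : V → ℝ) :
    ∑ s ∈ X, cc X g F s = g X - g ∅ := by
  have := tele' g (F := F) (Subset.refl X) fun s _ t ht => (up_le ht).1
  linarith

theorem rank (L : ℝ) (X : Finset V) (g : Finset V → ℝ) (F0 F : V → ℝ)
    (h : ∀ s ∈ X, ∀ t ∈ up X F0 s, F s ≤ F t) (hL : ∀ s ∈ X, |F s| ≤ L) :
    cutI L X g F = L * (g ∅ + g X) + ∑ s ∈ X, cc X g F0 s * F s := by
  rw [cutI, pw g h, intervalIntegral.integral_add intervalIntegrable_const (sum_int X _ F _ _),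
    intervalIntegral.integral_finsetSum fun s _ => (st_int (F s) _ _).const_mul _]
  rw [sum_congr rfl fun s hs => by rw [intervalIntegral.integral_const_mul, st_val (hL s hs)]]
  simp only [mul_add, sum_add_distrib, ← sum_mul, tot, intervalIntegral.integral_const, smul_eq_mul]
  ring

theorem aff (L : ℝ) (X J : Finset V) (g : Finset V → ℝ) (F : V → ℝ) (u : ℝ) (hJ : J ⊆ X)
    (hu : ∀ s ∈ J, ∀ t ∈ X, t ∉ J → |u| ≤ |F s - F t|) (hL : ∀ s ∈ X, |F s| + |u| ≤ L) :
    cutI L X g (fun s => F s + if s ∈ J then u else 0) =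
      cutI L X g F + u * ∑ s ∈ J, cc X g F s := by
  rw [rank L X g F F (fun s _ t ht => (up_le ht).2)
    (fun s hs => by linarith [hL s hs, abs_nonneg u]), rank L X g F]
  · simp only [mul_add, sum_add_distrib, mul_ite, mul_zero]
    rw [← sum_filter, filter_mem_eq_inter, inter_eq_right.2 hJ, ← sum_mul]
    ring
  · intro s hs t ht
    obtain ⟨h1, h2⟩ := up_le ht
    split_ifs with a b b
    · linarith
    · have := hu s a t h1 b
      rw [abs_of_nonpos (sub_nonpos.2 h2)] at this
      linarith [le_abs_self u]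
    · have := hu t b s hs a
      rw [abs_of_nonneg (sub_nonneg.2 h2)] at this
      linarith [neg_abs_le u]
    · linarith
  · intro s hs
    refine (abs_add_le _ _).trans (le_trans ?_ (hL s hs))
    split_ifs
    · exact le_rfl
    · simp

theorem shift (L : ℝ) (X : Finset V) (g : Finset V → ℝ) (F : V → ℝ) (C : ℝ)
    (h : ∀ s ∈ X, |F s| ≤ L) (h' : ∀ s ∈ X, |F s + C| ≤ L) :
    cutI L X g (fun s => F s + C) = cutI L X g F + C * (g X - g ∅) := by
  rw [rank L X g F F (fun s _ t ht => (up_le ht).2) h,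
    rank L X g F _ (fun s _ t ht => by linarith [(up_le ht).2]) h']
  simp only [mul_add, sum_add_distrib, ← sum_mul, tot]
  ring

theorem hs (L : ℝ) (X J : Finset V) (g : Finset V → ℝ) (F : V → ℝ) (y : V) (r R : ℝ)
    (hJ : J ⊆ X) (hy : y ∈ J) (hg : U01 g) (hr : ∀ s ∈ J, |F s - F y| ≤ r)
    (hR : ∀ s ∈ X, s ∉ J → R ≤ |F s - F y|) (hrR : r ≤ R) (hL : ∀ s ∈ X, |F s| + R ≤ L) :
    (1 - ∑ s ∈ J, cc X g F s) * (R - r) ≤ cutI L X (fun A => |g A - ind y A|) F := by
  have r0 : 0 ≤ r := (abs_nonneg _).trans (hr y hy)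
  have hLy := hL y (hJ hy)
  have L0 : -L ≤ L := by linarith [abs_nonneg (F y)]
  rcases hrR.eq_or_lt with rfl | hlt
  · rw [sub_self, mul_zero]
    exact intervalIntegral.integral_nonneg L0 fun _ _ => abs_nonneg _
  have in1 : ∀ s ∈ J, F y - r ≤ F s ∧ F s ≤ F y + r := fun s hs => by
    have := abs_le.1 (hr s hs)
    constructor <;> linarith [this.1, this.2]
  have out : ∀ s ∈ X, s ∉ J → F y + R ≤ F s ∨ F s ≤ F y - R := fun s hs h =>
    (le_abs.1 (hR s hs h)).imp (fun h => by linarith) fun h => by linarith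
  obtain ⟨A, hA⟩ : ∃ A : Finset V, ∀ s, s ∈ A ↔ s ∈ X ∧ F y + R ≤ F s :=
    ⟨X.filter fun s => F y + R ≤ F s, fun s => mem_filter⟩
  have hd : Disjoint A J := disjoint_left.2 fun s h1 h2 => by
    linarith [((hA s).1 h1).2, (in1 s h2).2]
  have hB : ∀ s, s ∈ A ∪ J ↔ s ∈ X ∧ F y - r ≤ F s := fun s => by
    rw [mem_union, hA]
    constructor
    · rintro (h | h)
      · exact ⟨h.1, by linarith [h.2]⟩
      · exact ⟨hJ h, (in1 s h).1⟩
    · rintro ⟨h1, h2⟩
      by_cases h : s ∈ J
      · exact Or.inr h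
      · exact Or.inl ⟨h1, (out s h1 h).elim id fun h => by linarith⟩
  have t1 := tele' g (X := X) (U := A) (F := F) (fun s h => ((hA s).1 h).1) fun s h t ht =>
    (hA t).2 ⟨(up_le ht).1, ((hA s).1 h).2.trans (up_le ht).2⟩
  have t2 := tele' g (X := X) (U := A ∪ J) (F := F) (fun s h => ((hB s).1 h).1) fun s h t ht =>
    (hB t).2 ⟨(up_le ht).1, ((hB s).1 h).2.trans (up_le ht).2⟩
  rw [sum_union hd] at t2
  have c1 : ∀ z, F y + r ≤ z → z < F y + R → X.filter (fun s => z < F s) = A := by
    intro z h1 h2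
    ext s
    rw [mem_filter, hA]
    refine and_congr_right fun hs => ⟨fun h => ?_, fun h => h2.trans_le h⟩
    by_cases hj : s ∈ J
    · linarith [(in1 s hj).2]
    · exact (out s hs hj).elim id fun h' => by linarith
  have c2 : ∀ z, F y - R ≤ z → z < F y - r → X.filter (fun s => z < F s) = A ∪ J := by
    intro z h1 h2
    ext s
    rw [mem_filter, hB]
    refine and_congr_right fun hs => ⟨fun h => ?_, fun h => h2.trans_le h⟩
    by_cases hj : s ∈ J
    · exact (in1 s hj).1
    · exact (out s hs hj).elim (fun h' => by linarith) fun h' => by linarith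
  have i1 := ((st_int (F y + R) (-L) L).sub (st_int (F y + r) (-L) L)).const_mul (g A)
  have i2 := ((st_int (F y - r) (-L) L).sub (st_int (F y - R) (-L) L)).const_mul (1 - g (A ∪ J))
  have key := intervalIntegral.integral_mono_on L0 (i1.add i2)
    (cut_int X (fun A => |g A - ind y A|) F (-L) L) (fun z _ => by
      unfold st
      by_cases a1 : z < F y - R
      · rw [if_pos a1, if_pos (by linarith), if_pos (by linarith), if_pos (by linarith)]
        simp
      by_cases a2 : z < F y - r
      · rw [if_neg a1, if_pos a2, if_pos (by linarith), if_pos (by linarith),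
          c2 z (not_lt.1 a1) a2, ind, if_pos (mem_union_right _ hy), abs_sub_comm]
        linarith [le_abs_self (1 - g (A ∪ J))]
      by_cases a3 : z < F y + r
      · rw [if_neg a1, if_neg a2, if_pos a3, if_pos (by linarith)]
        simp
      by_cases a4 : z < F y + R
      · rw [if_neg a1, if_neg a2, if_neg a3, if_pos a4, c1 z (not_lt.1 a3) a4, ind,
          if_neg (disjoint_right.1 hd hy)]
        linarith [le_abs_self (g A - 0)]
      · rw [if_neg a1, if_neg a2, if_neg a3, if_neg a4]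
        simp)
  have b := abs_le.1 (le_refl |F y|)
  rw [intervalIntegral.integral_add i1 i2, intervalIntegral.integral_const_mul,
    intervalIntegral.integral_const_mul,
    intervalIntegral.integral_sub (st_int _ _ _) (st_int _ _ _),
    intervalIntegral.integral_sub (st_int _ _ _) (st_int _ _ _),
    st_val (abs_le.2 ⟨by linarith [b.1], by linarith [b.2]⟩),
    st_val (abs_le.2 ⟨by linarith [b.1], by linarith [b.2]⟩),
    st_val (abs_le.2 ⟨by linarith [b.1], by linarith [b.2]⟩),
    st_val (abs_le.2 ⟨by linarith [b.1], by linarith [b.2]⟩)] at key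
  refine le_of_eq_of_le ?_ key
  have : ∑ s ∈ J, cc X g F s = g (A ∪ J) - g A := by linarith
  rw [this]
  ring

end TCutBAux

theorem cutB (ha : CutA) : CutB ∧ CutHS :=
  ⟨⟨fun _ _ => TCutBAux.rank, fun _ _ => TCutBAux.aff, fun _ _ => TCutBAux.shift⟩,
    fun _ _ => TCutBAux.hs⟩

end Vale.Agent.P235
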