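import Vale.Agent.P235.Sts

namespace Vale.Agent.P235

open Finset
open scoped BigOperators

namespace TELAux

variable {T : Type} {H : SimpleGraph T}

theorem par_pen (hH : H.IsTree) (r : T) {t p : T} (P : H.Walk r t) (hP : P.IsPath)
    (ha : H.Adj t p) (hd : H.dist r p + 1 = H.dist r t) : p = P.penultimate := by
  obtain ⟨q, hq⟩ := hH.connected.exists_walk_length_eq_dist r p
  have h1 : (q.concat ha.symm).IsPath :=
    SimpleGraph.Walk.isPath_of_length_eq_dist _ (by rw [SimpleGraph.Walk.length_concat, hq, hd])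
  have h2 : P = q.concat ha.symm :=
    Subtype.mk.inj ((hH.isAcyclic.subsingleton_path r t).elim ⟨P, hP⟩ ⟨_, h1⟩)
  refine hH.isAcyclic.eq_penultimate_of_adj_end hP ha ?_
  rw [h2]
  exact q.support_subset_support_concat _ q.end_mem_support

theorem par_unique (hH : H.IsTree) (r : T) {t p p' : T} (ha : H.Adj t p) (ha' : H.Adj t p')
    (hd : H.dist r p + 1 = H.dist r t) (hd' : H.dist r p' + 1 = H.dist r t) : p = p' := by
  obtain ⟨P, hP, -⟩ := (hH.connected r t).exists_path_of_dist
  rw [par_pen hH r P hP ha hd, par_pen hH r P hP ha' hd']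

/-- One step down inside `A`. -/
def Step (H : SimpleGraph T) (r : T) (A : Set T) (p t : T) : Prop :=
  p ∈ A ∧ H.Adj t p ∧ H.dist r p + 1 = H.dist r t

theorem good_step (hH : H.IsTree) (r : T) {A : Set T} {a : T}
    (hmin : ∀ t ∈ A, H.dist r a ≤ H.dist r t) {s t : T} (hs : s ∈ A) (ht : t ∈ A)
    (hst : H.Adj s t) (hg : Relation.ReflTransGen (Step H r A) a s) :
    Relation.ReflTransGen (Step H r A) a t := by
  rcases hH.dist_eq_dist_add_one_of_adj r hst with h | h
  · rcases hg.cases_tail with e | ⟨c, hc, -, h2, h3⟩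
    · have := hmin t ht
      rw [e] at h
      omega
    · rw [par_unique hH r hst h2 h.symm h3]
      exact hc
  · exact hg.tail ⟨hs, hst.symm, h.symm⟩

theorem good_walk (hH : H.IsTree) (r : T) {A : Set T} {a : T}
    (hmin : ∀ t ∈ A, H.dist r a ≤ H.dist r t) {s t : A} (w : (H.induce A).Walk s t)
    (hg : Relation.ReflTransGen (Step H r A) a s.1) :
    Relation.ReflTransGen (Step H r A) a t.1 := by
  induction w with
  | nil => exact hg
  | @cons x y z h _ ih => exact ih (good_step hH r hmin x.2 y.2 h hg)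

theorem has_par (hH : H.IsTree) (r : T) {A : Set T} (hA : (H.induce A).Connected) {a : T}
    (ha : a ∈ A) (hmin : ∀ t ∈ A, H.dist r a ≤ H.dist r t) {t : T} (ht : t ∈ A) (hne : t ≠ a) :
    ∃ p, Step H r A p t := by
  obtain ⟨w⟩ := hA.preconnected ⟨a, ha⟩ ⟨t, ht⟩
  rcases (good_walk hH r hmin w Relation.ReflTransGen.refl).cases_tail with e | ⟨c, -, h⟩
  · exact absurd e hne
  · exact ⟨c, h⟩

theorem top_mem (hH : H.IsTree) (r : T) {A B : Set T} (hA : (H.induce A).Connected)
    (hB : (H.induce B).Connected) {a b : T} (ha : a ∈ A) (hb : b ∈ B)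
    (hma : ∀ t ∈ A, H.dist r a ≤ H.dist r t) (hmb : ∀ t ∈ B, H.dist r b ≤ H.dist r t)
    (hab : H.dist r a ≤ H.dist r b) : ∀ (n : ℕ) (t : T), H.dist r t = n → t ∈ A → t ∈ B →
      b ∈ A := by
  intro n
  induction n using Nat.strong_induction_on with
  | _ n ih =>
    intro t hn hta htb
    by_cases e : t = b
    · exact e ▸ hta
    obtain ⟨p, p1, p2, p3⟩ := has_par hH r hB hb hmb htb e
    by_cases e' : t = a
    · have := hmb p p1
      rw [e'] at p3
      omega
    obtain ⟨q, q1, q2, q3⟩ := has_par hH r hA ha hma hta e'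
    have := par_unique hH r p2 q2 p3 q3
    exact ih _ (by omega) p rfl (this ▸ q1) p1

end TELAux

open TELAux in
theorem el : ELS := by
  classical
  intro V _ G k ⟨T, _, H, B, hH, hadj, hcon, hcard⟩
  obtain ⟨r⟩ := hH.connected.nonempty
  have ex : ∀ v, ∃ a, v ∈ B a ∧ ∀ t, v ∈ B t → H.dist r a ≤ H.dist r t := by
    intro v
    obtain ⟨⟨t, ht⟩⟩ := (hcon v).nonempty
    obtain ⟨a, ha, hm⟩ := exists_min_image (univ.filter fun t => v ∈ B t) (H.dist r)
      ⟨t, mem_filter.2 ⟨mem_univ _, ht⟩⟩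
    exact ⟨a, (mem_filter.1 ha).2, fun t ht => hm t (mem_filter.2 ⟨mem_univ _, ht⟩)⟩
  choose top htop hmin using ex
  have key : ∀ u w t, u ∈ B t → w ∈ B t → H.dist r (top u) ≤ H.dist r (top w) →
      u ∈ B (top w) := fun u w t hu hw h =>
    top_mem hH r (hcon u) (hcon w) (htop u) (htop w) (hmin u) (hmin w) h _ t rfl hu hw
  let f : V → ℕ ×ₗ Fin (Fintype.card V) := fun v =>
    toLex (H.dist r (top v), Fintype.equivFin V v)
  have hf : Function.Injective f := by
    intro u v h
    exact (Fintype.equivFin V).injective (congrArg (fun x => (ofLex x).2) h)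
  let o : LinearOrder V := LinearOrder.lift' f hf
  have hlt : ∀ u w : V, u < w → H.dist r (top u) ≤ H.dist r (top w) := by
    intro u w h
    have h' : f u < f w := h
    rcases Prod.Lex.toLex_lt_toLex.1 h' with h1 | h1
    · exact h1.le
    · exact h1.1.le
  refine ⟨o, fun v => (B (top v)).filter (· < v), ?_, ?_, ?_, ?_⟩
  · intro v u hu
    exact (mem_filter.1 hu).2
  · intro v
    have h1 : (B (top v)).filter (· < v) ⊆ (B (top v)).erase v := by
      intro u hu
      exact mem_erase.2 ⟨(mem_filter.1 hu).2.ne, (mem_filter.1 hu).1⟩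
    have h2 := card_le_card h1
    rw [card_erase_of_mem (htop v)] at h2
    have := hcard (top v)
    omega
  · intro u w huw h
    obtain ⟨t, hu, hw⟩ := hadj u w huw
    exact mem_filter.2 ⟨key u w t hu hw (hlt u w h), h⟩
  · intro v u hu u' hu' h
    exact mem_filter.2 ⟨key u u' (top v) (mem_filter.1 hu).1 (mem_filter.1 hu').1 (hlt u u' h), h⟩

end Vale.Agent.P235
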