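import Vale.Agent.P235.Sts

namespace Vale.Agent.P235

open Finset
open scoped BigOperators

namespace TExM0Aux

theorem swap (ι : Type) [Fintype ι] [DecidableEq ι] (M : ℕ) (i : ι)
    (f : (ι → Fin M) → Fin M → ℝ) :
    𝔼 l : ι → Fin M, 𝔼 j : Fin M, f l j =
      𝔼 l : ι → Fin M, 𝔼 j : Fin M, f (Function.update l i j) (l i) := by
  rw [← expect_product', ← expect_product' univ univ fun l j => f (Function.update l i j) (l i)]
  have hinv : Function.Involutive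
      fun x : (ι → Fin M) × Fin M => (Function.update x.1 i x.2, x.1 i) := fun x => by simp
  refine Finset.expect_equiv hinv.toPerm (fun x => by simp) fun x _ => ?_
  simp

theorem resample (ι : Type) [Fintype ι] [DecidableEq ι] (M : ℕ) (i : ι) (f : (ι → Fin M) → ℝ) :
    𝔼 l : ι → Fin M, f l = 𝔼 l : ι → Fin M, 𝔼 j : Fin M, f (Function.update l i j) := by
  rw [← swap ι M i fun l _ => f l]
  refine Finset.expect_congr rfl fun l _ => ?_
  rw [Finset.expect_const ⟨l i, mem_univ _⟩]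

theorem vabs (M : ℕ) (j : Fin M) (hM : 2 ≤ M) : |vv M j| ≤ 1 := by
  have h1 : (2 : ℝ) ≤ M := by exact_mod_cast hM
  have h2 : (j.val : ℝ) + 1 ≤ M := by exact_mod_cast j.2
  have h3 : (0 : ℝ) ≤ j.val := Nat.cast_nonneg _
  have h4 : (0 : ℝ) < (M : ℝ) - 1 := by linarith
  have h5 : 2 * (j.val : ℝ) / ((M : ℝ) - 1) ≤ 2 := by
    rw [div_le_iff₀ h4]
    linarith
  have h6 : 0 ≤ 2 * (j.val : ℝ) / ((M : ℝ) - 1) := by positivity
  unfold vv
  exact abs_le.2 ⟨by linarith, by linarith⟩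

theorem vmean (M : ℕ) (hM : 2 ≤ M) : 𝔼 j : Fin M, vv M j = 0 := by
  have h1 : (2 : ℝ) ≤ M := by exact_mod_cast hM
  have h4 : (M : ℝ) - 1 ≠ 0 := by linarith
  have h : 𝔼 j : Fin M, vv M j = 𝔼 j : Fin M, -vv M j := by
    refine Fintype.expect_equiv Fin.revPerm _ _ fun j => ?_
    have h2 : j.val + 1 ≤ M := j.2
    unfold vv
    rw [Fin.revPerm_apply, Fin.val_rev, Nat.cast_sub h2]
    push_cast
    field_simp
    ring
  rw [expect_neg_distrib] at h
  linarith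

theorem vsep (M : ℕ) (j j' : Fin M) (hM : 2 ≤ M) (h : j ≠ j') :
    2 / (M : ℝ) ≤ |vv M j - vv M j'| := by
  have h1 : (2 : ℝ) ≤ M := by exact_mod_cast hM
  have h4 : (0 : ℝ) < (M : ℝ) - 1 := by linarith
  have h2 : vv M j - vv M j' = 2 / ((M : ℝ) - 1) * ((j.val : ℝ) - j'.val) := by
    unfold vv
    ring
  have h3 : (1 : ℝ) ≤ |(j.val : ℝ) - j'.val| := by
    have : (1 : ℤ) ≤ |(j.val : ℤ) - j'.val| :=
      Int.one_le_abs (sub_ne_zero.2 fun e => h (Fin.ext (by exact_mod_cast e)))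
    exact_mod_cast this
  rw [h2, abs_mul, abs_of_pos (div_pos two_pos h4)]
  calc 2 / (M : ℝ) ≤ 2 / ((M : ℝ) - 1) := div_le_div_of_nonneg_left zero_le_two h4 (by linarith)
    _ ≤ _ := le_mul_of_one_le_right (div_pos two_pos h4).le h3

theorem a0 (p : MP) (h : p.OK) :
    0 < p.a ∧ p.a ≤ 1 ∧ p.a * p.N ≤ 1 / 4 ∧ p.κ * p.N ≤ 1 / 4 ∧ p.lam ≤ 1 := by
  have hk : (0 : ℝ) ≤ p.k := Nat.cast_nonneg _
  have hN : (0 : ℝ) ≤ p.N := Nat.cast_nonneg _
  have h1 : p.lam ≤ 1 := h.lamle.trans (by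
    rw [div_le_one (by positivity)]
    linarith)
  have h2 : p.κ ≤ 1 := by nlinarith [h.κk, h.κ0]
  have hG : (1 : ℝ) ≤ p.G := by
    have : 1 ≤ p.G := Nat.one_le_two_pow
    exact_mod_cast this
  have h3 : p.κ * p.N ≤ 1 / 4 := by
    refine h.κN.trans ?_
    have : p.eb / p.G ≤ 1 := (div_le_self h.eb0.le hG).trans h.eb1
    linarith
  have h4 : p.a ≤ p.κ := mul_le_of_le_one_left h.κ0.le (pow_le_one₀ h.lam0.le h1)
  exact ⟨mul_pos (pow_pos h.lam0 _) h.κ0, h4.trans h2,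
    (mul_le_mul_of_nonneg_right h4 hN).trans h3, h3, h1⟩

theorem U1 {V ι : Type} [MetricSpace V] {p : MP} {r : ℕ} {B : ℝ} {S : St V ι} {A : Finset ι}
    (h : p.OK) (hI : Inv p r B S A) (ω : S.Ω) (i : ℕ) (hi : i < r) : |S.U ω i| ≤ 1 := by
  classical
  have hQ := hI.Q i hi (fun _ => 0) (fun _ => by simpa using h.κ0.le)
    (fun ω' => if ω' = ω then 1 else 0) fun ω' => by
      beta_reduce
      split_ifs <;> norm_num
  have e1 : ∀ ω' : S.Ω, min (if ω' = ω then (1 : ℝ) else 0) (1 - if ω' = ω then 1 else 0) = 0 :=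
    fun ω' => by split_ifs <;> norm_num
  simp only [e1, zero_mul, mul_zero, sum_const_zero, add_zero, mul_ite, mul_one, ite_mul,
    sum_ite_eq', mem_univ, if_true] at hQ
  have hP := hI.Ppos ω
  rw [abs_mul, abs_of_pos hP] at hQ
  have : S.P ω * |S.U ω i| ≤ S.P ω * 1 := by nlinarith [sq_nonneg (S.P ω)]
  exact le_of_mul_le_mul_left this hP

theorem gen {V ι : Type} [MetricSpace V] {p : MP} {r : ℕ} {B : ℝ} {S : St V ι} {A : Finset ι}
    (A' : Finset ι) (h : p.OK) (hI : Inv p r B S A) (hA : A'.card ≤ p.N) (ω : S.Ω)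
    (l : ι → Fin p.M) (x : ℕ → ℝ) (y : ι → ℝ) {D : ℝ} (hD : 0 ≤ D) (hx : ∀ i, i < r → |x i| ≤ D)
    (hy : ∀ i, |y i| ≤ D) :
    |∑ i ∈ range r, p.lam ^ i * S.U ω i * x i + p.a * ∑ i ∈ A', S.β ω i * vv p.M (l i) * y i|
      ≤ ((r : ℝ) + 1) * D := by
  obtain ⟨a1, _, a3, _, a5⟩ := a0 p h
  have h1 : |∑ i ∈ range r, p.lam ^ i * S.U ω i * x i| ≤ r * D := by
    refine (abs_sum_le_sum_abs _ _).trans ?_
    have := sum_le_card_nsmul (range r) (fun i => |p.lam ^ i * S.U ω i * x i|) D fun i hi => by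
      rw [abs_mul, abs_mul, abs_of_pos (pow_pos h.lam0 _)]
      refine (mul_le_of_le_one_left (abs_nonneg _) (mul_le_one₀ (pow_le_one₀ h.lam0.le a5)
        (abs_nonneg _) (U1 h hI ω i (mem_range.1 hi)))).trans (hx i (mem_range.1 hi))
    simpa using this
  have h2 : |∑ i ∈ A', S.β ω i * vv p.M (l i) * y i| ≤ p.N * D := by
    refine (abs_sum_le_sum_abs _ _).trans ?_
    have := sum_le_card_nsmul A' (fun i => |S.β ω i * vv p.M (l i) * y i|) D fun i _ => by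
      rw [abs_mul, abs_mul]
      refine (mul_le_of_le_one_left (abs_nonneg _) (mul_le_one₀ ?_
        (abs_nonneg _) (vabs _ _ h.M2))).trans (hy i)
      rcases hI.β01 ω i with e | e <;> simp [e]
    rw [nsmul_eq_mul] at this
    exact this.trans (mul_le_mul_of_nonneg_right (by exact_mod_cast hA) hD)
  refine (abs_add_le _ _).trans ?_
  rw [abs_mul, abs_of_pos a1]
  have h3 := mul_le_mul_of_nonneg_left h2 a1.le
  nlinarith [mul_le_mul_of_nonneg_right a3 hD]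

theorem ex (k N M : ℕ) (eb : ℝ) (hM : 2 ≤ M) (h0 : 0 < eb) (h1 : eb ≤ 1) :
    ∃ p : MP, p.OK ∧ p.k = k ∧ p.N = N ∧ p.M = M ∧ p.eb = eb := by
  set G : ℝ := ((2 ^ ((k + 1) ^ 2 * M ^ N + N) : ℕ) : ℝ) with hG
  have hG0 : 0 < G := Nat.cast_pos.2 (Nat.two_pow_pos _)
  have hk : (0 : ℝ) ≤ k := Nat.cast_nonneg _
  have hN : (0 : ℝ) ≤ N := Nat.cast_nonneg _
  set κ : ℝ := min (1 / (2 * ((k : ℝ) + 1))) (eb / G / 4 / ((N : ℝ) + 1)) with hκ
  have hκ0 : 0 < κ := lt_min (by positivity) (by positivity)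
  have hκ1 : κ ≤ 1 / (2 * ((k : ℝ) + 1)) := min_le_left _ _
  have hκ2 : κ ≤ eb / G / 4 / ((N : ℝ) + 1) := min_le_right _ _
  rw [le_div_iff₀ (by positivity)] at hκ1 hκ2
  have hκ3 : κ / 2 ≤ 1 := by nlinarith
  refine ⟨⟨k, N, M, eb, κ, (κ / 2) ^ k / (16 * ((k : ℝ) + 1))⟩,
    ⟨hM, h0, h1, hκ0, ?_, ?_, ?_, ?_, ?_⟩, rfl, rfl, rfl, rfl⟩
  · change ((k : ℝ) + 1) * κ ≤ 1 / 2
    linarith
  · change κ * N ≤ eb / ((2 ^ ((k + 1) ^ 2 * M ^ N + N) : ℕ) : ℝ) / 4
    rw [← hG]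
    linarith
  · change 0 < (κ / 2) ^ k / (16 * ((k : ℝ) + 1))
    positivity
  · change (κ / 2) ^ k / (16 * ((k : ℝ) + 1)) ≤ 1 / (16 * ((k : ℝ) + 1))
    exact div_le_div_of_nonneg_right (pow_le_one₀ (by positivity) hκ3) (by positivity)
  · change (κ / 2) ^ k / (16 * ((k : ℝ) + 1)) * (2 / κ) ^ k ≤ 1 / (16 * ((k : ℝ) + 1))
    rw [div_mul_eq_mul_div, ← mul_pow]
    have : κ / 2 * (2 / κ) = 1 := by field_simp
    rw [this, one_pow]

end TExM0Aux

open TExM0Aux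

theorem exF : ExF where
  lin V ι _ _ M S f g a b := by
    unfold Ex
    simp only [expect_add_distrib, ← mul_expect, mul_sum, ← sum_add_distrib]
    exact sum_congr rfl fun ω _ => by ring
  sum V ι _ _ M S α J f := by
    unfold Ex
    simp only [expect_sum_comm, mul_sum]
    exact sum_comm
  mono V ι _ _ M S f g hP h :=
    sum_le_sum fun ω _ => mul_le_mul_of_nonneg_left (expect_le_expect fun l _ => h ω l) (hP ω)
  om V ι _ _ M S f hM := by
    unfold Ex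
    refine sum_congr rfl fun ω _ => ?_
    rw [Finset.expect_const ⟨fun _ => ⟨0, hM⟩, mem_univ _⟩]
  indep V ι _ _ M S w i φ hw := by
    unfold Ex
    rw [sum_mul]
    refine sum_congr rfl fun ω _ => ?_
    rw [resample ι M i, mul_assoc, expect_mul]
    congr 1
    refine Finset.expect_congr rfl fun l _ => ?_
    rw [mul_expect]
    refine Finset.expect_congr rfl fun j _ => ?_
    beta_reduce
    rw [hw ω l j, Function.update_self]
  swap ι _ _ M i f := swap ι M i f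
  resample ι _ _ M i f := resample ι M i f
  vabs := vabs
  vmean := vmean
  vsep := vsep
  m2pos M hM := by
    refine expect_pos' (fun j _ => sq_nonneg _) ⟨⟨0, by omega⟩, mem_univ _, ?_⟩
    simp [vv]
  m2le M hM := expect_le ⟨⟨0, by omega⟩, mem_univ _⟩ fun j _ =>
    (sq_le_one_iff_abs_le_one _).2 (vabs M j hM)

theorem m0F : M0F where
  a0 := a0
  U1 V ι _ p r B S A h hI ω i hi := U1 h hI ω i hi
  bd V ι _ p r B S A A' ψ h hI hA hψ hB ω l s :=
    gen A' h hI hA ω l (fun i => S.ξ i s) (fun i => ψ i s) hB (fun i hi => (hI.lb i hi).2 s)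
      fun i => (hψ i).2 s
  lip V ι _ p r B S A A' ψ h hI hA hψ ω l s t := by
    have := gen A' h hI hA ω l (fun i => S.ξ i s - S.ξ i t) (fun i => ψ i s - ψ i t)
      (dist_nonneg (x := s) (y := t)) (fun i hi => (hI.lb i hi).1 s t) fun i => (hψ i).1 s t
    refine le_trans (le_of_eq ?_) this
    congr 1
    unfold Fr
    simp only [mul_sub, sum_sub_distrib]
    ring
  split V ι _ p r S A ψ i hi ω l s := by
    unfold Fr
    rw [← Finset.sum_erase_add A _ hi]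
    ring
  upd V ι _ p r S A ψ i hi ω l j := by
    funext s
    unfold Fr
    congr 2
    refine sum_congr rfl fun i' hi' => ?_
    rw [Function.update_of_ne fun e : i' = i => hi (e ▸ hi')]
  ex := ex

end Vale.Agent.P235
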