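import Vale.Agent.P235.Sts

namespace Vale.Agent.P235

open Finset
open scoped BigOperators

theorem fin : FINS := by
  intro V _ _ _ S dep D K c1 c2 hT h1 h2 hK hsym htri h0 hup hbag hsep x y
  obtain ⟨w, hx, hy⟩ := hT.lca x y
  have key : ∀ a b : V, (a = w ∨ ∃ v, (S v).Nonempty ∧ par S v = w ∧ Desc S v a ∧
      ¬ Desc S v b) → ∃ s ∈ insert w (S w), dist a s ≤ D a b / c2 := by
    intro a b h
    rcases h with h | ⟨v, hv, hp, ha, hb⟩
    · refine ⟨w, mem_insert_self _ _, ?_⟩
      rw [h, dist_self]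
      exact div_nonneg (h0 _ _) h2.le
    · obtain ⟨s, hs, he⟩ := (S v).finite_toSet.isCompact.exists_infDist_eq_dist
        (by simpa using hv) a
      refine ⟨s, hp ▸ hT.sub v hv hs, ?_⟩
      rw [← he, le_div_iff₀ h2, mul_comm]
      exact hsep v a b hv ha hb
  obtain ⟨s, hs, h3⟩ := key x y hx
  obtain ⟨t, ht, h4⟩ := key y x hy
  rw [hsym y x] at h4
  have h5 : D s x ≤ K * (D x y / c2) := by
    refine (hup s x).trans ?_
    rw [dist_comm]
    exact mul_le_mul_of_nonneg_left h3 hK
  have h6 : D y t ≤ K * (D x y / c2) := (hup y t).trans (mul_le_mul_of_nonneg_left h4 hK)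
  have h7 : dist s t ≤ (1 + 2 * K / c2) / c1 * D x y := by
    rw [div_mul_eq_mul_div, le_div_iff₀ h1, mul_comm]
    have e : (1 + 2 * K / c2) * D x y = D x y + 2 * (K * (D x y / c2)) := by ring
    rw [e]
    linarith [hbag w s hs t ht, htri s x t, htri x y t]
  have h8 := dist_triangle4 x s t y
  rw [dist_comm t y] at h8
  have e : (2 / c2 + (1 + 2 * K / c2) / c1) * D x y =
      2 * (D x y / c2) + (1 + 2 * K / c2) / c1 * D x y := by ring
  rw [e]
  linarith

open MeasureTheory in
theorem emb : EMBS := by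
  intro V Z _ _ _ d W c C hc hW h1 h2
  letI : MeasurableSpace (Z × Finset V) := ⊤
  haveI : DiscreteMeasurableSpace (Z × Finset V) := ⟨fun _ => trivial⟩
  have hm : ∀ x : V, MemLp (fun a : Z × Finset V => c * W a.1 a.2 * ind x a.2) 1
      (Measure.count : Measure (Z × Finset V)) := fun x =>
    memLp_one_iff_integrable.2 Integrable.of_finite
  refine ⟨Z × Finset V, ⊤, Measure.count, fun x => (hm x).toLp _, fun x y => ?_⟩
  have e : ‖(hm x).toLp _ - (hm y).toLp _‖ = c * ∑ z, DW (W z) x y := by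
    rw [L1.norm_eq_integral_norm]
    have e1 : (fun a => ‖((hm x).toLp _ - (hm y).toLp _) a‖) =ᵐ[Measure.count]
        fun a : Z × Finset V => c * (W a.1 a.2 * |ind x a.2 - ind y a.2|) := by
      filter_upwards [Lp.coeFn_sub ((hm x).toLp _) ((hm y).toLp _), (hm x).coeFn_toLp,
        (hm y).coeFn_toLp] with a h3 h4 h5
      rw [h3, Pi.sub_apply, h4, h5, ← mul_sub, Real.norm_eq_abs, abs_mul,
        abs_of_nonneg (mul_nonneg hc (hW _ _)), mul_assoc]
    rw [integral_congr_ae e1, integral_count, Fintype.sum_prod_type, Finset.mul_sum]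
    refine Finset.sum_congr rfl fun z _ => ?_
    rw [DW, Finset.mul_sum]
  rw [e]
  exact ⟨h1 x y, h2 x y⟩

end Vale.Agent.P235
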