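import Vale.Agent.P235.Sts

namespace Vale.Agent.P235

open Finset
open scoped BigOperators

namespace TGEO1Aux

/-- the numeric facts on `η` -/
structure Eta (q : GP) : Prop where
  pos : 0 < q.η
  le : q.η ≤ 1 / 10000

theorem eta_of (q : GP) (h0 : 0 < q.ζ) (h1 : 100 * q.ζ ≤ 1) : Eta q := by
  refine ⟨by unfold GP.η; positivity, ?_⟩
  unfold GP.η
  nlinarith

theorem lam_pos {q : GP} (h : Eta q) (j : ℤ) : 0 < q.η ^ j := zpow_pos h.pos j

theorem lam_anti {q : GP} (h : Eta q) {j j' : ℤ} (hj : j ≤ j') : q.η ^ j' ≤ q.η ^ j :=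
  zpow_le_zpow_right_of_le_one₀ h.pos (by linarith [h.le]) hj

theorem lam_pred {q : GP} (h : Eta q) (j : ℤ) : q.η ^ j = q.η * q.η ^ (j - 1) := by
  have := zpow_add₀ h.pos.ne' 1 (j - 1)
  rw [show (1 : ℤ) + (j - 1) = j by ring, zpow_one] at this
  exact this

theorem lam_lt {q : GP} (h : Eta q) {j j' : ℤ} (hj : j' < j) : q.η ^ j ≤ q.η * q.η ^ j' := by
  rw [lam_pred h j]
  exact mul_le_mul_of_nonneg_left (lam_anti h (by omega)) h.pos.le

theorem lo_eq (q : GP) (j : ℤ) : q.lo (true, j) = q.η ^ 3 * q.η ^ j := by simp [GP.lo]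

theorem hi_eq (q : GP) (j : ℤ) : q.hi (true, j) = q.η ^ j / q.η ^ (2 * q.k + 4) := by
  simp [GP.hi]

theorem le_hi {q : GP} (h : Eta q) {j : ℤ} {ρ : ℝ} (h0 : 0 ≤ ρ) (h1 : ρ * q.η ^ 3 ≤ 4 * q.η ^ j) :
    ρ ≤ q.hi (true, j) := by
  rw [hi_eq, le_div_iff₀ (pow_pos h.pos _)]
  have hp := h.pos
  have hl := h.le
  have h2 : q.η ^ (2 * q.k + 4) ≤ q.η ^ 4 :=
    pow_le_pow_of_le_one hp.le (by linarith) (by omega)
  have h3 := lam_pos h j
  calc ρ * q.η ^ (2 * q.k + 4) ≤ ρ * q.η ^ 4 := mul_le_mul_of_nonneg_left h2 h0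
    _ = q.η * (ρ * q.η ^ 3) := by ring
    _ ≤ q.η * (4 * q.η ^ j) := mul_le_mul_of_nonneg_left h1 hp.le
    _ ≤ q.η ^ j := by nlinarith

theorem hi_anti {q : GP} (h : Eta q) {j j' : ℤ} (hj : j ≤ j') :
    q.hi (true, j') ≤ q.hi (true, j) := by
  rw [hi_eq, hi_eq]
  exact div_le_div_of_nonneg_right (lam_anti h hj) (pow_pos h.pos _).le

theorem ex_small {q : GP} (h : Eta q) (jt : ℤ) {ρ : ℝ} (hρ : 0 < ρ) :
    ∃ j : ℤ, jt ≤ j ∧ 4 * q.η * q.η ^ j ≤ ρ := by
  have hp := h.pos
  have hl := h.le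
  have h3 := lam_pos h jt
  obtain ⟨n, hn⟩ := exists_pow_lt_of_lt_one (div_pos hρ h3) (show q.η < 1 by linarith)
  refine ⟨jt + n, by omega, ?_⟩
  rw [zpow_add₀ hp.ne', zpow_natCast]
  rw [lt_div_iff₀ h3] at hn
  have h4 : 0 < q.η ^ jt * q.η ^ n := by positivity
  nlinarith

section Chains

variable {V : Type} [MetricSpace V] {q : GP} {X : ℕ → Finset V} {t0 T : ℕ} {x : V} {jt : ℤ}
  {τ : ℕ}

theorem act_mono {Y Y' : Finset V} (hY : Y ⊆ Y') {j : Sc} (h : act q Y j) : act q Y' j := by
  obtain ⟨s, hs, t, ht, h1, h2⟩ := h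
  exact ⟨s, hY hs, t, hY ht, h1, h2⟩

theorem xT (H : Sit q X t0 T x jt τ) : x ∈ X T := by rw [H.last]; exact mem_singleton_self x

theorem not_act_T (h : Eta q) (H : Sit q X t0 T x jt τ) (j : ℤ) : ¬ act q (X T) (true, j) := by
  rintro ⟨s, hs, t, ht, h1, -⟩
  rw [H.last, mem_singleton] at hs ht
  rw [hs, ht, dist_self, lo_eq] at h1
  have := lam_pos h j
  have := h.pos
  have : 0 < q.η ^ 3 * q.η ^ j := by positivity
  linarith

theorem ne_of (H : Sit q X t0 T x jt τ) {σ : ℕ} (h1 : t0 ≤ σ) (h2 : σ ≤ T) : (X σ).Nonempty := by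
  obtain ⟨w, hw⟩ := H.ne
  obtain ⟨z, hz, -⟩ := H.ch.sep t0 σ T h1 h2 le_rfl w hw x (xT H)
  exact ⟨z, hz⟩

theorem al_le {σ : ℕ} {z : V} (hz : z ∈ X σ) : al X x σ ≤ dist x z :=
  Metric.infDist_le_dist_of_mem (by exact_mod_cast hz)

theorem al_nonneg (σ : ℕ) : 0 ≤ al X x σ := Metric.infDist_nonneg

theorem al_att (H : Sit q X t0 T x jt τ) {σ : ℕ} (h1 : t0 ≤ σ) (h2 : σ ≤ T) :
    ∃ z ∈ X σ, dist x z = al X x σ := by
  have hne : (X σ : Set V).Nonempty := by exact_mod_cast ne_of H h1 h2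
  obtain ⟨z, hz, e⟩ := (X σ).finite_toSet.isCompact.exists_infDist_eq_dist hne x
  exact ⟨z, by exact_mod_cast hz, e.symm⟩

theorem al_anti (H : Sit q X t0 T x jt τ) {σ σ' : ℕ} (h1 : t0 ≤ σ) (h2 : σ ≤ σ') (h3 : σ' ≤ T) :
    al X x σ' ≤ al X x σ := by
  obtain ⟨w, hw, e⟩ := al_att H h1 (h2.trans h3)
  obtain ⟨z, hz, e'⟩ := H.ch.sep σ σ' T h2 h3 le_rfl w hw x (xT H)
  have := al_le (x := x) hz
  have := dist_nonneg (x := z) (y := w)
  linarith

theorem sub_of_drop (H : Sit q X t0 T x jt τ) {s : ℕ} (h1 : t0 ≤ s) (h2 : s < T)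
    (hd : al X x (s + 1) < al X x s) : X s ⊆ X (s + 1) := by
  rcases H.ch.nest s h2 with h | h
  · exact h
  · obtain ⟨z, hz, e⟩ := al_att H (show t0 ≤ s + 1 by omega) h2
    have := al_le (x := x) (h hz)
    linarith

theorem alpha_pos (h : Eta q) (H : Sit q X t0 T x jt τ) : 0 < al X x t0 := by
  have h1 := H.top2
  have h2 := lam_pos h jt
  by_contra hc
  have h3 : al X x t0 = 0 := le_antisymm (not_lt.1 hc) (al_nonneg _)
  rw [h3, mul_zero] at h1
  linarith

/-- `2β ≤ 2 η λ_jt` -/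
theorem bet_le (h : Eta q) (H : Sit q X t0 T x jt τ) : bet q X x t0 ≤ q.η * q.η ^ jt := by
  have h1 := H.top1
  have hp := h.pos
  unfold bet
  calc q.η ^ 4 * al X x t0 = q.η * (q.η ^ 3 * al X x t0) := by ring
    _ ≤ q.η * q.η ^ jt := mul_le_mul_of_nonneg_left h1.le hp.le

theorem A_lt (H : Sit q X t0 T x jt τ) : al X x (τ + 1) < 2 * bet q X x t0 :=
  lt_of_lt_of_le H.drop (min_le_right _ _)

theorem A_lt' (H : Sit q X t0 T x jt τ) : al X x (τ + 1) < al X x τ :=
  lt_of_lt_of_le H.drop (min_le_left _ _)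

/-- the creation lemma -/
theorem create (h : Eta q) (H : Sit q X t0 T x jt τ) {s : ℕ} (h1 : t0 ≤ s) (h2 : s < T)
    (hd : al X x (s + 1) < al X x s) :
    ∃ c ∈ X (s + 1), dist x c = al X x (s + 1) ∧ ∃ j : ℤ, jt ≤ j ∧ act q (X (s + 1)) (true, j) ∧
      (∀ w, dist x c = dist x w + dist w c → ∀ z ∈ X s, 2 * q.η * q.η ^ j ≤ dist w z) ∧
      (j = jt ∨ al X x s - al X x (s + 1) < 4 * q.η ^ j) ∧
      ∀ j0, jt ≤ j0 → 4 * q.η * q.η ^ j0 ≤ al X x s - al X x (s + 1) → j ≤ j0 := by
  have hp := h.pos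
  have hl := h.le
  have hsub := sub_of_drop H h1 h2 hd
  obtain ⟨c, hc, ec⟩ := al_att H (show t0 ≤ s + 1 by omega) h2
  obtain ⟨z0, hz0, hmin⟩ := (X s).exists_min_image (fun z => dist c z) (ne_of H h1 h2.le)
  have hρ1 : al X x s - al X x (s + 1) ≤ dist c z0 := by
    have := al_le (x := x) hz0
    have := dist_triangle x c z0
    linarith
  have hρ2 : dist c z0 ≤ 2 * al X x t0 := by
    obtain ⟨z1, hz1, e1⟩ := al_att H h1 h2.le
    have h3 := hmin z1 hz1
    have h4 := dist_triangle c x z1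
    have h5 := dist_comm c x
    have h6 := al_anti H le_rfl h1 h2.le
    linarith
  have hρ0 : 0 < dist c z0 := by linarith
  obtain ⟨j, ⟨hj1, hj2⟩, hjmin⟩ := Int.exists_least_of_bdd
    (P := fun j : ℤ => jt ≤ j ∧ 4 * q.η * q.η ^ j ≤ dist c z0) ⟨jt, fun z hz => hz.1⟩
    (ex_small h jt hρ0)
  have hcase : j = jt ∨ dist c z0 < 4 * q.η ^ j := by
    by_cases hj : j = jt
    · exact Or.inl hj
    · right
      by_contra hc'
      have h3 : 4 * q.η * q.η ^ (j - 1) ≤ dist c z0 := by
        rw [lam_pred h j] at hc'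
        linarith [not_lt.1 hc']
      have := hjmin (j - 1) ⟨by omega, h3⟩
      omega
  have hlj := lam_pos h j
  refine ⟨c, hc, ec, j, hj1, ⟨c, hc, z0, hsub hz0, ?_, ?_⟩, ?_, ?_, ?_⟩
  · rw [lo_eq]
    have h3 : q.η ^ 3 < 4 * q.η := by
      have : q.η ^ 2 < 4 := by nlinarith
      nlinarith
    nlinarith
  · refine le_hi h hρ0.le ?_
    rcases hcase with hj | hj
    · have h3 := H.top1
      rw [← hj] at h3
      have h4 : dist c z0 * q.η ^ 3 ≤ 2 * al X x t0 * q.η ^ 3 :=
        mul_le_mul_of_nonneg_right hρ2 (by positivity)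
      nlinarith
    · have h3 : q.η ^ 3 ≤ 1 := pow_le_one₀ hp.le (by linarith)
      nlinarith
  · intro w hw z hz
    have h3 := hmin z hz
    have h4 := dist_triangle c w z
    have h5 := dist_comm c w
    have h6 := dist_triangle x w z
    have h7 := al_le (x := x) hz
    linarith
  · rcases hcase with hj | hj
    · exact Or.inl hj
    · exact Or.inr (by linarith)
  · intro j0 h3 h4
    exact hjmin j0 ⟨h3, by linarith⟩

/-- valid triples -/
structure Valid (q : GP) (X : ℕ → Finset V) (t0 T : ℕ) (x : V) (jt : ℤ) (τ s : ℕ) (c : V)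
    (j : ℤ) (b : ℕ) : Prop where
  τs : τ + 1 ≤ s
  sT : s ≤ T
  cX : c ∈ X s
  xc : dist x c ≤ al X x (τ + 1)
  als : al X x (τ + 1) - 8 * q.η ^ j ≤ al X x s
  jtj : jt ≤ j
  del : alb q X x t0 τ - al X x (τ + 1) ≤ 4 * q.η ^ j
  t0b : t0 ≤ b
  bs : b < s
  acts : ∀ σ, b < σ → σ ≤ s → act q (X σ) (true, j)
  alb : al X x (τ + 1) - q.η ^ j ≤ al X x b
  far : ∀ w, dist x c = dist x w + dist w c → ∀ z ∈ X b, 2 * q.η * q.η ^ j ≤ dist w z

theorem ex_valid (h : Eta q) (H : Sit q X t0 T x jt τ) :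
    ∃ s c j b, Valid q X t0 T x jt τ s c j b := by
  obtain ⟨c, hc, ec, j, hj, hact, hfar, hcase, -⟩ := create h H H.t0τ H.τT (A_lt' H)
  have hlj := lam_pos h j
  have hp := h.pos
  have hl := h.le
  refine ⟨τ + 1, c, j, τ, le_rfl, H.τT, hc, ec.le, by linarith, hj, ?_, H.t0τ, by omega, ?_,
    by linarith [A_lt' H], hfar⟩
  · rcases hcase with hj' | hj'
    · have h1 : alb q X x t0 τ ≤ 2 * bet q X x t0 := min_le_right _ _
      have h2 := bet_le h H
      have h3 := al_nonneg (X := X) (x := x) (τ + 1)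
      rw [← hj'] at h2
      nlinarith
    · have h1 : alb q X x t0 τ ≤ al X x τ := min_le_left _ _
      linarith
  · intro σ h1 h2
    rw [show σ = τ + 1 by omega]
    exact hact

/-- the property `unp` from the minimality of the scale -/
theorem unp_of (h : Eta q) (H : Sit q X t0 T x jt τ) {j : ℤ}
    (hdel : alb q X x t0 τ - al X x (τ + 1) ≤ 4 * q.η ^ j)
    (hmin : ∀ s c j' b, Valid q X t0 T x jt τ s c j' b → j ≤ j')
    {e : ℕ} {y : V} (h1 : τ + 1 ≤ e) (h2 : e ≤ T) (hy : y ∈ X e)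
    (hxy : dist x y ≤ al X x (τ + 1)) (hale : al X x (τ + 1) - 8 * q.η ^ j ≤ al X x e)
    (j' : ℤ) (hj1 : jt ≤ j') (hj2 : j' < j) (hact : act q (X e) (true, j')) :
    ∃ b', t0 ≤ b' ∧ b' < e ∧ ¬ act q (X b') (true, j') ∧
      (∀ σ, b' < σ → σ ≤ e → act q (X σ) (true, j')) ∧
      ∃ z ∈ X b', dist y z < 12 * q.η * q.η ^ j' := by
  classical
  have hp := h.pos
  have hl := h.le
  have ht0 := H.t0τ
  obtain ⟨b', hb', hmax⟩ := ((range e).filter
      (fun b => t0 ≤ b ∧ (b = t0 ∨ ¬ act q (X b) (true, j')))).exists_max_image id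
    ⟨t0, mem_filter.2 ⟨mem_range.2 (by omega), le_rfl, Or.inl rfl⟩⟩
  obtain ⟨hb1, hb2, hb3⟩ := mem_filter.1 hb'
  rw [mem_range] at hb1
  have hacts : ∀ σ, b' < σ → σ ≤ e → act q (X σ) (true, j') := by
    intro σ h3 h4
    rcases h4.eq_or_lt with h5 | h5
    · rw [h5]; exact hact
    · by_contra hn
      have := hmax σ (mem_filter.2 ⟨mem_range.2 h5, by omega, Or.inr hn⟩)
      simp only [id] at this
      omega
  have hl1 := lam_lt h hj2
  have hl2 := lam_pos h j'
  have hl3 := lam_pos h j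
  have hl4 := lam_anti h hj2.le
  have hbe := al_anti H hb2 hb1.le h2
  have hclose : ∃ z ∈ X b', dist y z < 12 * q.η * q.η ^ j' := by
    by_contra hn
    have hn' : ∀ z ∈ X b', 12 * q.η * q.η ^ j' ≤ dist y z := by
      intro z hz
      by_contra hc
      exact hn ⟨z, hz, not_le.1 hc⟩
    have hv : Valid q X t0 T x jt τ e y j' b' := by
      refine ⟨h1, h2, hy, hxy, by linarith, hj1, by linarith, hb2, hb1, hacts, by nlinarith, ?_⟩
      intro w hw z hz
      have h3 := hn' z hz
      have h4 := dist_triangle y w z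
      have h5 := dist_comm y w
      have h6 := dist_triangle x w z
      have h7 := al_le (x := x) hz
      linarith
    have := hmin _ _ _ _ hv
    omega
  refine ⟨b', hb2, hb1, ?_, hacts, hclose⟩
  rcases hb3 with hb3 | hb3
  · exfalso
    obtain ⟨z, hz, hd⟩ := hclose
    rw [hb3] at hz
    have h3 := al_le (x := x) hz
    have h4 := dist_triangle x y z
    have h5 := A_lt H
    have h6 := bet_le h H
    have h7 := lam_anti h hj1
    have h8 := H.top2
    have h9 := alpha_pos h H
    have h10 := lam_pos h jt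
    have h11 : q.η * q.η ^ j' ≤ q.η * q.η ^ jt := mul_le_mul_of_nonneg_left h7 hp.le
    have h12 : q.η ^ 2 ≤ 1 := pow_le_one₀ hp.le (by linarith)
    have h13 : q.η ^ jt ≤ al X x t0 := by nlinarith
    nlinarith
  · exact hb3

theorem gap_of {Y : Finset V} {j : Sc} (hn : ¬ act q Y j) {s y : V} (hs : s ∈ Y) (hy : y ∈ Y) :
    dist s y ≤ q.lo j ∨ q.hi j < dist s y := by
  by_contra hc
  rw [not_or, not_le, not_lt] at hc
  exact hn ⟨s, hs, y, hy, hc.1, hc.2⟩

theorem main (h : Eta q) (H : Sit q X t0 T x jt τ) :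
    ∃ e y j b e', Cand q X t0 T x jt τ e y j b e' := by
  classical
  have hp := h.pos
  have hl := h.le
  have ht0 := H.t0τ
  obtain ⟨j, ⟨s0, c0, b0, hv0⟩, hjmin⟩ := Int.exists_least_of_bdd
    (P := fun j : ℤ => ∃ s c b, Valid q X t0 T x jt τ s c j b)
    ⟨jt, fun z ⟨_, _, _, hz⟩ => hz.jtj⟩
    (by obtain ⟨s, c, j, b, hv⟩ := ex_valid h H; exact ⟨j, s, c, b, hv⟩)
  have hmin : ∀ s c j' b, Valid q X t0 T x jt τ s c j' b → j ≤ j' :=
    fun s c j' b hv => hjmin j' ⟨s, c, b, hv⟩
  obtain ⟨s, hs, hsmax⟩ := ((range (T + 1)).filter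
      (fun s => ∃ c b, Valid q X t0 T x jt τ s c j b)).exists_max_image id
    ⟨s0, mem_filter.2 ⟨mem_range.2 (by have := hv0.sT; omega), c0, b0, hv0⟩⟩
  obtain ⟨-, c, b, hv⟩ := mem_filter.1 hs
  have hsm : ∀ c' b', ¬ Valid q X t0 T x jt τ (s + 1) c' j b' := by
    intro c' b' hv'
    have := hsmax (s + 1) (mem_filter.2 ⟨mem_range.2 (by have := hv'.sT; omega), c', b', hv'⟩)
    simp only [id] at this
    omega
  have hU := fun e y => @unp_of V _ q X t0 T x jt τ h H j hv.del hmin e y
  have hacts := hv.acts s hv.bs le_rfl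
  have hsT : s < T := by
    rcases hv.sT.eq_or_lt with h1 | h1
    · rw [h1] at hacts
      exact absurd hacts (not_act_T h H j)
    · exact h1
  have hτs := hv.τs
  have hbs := hv.bs
  have ht0b := hv.t0b
  have hals := hv.als
  have hlj := lam_pos h j
  by_cases hc1 : al X x (τ + 1) - 8 * q.η ^ j ≤ al X x (s + 1)
  · obtain ⟨c', hc', ec'⟩ := H.ch.sep s (s + 1) T (by omega) hsT le_rfl c hv.cX x (xT H)
    have hxc' : dist x c' ≤ al X x (τ + 1) := by
      have := hv.xc
      have := dist_nonneg (x := c') (y := c)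
      linarith
    have hna : ¬ act q (X (s + 1)) (true, j) := by
      intro ha
      refine hsm c' b ⟨by omega, hsT, hc', hxc', hc1, hv.jtj, hv.del, ht0b, by omega, ?_, hv.alb,
        ?_⟩
      · intro σ h1 h2
        rcases h2.eq_or_lt with h3 | h3
        · rw [h3]; exact ha
        · exact hv.acts σ h1 (by omega)
      · intro w hw
        refine hv.far w ?_
        have h1 := dist_triangle x w c
        have h2 := dist_triangle w c' c
        linarith
    have hsub : X (s + 1) ⊆ X s := by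
      rcases H.ch.nest s hsT with h1 | h1
      · exact absurd (act_mono h1 hacts) hna
      · exact h1
    refine ⟨s + 1, c', j, b, s, by omega, hsT, hc', hxc', hc1, hv.jtj, hv.del, ht0b, hbs,
      by omega, le_rfl, hsub hc', hv.acts, hv.far c' ec', ?_,
      hU (s + 1) c' (by omega) hsT hc' hxc' hc1⟩
    intro s' hs'
    rcases gap_of hna hs' hc' with h1 | h1
    · left
      rw [lo_eq] at h1
      have h2 : q.η ^ 3 ≤ q.η ^ 2 := pow_le_pow_of_le_one hp.le (by linarith) (by omega)
      nlinarith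
    · exact Or.inr h1
  · rw [not_le] at hc1
    have hA := A_lt H
    have hB := bet_le h H
    have hn1 := al_nonneg (X := X) (x := x) (s + 1)
    have hljt := lam_pos h jt
    have hjne : jt < j := by
      rcases hv.jtj.eq_or_lt with h1 | h1
      · exfalso
        rw [← h1] at hc1
        nlinarith
      · exact h1
    have hd : al X x (s + 1) < al X x s := by linarith
    have hpred := lam_pred h j
    have hlj1 := lam_pos h (j - 1)
    by_cases hc2 : 4 * q.η ^ j ≤ al X x s - al X x (s + 1)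
    · exfalso
      obtain ⟨c', hc', ec', j2, hj2, hact, hfar, hcase, hle⟩ := create h H (by omega) hsT hd
      have h1 : j2 ≤ j - 1 := hle (j - 1) (by omega) (by linarith)
      have h2 := lam_lt h (show j2 < j by omega)
      have h3 := lam_pos h j2
      have h4 := hv.del
      have hv' : Valid q X t0 T x jt τ (s + 1) c' j2 s := by
        refine ⟨by omega, hsT, hc', by linarith, ?_, hj2, by nlinarith, by omega, by omega, ?_,
          by nlinarith, hfar⟩
        · rcases hcase with h5 | h5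
          · rw [h5]
            nlinarith
          · nlinarith
        · intro σ h5 h6
          rw [show σ = s + 1 by omega]
          exact hact
      have := hmin _ _ _ _ hv'
      omega
    · rw [not_le] at hc2
      have hex : ∃ σ, τ + 1 ≤ σ ∧ al X x σ < al X x (τ + 1) - 4 * q.η ^ j :=
        ⟨s, hτs, by linarith⟩
      obtain ⟨hst1, hst2⟩ := Nat.find_spec hex
      have hst3 : Nat.find hex ≤ s := Nat.find_min' hex ⟨hτs, by linarith⟩
      have hst4 : ∀ σ, τ + 1 ≤ σ → σ < Nat.find hex →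
          al X x (τ + 1) - 4 * q.η ^ j ≤ al X x σ := by
        intro σ h1 h2
        have := Nat.find_min hex h2
        by_contra hc
        exact this ⟨h1, not_le.1 hc⟩
      generalize Nat.find hex = st at hst1 hst2 hst3 hst4
      have hst5 : τ + 2 ≤ st := by
        rcases hst1.eq_or_lt with h1 | h1
        · rw [← h1] at hst2
          linarith
        · omega
      have hbst : b < st := by
        by_contra hc
        have h1 := al_anti H (show t0 ≤ st by omega) (not_lt.1 hc) (by omega)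
        have h2 := hv.alb
        linarith
      by_cases hc3 : ∃ e, st ≤ e ∧ e ≤ s ∧ ¬ act q (X e) (true, j - 1)
      · obtain ⟨e, he1, he2, hna⟩ := hc3
        obtain ⟨y, hy, ey⟩ := al_att H (show t0 ≤ e by omega) (by omega)
        have h1 := al_anti H (show t0 ≤ st by omega) he1 (by omega)
        have h2 := al_anti H (show t0 ≤ e by omega) he2 hsT.le
        have hxy : dist x y ≤ al X x (τ + 1) := by linarith
        have hale : al X x (τ + 1) - 8 * q.η ^ j ≤ al X x e := by linarith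
        refine ⟨e, y, j, b, e, by omega, by omega, hy, hxy, hale, hv.jtj, hv.del, ht0b, by omega,
          le_rfl, by omega, hy, fun σ h3 h4 => hv.acts σ h3 (by omega), ?_, ?_,
          hU e y (by omega) (by omega) hy hxy hale⟩
        · intro z hz
          have h3 := al_le (x := x) hz
          have h4 := dist_triangle x y z
          have h5 := hv.alb
          nlinarith
        · intro s' hs'
          rcases gap_of hna hs' hy with h3 | h3
          · left
            rw [lo_eq] at h3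
            rw [hpred]
            linarith
          · exact Or.inr (lt_of_le_of_lt (hi_anti h (by omega)) h3)
      · exfalso
        have hall : ∀ e, st ≤ e → e ≤ s → act q (X e) (true, j - 1) := by
          intro e h1 h2
          by_contra hc
          exact hc3 ⟨e, h1, h2, hc⟩
        obtain ⟨c', hc', ec'⟩ := al_att H (show t0 ≤ s + 1 by omega) hsT
        have hsub := sub_of_drop H (by omega) hsT hd
        have h1 := hst4 (st - 1) (by omega) (by omega)
        have h4 := hv.del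
        have hv' : Valid q X t0 T x jt τ (s + 1) c' (j - 1) (st - 1) := by
          refine ⟨by omega, hsT, hc', by linarith, by nlinarith, by omega, by nlinarith, by omega,
            by omega, ?_, by nlinarith, ?_⟩
          · intro σ h5 h6
            rcases h6.eq_or_lt with h7 | h7
            · rw [h7]
              exact act_mono hsub (hall s hst3 le_rfl)
            · exact hall σ (by omega) (by omega)
          · intro w hw z hz
            have h5 := al_le (x := x) hz
            have h6 := dist_triangle x w z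
            have h7 := dist_nonneg (x := w) (y := c')
            nlinarith
        have := hmin _ _ _ _ hv'
        omega

end Chains

end TGEO1Aux

theorem geo1 : GEO1S := by
  intro V _ q X t0 T x jt τ h0 h1 H
  exact TGEO1Aux.main (TGEO1Aux.eta_of q h0 h1) H

end Vale.Agent.P235
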