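import Vale.Agent.P235.GeoB

namespace Vale.Agent.P235

open Finset
open scoped BigOperators

namespace TGEO2Aux

theorem lam_anti {η : ℝ} (h0 : 0 < η) (h1 : η ≤ 1) {j j' : ℤ} (hj : j ≤ j') : η ^ j' ≤ η ^ j :=
  zpow_le_zpow_right_of_le_one₀ h0 h1 hj

theorem lam_pred {η : ℝ} (h0 : 0 < η) (j : ℤ) : η ^ j = η * η ^ (j - 1) := by
  have := zpow_add₀ h0.ne' 1 (j - 1)
  rw [show (1 : ℤ) + (j - 1) = j by ring, zpow_one] at this
  exact this

theorem ex_scale {η d : ℝ} (h0 : 0 < η) (h1 : η < 1) (hd : 0 < d) :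
    ∃ j : ℤ, η ^ j ≤ d ∧ d < η ^ (j - 1) := by
  obtain ⟨n, hn1, hn2⟩ := exists_mem_Ico_zpow hd ((one_lt_inv₀ h0).2 h1)
  refine ⟨-n, ?_, ?_⟩
  · rwa [inv_zpow'] at hn1
  · rw [inv_zpow'] at hn2
    rwa [show -n - 1 = -(n + 1) by ring]

theorem pigeon {V : Type} [DecidableEq V] (Y : Finset V) (y : V) (hy : y ∈ Y) (k : ℕ)
    (hc : Y.card ≤ k + 1) (f : V → ℝ) (g : ℕ → ℝ) (hg : Monotone g) (hf : f y ≤ g 0) :
    ∃ m, m ≤ k ∧ ∀ t ∈ Y, f t ≤ g m ∨ g (m + 1) < f t := by
  by_contra hn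
  have h1 : ∀ m, m ≤ k → ∃ t ∈ Y, g m < f t ∧ f t ≤ g (m + 1) := by
    intro m hm
    by_contra hc'
    refine hn ⟨m, hm, fun t ht => ?_⟩
    by_contra h2
    rw [not_or, not_le, not_lt] at h2
    exact hc' ⟨t, ht, h2⟩
  have : Nonempty V := ⟨y⟩
  choose! t ht using h1
  have h2 : (range (k + 1)).card ≤ (Y.erase y).card := by
    refine card_le_card_of_injOn t (fun m hm => ?_) (fun m hm m' hm' e => ?_)
    · have hm' : m ≤ k := Nat.lt_succ_iff.1 (mem_range.1 (by exact_mod_cast hm))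
      obtain ⟨h3, h4, -⟩ := ht m hm'
      have h5 : t m ≠ y := by
        intro e
        rw [e] at h4
        have := hg (Nat.zero_le m)
        linarith
      exact_mod_cast mem_erase.2 ⟨h5, h3⟩
    · have h3 : m ≤ k := Nat.lt_succ_iff.1 (mem_range.1 (by exact_mod_cast hm))
      have h4 : m' ≤ k := Nat.lt_succ_iff.1 (mem_range.1 (by exact_mod_cast hm'))
      obtain ⟨-, h5, h6⟩ := ht m h3
      obtain ⟨-, h7, h8⟩ := ht m' h4
      rw [e] at h5 h6
      rcases lt_trichotomy m m' with h9 | h9 | h9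
      · have := hg (show m + 1 ≤ m' by omega)
        linarith
      · exact h9
      · have := hg (show m' + 1 ≤ m by omega)
        linarith
  rw [card_range, card_erase_of_mem hy] at h2
  have := card_pos.2 ⟨y, hy⟩
  omega

theorem cells {V W : Type} [DecidableEq W] (O : Finset V) (f : V → W) (u : V → ℝ) (B : ℝ)
    (hB : 0 ≤ B) (h : ∀ s ∈ O, |∑ t ∈ O.filter (fun t => f t = f s), u t| ≤ B) :
    |∑ t ∈ O, u t| ≤ O.card * B := by
  rw [← sum_fiberwise_of_maps_to (t := O.image f) (g := f) (fun t ht => mem_image_of_mem f ht)]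
  refine (abs_sum_le_sum_abs _ _).trans ?_
  have h1 : ∑ Q ∈ O.image f, |∑ t ∈ O.filter (fun t => f t = Q), u t| ≤ ∑ _Q ∈ O.image f, B := by
    refine sum_le_sum fun Q hQ => ?_
    obtain ⟨s, hs, rfl⟩ := mem_image.1 hQ
    exact h s hs
  refine h1.trans ?_
  rw [sum_const, nsmul_eq_mul]
  exact mul_le_mul_of_nonneg_right (by exact_mod_cast card_image_le) hB

variable {V : Type} [Fintype V] [LinearOrder V] [MetricSpace V] {q : GP} {c : NP} {Rm : ℝ}
  {cl : Sc → V → Finset V} {X : ℕ → Finset V} {t0 T : ℕ} {x : V} {jt : ℤ} {τ e : ℕ} {y : V}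
  {j : ℤ} {b e' : ℕ} {co : ℕ → ℝ} {u : ℕ → V → ℝ}

omit [Fintype V] [LinearOrder V] in
theorem alpha_facts (hc : c.OK q) (hs : Sit q X t0 T x jt τ)
    (hR : ∀ s t : V, dist s t ≤ q.η ^ (2 * q.k + 4) * Rm) :
    0 < al X x t0 ∧ 0 ≤ Rm ∧ al X x t0 ≤ Rm := by
  have hn := GeoB.num hc
  have hp := hn.e0
  have hl := hn.e2
  have h1 := hs.top2
  have h2 : 0 < q.η ^ jt := zpow_pos hp jt
  have ha : 0 < al X x t0 := by
    by_contra h
    have h3 : al X x t0 = 0 := le_antisymm (not_lt.1 h) (GeoB.al_nonneg _ _ _)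
    rw [h3, mul_zero] at h1
    linarith
  have h3 := hR x x
  rw [dist_self] at h3
  have h4 : 0 < q.η ^ (2 * q.k + 4) := pow_pos hp _
  have hR0 : 0 ≤ Rm := by
    by_contra h
    have := mul_neg_of_pos_of_neg h4 (not_le.1 h)
    linarith
  obtain ⟨z, hz⟩ := hs.ne
  have h5 := GeoB.al_le (x := x) hz
  have h6 := hR x z
  have h7 : q.η ^ (2 * q.k + 4) ≤ 1 := pow_le_one₀ hp.le (by linarith)
  exact ⟨ha, hR0, by nlinarith⟩

omit [Fintype V] in
/-- the base case: the ball is isolated up to the top scale -/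
theorem base (hc : c.OK q) (hs : Sit q X t0 T x jt τ) (hca : Cand q X t0 T x jt τ e y j b e')
    (hpad : Pad q cl X e) (hR : ∀ s t : V, dist s t ≤ q.η ^ (2 * q.k + 4) * Rm)
    (hH : Hh q c Rm cl X t0 T x co u) (hsum : ∑ σ ∈ Ico t0 T, co σ < bet q X x t0)
    {L : ℝ} (hL0 : 0 ≤ L) (hL1 : L ≤ q.η ^ 2 * Rm)
    (hout : ∀ t ∈ X e, dist t y ≤ L ∨ (L < q.η ^ 2 * dist t y ∧ q.η ^ (jt - 1) ≤ dist t y)) :
    9 / 10 ≤ ∑ t ∈ (X e).filter (fun t => dist t y ≤ L), u e t := by
  have hn := GeoB.num hc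
  have hp := hn.e0
  have hl := hn.e2
  obtain ⟨ha, hR0, haR⟩ := alpha_facts hc hs hR
  have h2 : 0 < q.η ^ 2 := pow_pos hp 2
  have hj1 : 0 < q.η ^ (jt - 1) := zpow_pos hp _
  have hpred := lam_pred hp jt
  set R := max (q.η ^ (jt - 1)) (L / q.η ^ 2) with hRdef
  have hR1 : q.η ^ (jt - 1) ≤ R := le_max_left _ _
  have hR2 : L ≤ q.η ^ 2 * R := by
    have : L / q.η ^ 2 ≤ R := le_max_right _ _
    rw [div_le_iff₀ h2] at this
    linarith
  have hRpos : 0 < R := lt_of_lt_of_le hj1 hR1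
  have hRm : R ≤ Rm := by
    refine max_le ?_ ?_
    · have h3 := hs.top2
      rw [hpred] at h3
      have h4 : q.η ^ (jt - 1) ≤ q.η * al X x t0 := by
        by_contra h
        have := mul_lt_mul_of_pos_left (not_le.1 h) hp
        nlinarith
      nlinarith
    · rw [div_le_iff₀ h2]
      linarith
  have hn1 := hn.n1
  have hzt := hn.zt
  have hz0 := hn.z0
  have hz1 := hn.z1
  have he1 := hn.e1
  set n : ℝ := (q.k : ℝ) + 1 with hndef
  have hkey : 1000 * n * q.η ^ 2 ≤ c.θ := by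
    have h3 : q.η ^ 2 ≤ q.ζ := by nlinarith
    have h4 : n ≤ n ^ 2 := by nlinarith
    have h5 : n * q.η ^ 2 ≤ n ^ 2 * q.ζ := mul_le_mul h4 h3 h2.le (by positivity)
    have h6 : 0 ≤ n ^ 2 * q.ζ := by positivity
    linarith
  have hnL : n * L ≤ n * q.η ^ 2 * R := by
    have := mul_le_mul_of_nonneg_left hR2 (show 0 ≤ n by linarith)
    linarith
  have hW : 0 < n * q.η ^ 2 * R := by positivity
  have hθR : 1000 * (n * q.η ^ 2 * R) ≤ c.θ * R := by
    have := mul_le_mul_of_nonneg_right hkey hRpos.le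
    linarith
  have hτe := hca.τe
  have ht0 := hs.t0τ
  have hmain := hH e (by omega) hca.eT hpad.1 y hca.yX L R hL0 hRpos hRm (fun s hs' => by
    rcases hout s hs' with h3 | h3
    · exact Or.inl h3
    · refine Or.inr (max_le h3.2 ?_)
      rw [div_le_iff₀ h2]
      linarith [h3.1]) (by linarith)
  have hbet : bet q X x t0 ≤ q.η ^ 2 * R := by
    have h3 := hs.top1
    unfold bet
    calc q.η ^ 4 * al X x t0 = q.η * (q.η ^ 3 * al X x t0) := by ring
      _ ≤ q.η * q.η ^ jt := mul_le_mul_of_nonneg_left h3.le hp.le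
      _ = q.η ^ 2 * q.η ^ (jt - 1) := by rw [hpred]; ring
      _ ≤ q.η ^ 2 * R := mul_le_mul_of_nonneg_left hR1 h2.le
  have hxy : dist x y ≤ 2 * (q.η ^ 2 * R) := by
    have h3 := hca.xy
    have h4 := hs.drop
    have h5 : alb q X x t0 τ ≤ 2 * bet q X x t0 := min_le_right _ _
    linarith
  have h6 : n * dist x y ≤ 2 * (n * q.η ^ 2 * R) := by
    have := mul_le_mul_of_nonneg_left hxy (show 0 ≤ n by linarith)
    linarith
  have h7 : q.η ^ 2 * R ≤ n * q.η ^ 2 * R := by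
    have : 0 ≤ q.η ^ 2 * R := by positivity
    nlinarith
  have hε : c.ε ≤ 1 / 16 := by
    have h3 := hc.ε1
    have h4 := hc.ε0
    rw [← hndef] at h3
    nlinarith
  by_contra hlt
  rw [not_le] at hlt
  have h8 : 3 / 80 * (999 * (n * q.η ^ 2 * R)) ≤
      (1 - ∑ s ∈ (X e).filter (fun s => dist s y ≤ L), u e s - c.ε) * (c.θ * R - n * L) :=
    mul_le_mul (by linarith) (by linarith) (by positivity) (by linarith)
  linarith

theorem claim (ha : GEO2aS) (hc : c.OK q) (hs : Sit q X t0 T x jt τ)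
    (hca : Cand q X t0 T x jt τ e y j b e') (hpa : Parts q cl) (hpad : Pad q cl X e)
    (hco : ∀ σ, 0 ≤ co σ) (hR : ∀ s t : V, dist s t ≤ q.η ^ (2 * q.k + 4) * Rm)
    (hS : SLh q c Rm cl X t0 T co u) (hH : Hh q c Rm cl X t0 T x co u)
    (hG : ¬ Good q c X t0 T x co τ) (hsum : ∑ σ ∈ Ico t0 T, co σ < bet q X x t0) (N : ℕ) :
    ∀ L : ℝ, ((X e).filter (fun t => L < dist t y)).card = N → 0 ≤ L → L ≤ q.η ^ 2 * Rm →
      (∀ t ∈ X e, dist t y ≤ L ∨ (L < q.η ^ 2 * dist t y ∧ q.η ^ (j - 1) ≤ dist t y)) →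
      9 / 10 - (N : ℝ) * (1 / (5 * ((q.k : ℝ) + 1))) ≤
        ∑ t ∈ (X e).filter (fun t => dist t y ≤ L), u e t := by
  have hn := GeoB.num hc
  have hp := hn.e0
  have hl := hn.e2
  have hl1 : q.η ≤ 1 := by linarith
  have hn1 := hn.n1
  have hB : 0 ≤ 1 / (5 * ((q.k : ℝ) + 1)) := by positivity
  obtain ⟨hal, hR0, haR⟩ := alpha_facts hc hs hR
  induction N using Nat.strong_induction_on with
  | _ N ih =>
  intro L hN hL0 hL1 hout
  by_cases hA : ∀ t ∈ X e, L < dist t y → q.η ^ (jt - 1) ≤ dist t y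
  · have h1 := base hc hs hca hpad hR hH hsum hL0 hL1 (u := u) (fun t ht => by
      rcases le_or_gt (dist t y) L with h2 | h2
      · exact Or.inl h2
      · rcases hout t ht with h3 | h3
        · exact Or.inl h3
        · exact Or.inr ⟨h3.1, hA t ht h2⟩)
    have h2 : 0 ≤ (N : ℝ) * (1 / (5 * ((q.k : ℝ) + 1))) := by positivity
    linarith
  · have hA' : ∃ t ∈ X e, L < dist t y ∧ dist t y < q.η ^ (jt - 1) := by
      by_contra hc'
      refine hA fun t ht h1 => ?_
      by_contra h2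
      exact hc' ⟨t, ht, h1, not_le.1 h2⟩
    obtain ⟨t1, ht1, ht2, ht3⟩ := hA'
    obtain ⟨s1, hs1, hmin⟩ := ((X e).filter (fun t => L < dist t y)).exists_min_image
      (fun t => dist t y) ⟨t1, mem_filter.2 ⟨ht1, ht2⟩⟩
    obtain ⟨hs1X, hs1L⟩ := mem_filter.1 hs1
    have hmin' : ∀ t ∈ X e, L < dist t y → dist s1 y ≤ dist t y :=
      fun t ht h1 => hmin t (mem_filter.2 ⟨ht, h1⟩)
    set d1 := dist s1 y with hd1
    have hd0 : 0 < d1 := lt_of_le_of_lt hL0 hs1L
    have hd2 : d1 < q.η ^ (jt - 1) := lt_of_le_of_lt (hmin' t1 ht1 ht2) ht3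
    have hd3 : L < q.η ^ 2 * d1 ∧ q.η ^ (j - 1) ≤ d1 := by
      rcases hout s1 hs1X with h1 | h1
      · exact absurd hs1L (not_lt.2 h1)
      · exact h1
    obtain ⟨j', hj1, hj2⟩ := ex_scale hp (show q.η < 1 by linarith) hd0
    have hj3 : jt ≤ j' := by
      by_contra h1
      have := lam_anti hp hl1 (show j' ≤ jt - 1 by omega)
      linarith
    have hj4 : j' < j := by
      by_contra h1
      have := lam_anti hp hl1 (show j - 1 ≤ j' - 1 by omega)
      linarith [hd3.2]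
    have hmono : Monotone (fun m : ℕ => d1 / q.η ^ (2 * m)) := by
      intro m m' hm
      exact div_le_div_of_nonneg_left hd0.le (pow_pos hp _)
        (pow_le_pow_of_le_one hp.le hl1 (by omega))
    obtain ⟨m, hmk, hm⟩ := pigeon (X e) y hca.yX q.k (hs.ch.card e hca.eT) (fun t => dist t y)
      (fun m => d1 / q.η ^ (2 * m)) hmono (by simp [hd0.le])
    set L' := d1 / q.η ^ (2 * m) with hL'
    have hdL : d1 ≤ L' := by
      have := hmono (Nat.zero_le m)
      simpa using this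
    have hL'k : L' * q.η ^ (2 * q.k) ≤ d1 := by
      have h1 := hmono hmk
      simp only at h1
      rwa [le_div_iff₀ (pow_pos hp _)] at h1
    have hfar : ∀ t ∈ X e, dist t y ≤ L' ∨ L' < q.η ^ 2 * dist t y := by
      intro t ht
      rcases hm t ht with h1 | h1
      · exact Or.inl h1
      · right
        rw [div_lt_iff₀ (pow_pos hp _)] at h1
        rw [hL', div_lt_iff₀ (pow_pos hp _)]
        calc d1 < dist t y * q.η ^ (2 * (m + 1)) := h1
          _ = _ := by ring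
    have hLL : L ≤ L' := by linarith
    set O := (X e).filter (fun t => L < dist t y ∧ dist t y ≤ L') with hO
    have hOs : |∑ t ∈ O, u e t| ≤ O.card * (1 / (5 * ((q.k : ℝ) + 1))) := by
      refine cells O (cl (true, j')) (u e) _ hB fun s hsO => ?_
      obtain ⟨h1, h2, h3⟩ := mem_filter.1 hsO
      have h4 := ha V q c Rm cl X t0 T x jt τ e y j b e' co u L L' d1 j' s hc hs hca hpa hpad hco
        hR hS hj3 hj4 hj1 hj2 hL0 hd3.1.le hdL hL'k ⟨s1, hs1X, rfl⟩ (fun t ht => by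
          rcases le_or_gt (dist t y) L with h5 | h5
          · exact Or.inl h5
          · rcases hfar t ht with h6 | h6
            · exact Or.inr (Or.inl ⟨hmin' t ht h5, h6⟩)
            · exact Or.inr (Or.inr h6)) h1 h2 h3
      have h5 : O.filter (fun t => cl (true, j') t = cl (true, j') s) =
          (X e).filter (fun t => L < dist t y ∧ dist t y ≤ L' ∧ t ∈ cl (true, j') s) := by
        ext t
        simp only [hO, mem_filter]
        constructor
        · rintro ⟨⟨h6, h7, h8⟩, h9⟩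
          exact ⟨h6, h7, h8, h9 ▸ (hpa (true, j')).mem t⟩
        · rintro ⟨h6, h7, h8, h9⟩
          exact ⟨⟨h6, h7, h8⟩, (hpa (true, j')).eq s t h9⟩
      rw [h5]
      exact h4.resolve_left hG
    have hsplit : ∑ t ∈ (X e).filter (fun t => dist t y ≤ L'), u e t =
        ∑ t ∈ (X e).filter (fun t => dist t y ≤ L), u e t + ∑ t ∈ O, u e t := by
      rw [hO, sum_filter, sum_filter, sum_filter, ← sum_add_distrib]
      refine sum_congr rfl fun t _ => ?_
      by_cases h1 : dist t y ≤ L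
      · have h2 : dist t y ≤ L' := h1.trans hLL
        simp [h1, h2, not_lt.2 h1]
      · by_cases h2 : dist t y ≤ L'
        · simp [h1, h2, not_le.1 h1]
        · simp [h1, h2]
    have hcard : ((X e).filter (fun t => L' < dist t y)).card + O.card = N := by
      rw [← hN, hO, card_filter, card_filter, card_filter, ← sum_add_distrib]
      refine sum_congr rfl fun t _ => ?_
      by_cases h1 : dist t y ≤ L'
      · simp [h1, not_lt.2 h1]
      · have h2 : L < dist t y := lt_of_le_of_lt hLL (not_le.1 h1)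
        simp [h1, h2, not_le.1 h1]
    have hOpos : 0 < O.card := card_pos.2 ⟨s1, mem_filter.2 ⟨hs1X, hs1L, hdL⟩⟩
    have hL'R : L' ≤ q.η ^ 2 * Rm := by
      have h1 := hR s1 y
      have h2 : 0 < q.η ^ (2 * q.k) := pow_pos hp _
      have h3 : L' * q.η ^ (2 * q.k) ≤ q.η ^ 4 * Rm * q.η ^ (2 * q.k) := by
        calc _ ≤ q.η ^ (2 * q.k + 4) * Rm := hL'k.trans h1
          _ = _ := by ring
      have h4 := le_of_mul_le_mul_right h3 h2
      have h5 : q.η ^ 4 ≤ q.η ^ 2 := pow_le_pow_of_le_one hp.le hl1 (by omega)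
      exact h4.trans (mul_le_mul_of_nonneg_right h5 hR0)
    have hih := ih _ (show ((X e).filter (fun t => L' < dist t y)).card < N by omega) L' rfl
      (hL0.trans hLL) hL'R (fun t ht => by
        rcases le_or_gt (dist t y) L' with h1 | h1
        · exact Or.inl h1
        · rcases hfar t ht with h2 | h2
          · exact Or.inl h2
          · exact Or.inr ⟨h2, by linarith [hd3.2]⟩)
    have hcast : (((X e).filter (fun t => L' < dist t y)).card : ℝ) + O.card = N := by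
      exact_mod_cast hcard
    rw [← hcast]
    have := le_abs_self (∑ t ∈ O, u e t)
    linarith

end TGEO2Aux

theorem geo2 (ha : GEO2aS) (hb' : GEO2bS) : GEO2S := by
  intro V _ _ _ q c Rm cl X t0 T x jt τ e y j b e' co u hc hs hca hpa hpad hco hR hS hH
  by_contra hcon
  rw [not_or, not_le] at hcon
  obtain ⟨hG, hsum⟩ := hcon
  have hn := GeoB.num hc
  have hp := hn.e0
  have hl := hn.e2
  have hl1 : q.η ≤ 1 := by linarith
  have hn1 := hn.n1
  obtain ⟨hal, hR0, haR⟩ := TGEO2Aux.alpha_facts hc hs hR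
  have hj0 : 0 < q.η ^ j := zpow_pos hp j
  have h2 : 0 < q.η ^ 2 := pow_pos hp 2
  have hjR : q.η ^ j ≤ Rm := by
    have h3 := TGEO2Aux.lam_anti hp hl1 hca.jtj
    have h4 := hs.top2
    have h5 : q.η ^ 2 ≤ 1 := pow_le_one₀ hp.le hl1
    nlinarith
  have hhi : q.η ^ (j - 1) ≤ q.hi (true, j) := by
    have h3 : q.hi (true, j) = q.η ^ j / q.η ^ (2 * q.k + 4) := by simp [GP.hi]
    rw [h3, le_div_iff₀ (pow_pos hp _), TGEO2Aux.lam_pred hp j, mul_comm q.η]
    refine mul_le_mul_of_nonneg_left ?_ (zpow_pos hp _).le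
    simpa using pow_le_pow_of_le_one hp.le hl1 (show 1 ≤ 2 * q.k + 4 by omega)
  have hjj := TGEO2Aux.lam_anti hp hl1 (show j - 1 ≤ j by omega)
  have h1 := TGEO2Aux.claim ha hc hs hca hpa hpad hco hR hS hH hG hsum _ (q.η ^ 2 * q.η ^ j) rfl
    (by positivity) (mul_le_mul_of_nonneg_left hjR h2.le) (fun t ht => by
      rcases hca.gap t ht with h3 | h3
      · exact Or.inl h3
      · exact Or.inr ⟨mul_lt_mul_of_pos_left (by linarith) h2, by linarith⟩)
  refine hG (hb' V q c Rm cl X t0 T x jt τ e y j b e' co u hc hs hca hpa hpad hco hR hS ?_)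
  have h3 : (((X e).filter (fun t => q.η ^ 2 * q.η ^ j < dist t y)).card : ℝ) ≤ (q.k : ℝ) + 1 := by
    exact_mod_cast (card_filter_le _ _).trans (hs.ch.card e hca.eT)
  have h4 : (((X e).filter (fun t => q.η ^ 2 * q.η ^ j < dist t y)).card : ℝ) *
      (1 / (5 * ((q.k : ℝ) + 1))) ≤ 1 / 5 := by
    rw [mul_one_div, div_le_iff₀ (by positivity)]
    linarith
  linarith

end Vale.Agent.P235
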