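import Vale.Agent.P235.GeoB

namespace Vale.Agent.P235

open Finset
open scoped BigOperators

open GeoB

namespace TGEO2aAux

theorem fin_num {n a ζ η m ε lam u s : ℝ} (hn : 1 ≤ n) (ha : 0 < a) (hz : 0 < ζ) (he : η = ζ ^ 2)
    (hm : 0 < m) (hm1 : m ≤ 1) (hl : 0 < lam) (hε : 16 * n * ε ≤ 1) (hzm : 4000 * n ^ 2 * ζ ≤ m)
    (h : a * (ζ * lam) * m * u ≤ s + 5 * n * a * (13 * η * lam) + a * (ζ * lam) * m * ε)
    (hs : s < a * η * m * lam) : u ≤ 1 / (5 * n) := by
  subst he
  have h0 : 0 < a * ζ * lam := by positivity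
  have h1 : m * u ≤ ζ * m + 65 * n * ζ + m * ε := by
    have : a * ζ * lam * (m * u) ≤ a * ζ * lam * (ζ * m + 65 * n * ζ + m * ε) := by nlinarith
    exact le_of_mul_le_mul_left this h0
  rw [le_div_iff₀ (by positivity)]
  have h2 : m * (u * (5 * n)) ≤ m * 1 := by
    have e1 : m * (u * (5 * n)) = 5 * n * (m * u) := by ring
    have e2 : 5 * n * (m * u) ≤ 5 * n * (ζ * m + 65 * n * ζ + m * ε) :=
      mul_le_mul_of_nonneg_left h1 (by positivity)
    have e3 : 5 * n * (m * ε) ≤ m * (5 / 16) := by nlinarith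
    have e4 : n * ζ * m ≤ n ^ 2 * ζ := by
      have : 0 ≤ n * ζ := by positivity
      nlinarith
    nlinarith
  exact le_of_mul_le_mul_left h2 hm

theorem n1 {η : ℝ} (he0 : 0 < η) (he2 : η ≤ 1 / 1000000) :
    η ^ 3 ≤ η ∧ η ^ 2 ≤ η / 1000000 ∧ η ^ 4 ≤ η / 1000000 ∧ η ^ 2 ≤ 1 := by
  have h1 : η ^ 2 ≤ 1 := pow_le_one₀ he0.le (by linarith)
  have h3 : η ^ 3 ≤ η := by nlinarith
  refine ⟨h3, by nlinarith, ?_, h1⟩
  have : η ^ 3 ≤ 1 / 1000000 := by linarith
  nlinarith

theorem n2 {η lam d1 L' P : ℝ} (he0 : 0 < η) (hP : 0 < P) (h4 : η ^ 4 ≤ η / 1000000)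
    (hd0 : 0 < d1) (hd2 : η * d1 < lam) (hL3 : L' * P ≤ d1) :
    1000000 * L' ≤ lam / (P * η ^ 4) := by
  rw [le_div_iff₀ (by positivity)]
  have e1 : L' * P * η ^ 4 ≤ d1 * η ^ 4 := mul_le_mul_of_nonneg_right hL3 (by positivity)
  have e2 : d1 * η ^ 4 ≤ d1 * (η / 1000000) := mul_le_mul_of_nonneg_left h4 hd0.le
  nlinarith

theorem n3 {η ζ Δ lam L' D D' E : ℝ} (he0 : 0 < η) (he2 : η ≤ 1 / 1000000)
    (e1 : η ≤ 1 / 4000 * ζ) (dz : Δ * ζ ≤ 1 / 1000) (hΔ : 3 ≤ Δ) (hl0 : 0 < lam) (hl : lam ≤ L')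
    (hD : 0 ≤ D) (h5 : L' < η ^ 2 * D) (h6 : D ≤ D' + E) (h2 : E ≤ L') :
    Δ * lam < D' ∧ lam < D' := by
  have h7 : (Δ + 1) * η ^ 2 ≤ 1 := by
    have e1 : Δ * η ≤ 1 := by nlinarith
    nlinarith
  have h8 : (Δ + 1) * L' < D := by
    have e1 : (Δ + 1) * L' < (Δ + 1) * (η ^ 2 * D) := mul_lt_mul_of_pos_left h5 (by linarith)
    have e2 : (Δ + 1) * η ^ 2 * D ≤ 1 * D := mul_le_mul_of_nonneg_right h7 hD
    nlinarith
  have h9 : Δ * lam ≤ Δ * L' := mul_le_mul_of_nonneg_left hl (by linarith)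
  constructor
  · nlinarith
  · nlinarith

theorem n4 {η ζ θ a n lam : ℝ} (he0 : 0 < η) (e1 : η ≤ 1 / 4000 * ζ) (hn : 1 ≤ n)
    (zt : 4000 * n ^ 2 * ζ ≤ θ) (ha : a ≤ 1) (hl0 : 0 < lam) :
    4 * a * (ζ * lam + 2 * (13 * η * lam)) ≤ θ * (lam / 2) := by
  have hz : 0 < ζ := by linarith
  have e0 : η * lam ≤ 1 / 4000 * ζ * lam := mul_le_mul_of_nonneg_right e1 hl0.le
  have e2 : 4000 * ζ ≤ θ := by
    have h5 : (1 : ℝ) ≤ n ^ 2 := one_le_pow₀ hn
    nlinarith
  have e3 : 4000 * ζ * lam ≤ θ * lam := mul_le_mul_of_nonneg_right e2 hl0.le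
  have e5 : 0 ≤ η * lam := by positivity
  have e6 : 0 ≤ ζ * lam := by positivity
  have e4 : a * (ζ * lam + 2 * (13 * η * lam)) ≤ 1 * (ζ * lam + 2 * (13 * η * lam)) :=
    mul_le_mul_of_nonneg_right ha (by linarith)
  nlinarith

theorem n5 {P d1 Rm : ℝ} (hP : 0 ≤ P) (hP1 : P ≤ 1) (hd : 0 < d1) (h : d1 ≤ P * Rm) :
    d1 ≤ Rm := by
  have e3 : 0 < Rm := by
    by_contra h'
    have : P * Rm ≤ 0 := mul_nonpos_of_nonneg_of_nonpos hP (by linarith)
    linarith
  nlinarith

theorem n6 {η ζ lam : ℝ} (he0 : 0 < η) (he2 : η ≤ 1 / 1000000) (hz : ζ ≤ 1 / 4000)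
    (h3 : η ^ 3 ≤ η) (hl : 0 < lam) :
    η * lam ≤ lam / 1000000 ∧ ζ * lam ≤ lam / 4000 ∧ η ^ 3 * lam ≤ η * lam ∧ 0 ≤ η * lam :=
  ⟨by nlinarith, by nlinarith, mul_le_mul_of_nonneg_right h3 hl.le, by positivity⟩

end TGEO2aAux

open TGEO2aAux

theorem geo2a (hb : Base) : GEO2aS := by
  intro V _ _ _ q c Rm cl X t0 T x jt τ e y j b e' co u L L' d1 j' s hc hs hca hP hpad hco hRm hSL
    hj1 hj2 hd1 hd2 hL0 hL1 hL2 hL3 hs1 htri hsX hsL hsL'
  have hn := num hc
  have he0 := hn.e0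
  have he2 := hn.e2
  set η := q.η with hη
  set lam := η ^ j' with hlam
  have hl0 : 0 < lam := zpow_pos he0 _
  have hd2' : η * d1 < lam := by
    have : η ^ (j' - 1) = lam / η := by rw [zpow_sub₀ he0.ne', zpow_one]
    rw [this, lt_div_iff₀ he0] at hd2
    linarith
  have hd0 : 0 < d1 := hl0.trans_le hd1
  have hjl : q.η ^ j ≤ lam := zpow_le_zpow_right_of_le_one₀ he0 (by linarith) hj2.le
  have hlo : q.lo (true, j') = η ^ 3 * lam := by simp [GP.lo, hlam, hη]
  have hhi : q.hi (true, j') = lam / η ^ (2 * q.k + 4) := by simp [GP.hi, hlam, hη]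
  have hcap : q.cap (true, j') = q.ζ * lam := by simp [GP.cap, hlam, hη]
  have hscl : q.scl (true, j') = lam := by simp [GP.scl, hlam, hη]
  have hp0 : 0 < η ^ (2 * q.k) := pow_pos he0 _
  have hpw : η ^ (2 * q.k + 4) = η ^ (2 * q.k) * η ^ 4 := pow_add _ _ _
  obtain ⟨h3, h2', h4, h21⟩ := n1 he0 he2
  have hhi2 : 1000000 * L' ≤ q.hi (true, j') := by
    rw [hhi, hpw]; exact n2 he0 hp0 h4 hd0 hd2' hL3
  obtain ⟨hel, hzl, h3l, hel0⟩ := n6 he0 he2 hn.z1 h3 hl0
  obtain ⟨s1, hs1X, hs1d⟩ := hs1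
  have hact : act q (X e) (true, j') := by
    refine ⟨s1, hs1X, y, hca.yX, ?_, ?_⟩
    · rw [hlo, hs1d]; linarith
    · rw [hs1d]; linarith
  obtain ⟨b', hb1, hb2, hb3, hb4, z, hzX, hz⟩ := hca.unp j' hj1 hj2 hact
  rw [← hη, ← hlam] at hz
  set Q := cl (true, j') s with hQ
  have hPj := hP (true, j')
  rw [hscl] at hPj
  obtain ⟨bq, hq1, hq2, hq3, hq4⟩ := last_fail (fun σ => ActG q cl (X σ) (true, j') Q) hb2
    (fun h => hb3 h.1) ⟨hact, s, hsX, rfl⟩
  have hborn : BornG q cl X (true, j') Q bq e :=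
    ⟨hq2, hq3, hq4 _ (by omega) (by omega), fun σ h1 h2 => hq4 σ h1 h2.le⟩
  have hpd : ∀ t ∈ X e, padded (cl (true, j')) lam t := hpad.2 j' (Or.inr hact)
  have hmeet : ∀ w ∈ X bq, w ∈ Q → bq = b' := by
    intro w hw hwQ
    by_contra h
    exact hq3 ⟨hb4 bq (by omega) hq2.le, w, hw, hPj.eq _ _ hwQ⟩
  have hzl0 : 0 ≤ q.ζ * lam := mul_nonneg hn.z0.le hl0.le
  have hLs : L ≤ η * lam := by
    have : η ^ 2 * d1 = η * (η * d1) := by ring
    have : η * (η * d1) ≤ η * lam := mul_le_mul_of_nonneg_left hd2'.le he0.le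
    linarith
  -- points of the annulus
  have hann : ∀ t ∈ X e, L < dist t y → dist t y ≤ L' → d1 ≤ dist t y := by
    intro t ht h1 h2
    rcases htri t ht with h | h | h
    · linarith
    · exact h.1
    · have : η ^ 2 * dist t y ≤ dist t y :=
        mul_le_of_le_one_left dist_nonneg h21
      linarith
  -- far points
  have hfar : ∀ t ∈ X e, L' < dist t y → ∀ t' : V, dist t' y ≤ L' →
      q.Δ * lam < dist t' t ∧ lam < dist t' t := by
    intro t ht h1 t' h2
    have h5 : L' < η ^ 2 * dist t y := by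
      rcases htri t ht with h | h | h
      · have : L ≤ d1 := by
          have : η ^ 2 * d1 ≤ d1 := mul_le_of_le_one_left hd0.le h21
          linarith
        linarith
      · linarith [h.2]
      · exact h
    have h6 : dist t y ≤ dist t' t + dist t' y := by
      have := dist_triangle t t' y
      rw [dist_comm t t'] at this; exact this
    exact n3 he0 he2 hn.e1 hn.dz hc.Δ3 hl0 (hd1.trans hL2) dist_nonneg h5 h6 h2
  set J := (X e).filter (fun t => L < dist t y ∧ dist t y ≤ L' ∧ t ∈ Q) with hJ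
  have hJm : ∀ t, t ∈ J ↔ t ∈ X e ∧ L < dist t y ∧ dist t y ≤ L' ∧ t ∈ Q := fun t => by
    rw [hJ, mem_filter]
  have hRm0 : d1 ≤ Rm := by
    have e1 := hRm s1 y
    rw [hs1d] at e1
    exact n5 (by positivity) (pow_le_one₀ he0.le (by linarith)) hd0 e1
  have key := hSL e hca.eT hpad.1 j' Q bq (hb1.trans hq1) hborn J (filter_subset _ _)
    (q.ζ * lam) (13 * η * lam) (lam / 2) hzl0 (by linarith) (by linarith) ?_ ?_ ?_
  · by_cases hg : c.a * q.η * c.m * lam ≤ ∑ σ ∈ Ico bq e, co σ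
    · left
      refine good_of hc hs hca hco hjl (hb1.trans hq1) hq2 ?_ hg
      have e1 : al X x (bq + 1) ≤ al X x b' :=
        al_anti hs.ch hs.last hs.ne hb1 (by omega) (by have := hca.eT; omega)
      have e2 := al_le (x := x) hzX
      have e3 := dist_triangle x y z
      have e4 := hca.xy
      have e5 : 3 * lam ≤ q.Δ * lam := mul_le_mul_of_nonneg_right hc.Δ3 hl0.le
      linarith
    · right
      exact fin_num hn.n1 hc.a0 hn.z0 rfl hc.m0 hc.m1 hl0 hc.ε1 hn.zm key (not_le.mp hg)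
  · intro t ht
    rw [hcap]
    by_cases htJ : t ∈ J
    · rw [if_pos htJ]
      obtain ⟨_, h1, h2, htQ⟩ := (hJm t).1 htJ
      have h5 := hann t ht h1 h2
      have e1 := hb.ps.le_cap V (X bq ∩ Q) Q (q.ζ * lam) t
      have e2 : q.ζ * lam ≤ psi (X bq ∩ Q) Q (q.ζ * lam) t := by
        refine hb.ps.le_psi V _ _ _ _ t le_rfl (fun w hw => ?_)
        rcases hw with hw | hw
        · rw [mem_inter] at hw
          have hbb := hmeet w hw.1 hw.2
          rw [hbb] at hw
          have hzw : dist z w ≤ η ^ 3 * lam ∨ q.hi (true, j') < dist z w := by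
            by_contra h
            rw [not_or, not_le, not_lt] at h
            exact hb3 ⟨z, hzX, w, hw.1, by rw [hlo]; exact h.1, h.2⟩
          have t1 := dist_triangle t w z
          have t2 := dist_triangle t z y
          have t3 := dist_triangle z t w
          have t4 := dist_triangle z y t
          rw [dist_comm w z] at t1
          rw [dist_comm z y] at t2 t4
          rw [dist_comm y t] at t4
          rcases hzw with h | h
          · linarith
          · linarith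
        · by_contra h
          have : w ∈ cl (true, j') t := hpd t ht w (by linarith)
          rw [hPj.eq _ _ htQ] at this
          exact hw this
      rw [abs_le]; constructor <;> linarith
    · rw [if_neg htJ, sub_zero, abs_of_nonneg (hb.ps.nonneg V _ _ _ _ hzl0)]
      by_cases htQ : t ∈ Q
      · have h1 : dist t y ≤ L := by
          by_contra h
          have h2 : L' < dist t y := by
            by_contra h2
            exact htJ ((hJm t).2 ⟨ht, not_le.mp h, not_lt.mp h2, htQ⟩)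
          have := (hfar t ht h2 s hsL').1
          have := hPj.diam s t htQ
          linarith
        have e1 := hb.ps.lip V (X bq ∩ Q) Q (q.ζ * lam) t y
        have e2 : psi (X bq ∩ Q) Q (q.ζ * lam) y ≤ 12 * η * lam := by
          by_cases hyQ : y ∈ Q
          · have hcy : cl (true, j') y = Q := hPj.eq _ _ hyQ
            have hbb : bq = b' := by
              obtain ⟨w, hw, e⟩ := hs.ch.sep b' bq e hq1 hq2.le hca.eT z hzX y hca.yX
              refine hmeet w hw ?_
              rw [← hcy]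
              refine hpd y hca.yX w ?_
              have := dist_nonneg (x := w) (y := z)
              linarith
            have hzQ : z ∈ Q := by
              rw [← hcy]; exact hpd y hca.yX z (by linarith)
            have := hb.ps.le_dist V (X bq ∩ Q) Q (q.ζ * lam) y z
              (Or.inl (mem_inter.2 ⟨by rw [hbb]; exact hzX, hzQ⟩))
            linarith
          · rw [hb.ps.zero V _ _ _ y hzl0 (Or.inr hyQ)]; linarith
        have := (abs_le.1 e1).2
        linarith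
      · rw [hb.ps.zero V _ _ _ t hzl0 (Or.inr htQ)]; linarith
  · intro s' hs' t ht htJ
    obtain ⟨hs'X, h1, h2, hs'Q⟩ := (hJm s').1 hs'
    have h5 := hann s' hs'X h1 h2
    by_cases h6 : dist t y ≤ L
    · have := dist_triangle s' t y
      linarith
    · by_cases h7 : dist t y ≤ L'
      · have htQ : t ∉ Q := fun h => htJ ((hJm t).2 ⟨ht, not_le.mp h6, h7, h⟩)
        by_contra h
        have : t ∈ cl (true, j') s' := hpd s' hs'X t (by linarith)
        rw [hPj.eq _ _ hs'Q] at this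
        exact htQ this
      · have := (hfar t ht (not_le.mp h7) s' h2).2
        linarith
  · exact n4 he0 hn.e1 hn.n1 hn.zt hc.a1 hl0

end Vale.Agent.P235
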