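import Vale.Agent.P235.GeoB

namespace Vale.Agent.P235

open Finset
open scoped BigOperators

namespace TGEO2bAux

theorem fin_num {a h m n η lam ε S C : ℝ} (ha : 0 < a) (hm : 0 < m) (hη : 0 < η) (hl : 0 < lam)
    (hh : 2 * η * lam ≤ h) (hε : ε ≤ 1 / 16) (hS : 7 / 10 ≤ S) (hn : 5 * n * η ≤ m / 4)
    (H : a * h * m * |S| ≤ C + 5 * n * a * (η ^ 2 * lam) + a * h * m * ε) :
    a * η * m * lam ≤ C := by
  have h0 : 0 < η * lam := mul_pos hη hl
  have h1 : 0 ≤ a * h * m := by
    have : 0 < h := by linarith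
    positivity
  have h2 : a * h * m * (7 / 10) ≤ a * h * m * |S| :=
    mul_le_mul_of_nonneg_left (hS.trans (le_abs_self S)) h1
  have h3 : a * h * m * ε ≤ a * h * m * (1 / 16) := mul_le_mul_of_nonneg_left hε h1
  have h4 : a * (2 * η * lam) * m ≤ a * h * m :=
    mul_le_mul_of_nonneg_right (mul_le_mul_of_nonneg_left hh ha.le) hm.le
  have h5 : 5 * n * η * (a * (η * lam)) ≤ m / 4 * (a * (η * lam)) :=
    mul_le_mul_of_nonneg_right hn (by positivity)
  have h6 : 0 < a * η * m * lam := by positivity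
  nlinarith

end TGEO2bAux

theorem geo2b (hb : Base) : GEO2bS := by
  intro V _ _ _ q c Rm cl X t0 T x jt τ e y j b e' co u hc hs hca hP hpad hco hR hSL hsum
  have hn := GeoB.num hc
  have hΔ := hc.Δ3
  have η0 := hn.e0
  have η1 := hn.e1
  have η2 := hn.e2
  have ζ0 := hn.z0
  have ζ1 := hn.z1
  set lam := q.η ^ j with hlam
  have l0 : 0 < lam := zpow_pos η0 _
  have l1 : lam ≤ q.η ^ 2 * al X x t0 :=
    (zpow_le_zpow_right_of_le_one₀ η0 (by linarith) hca.jtj).trans hs.top2
  have hΔη : q.Δ * q.η ≤ 1 / 1000 := by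
    have := hn.dz
    nlinarith
  have α0 : 0 < al X x t0 := by
    by_contra h
    have := mul_le_mul_of_nonneg_left (not_lt.1 h) (sq_nonneg q.η)
    linarith
  have hA : al X x (τ + 1) < 2 * (q.η ^ 4 * al X x t0) := hs.drop.trans_le (min_le_right _ _)
  set P := cl (true, j) y with hPdef
  have hpart : Part (q.Δ * lam) (cl (true, j)) := hP (true, j)
  have inP : ∀ s, cl (true, j) s = P → dist y s ≤ q.Δ * lam := fun s h =>
    hpart.diam y s (by rw [← hPdef, ← h]; exact hpart.mem s)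
  have η4 : q.η ^ 4 ≤ 1 / 1000 := by
    have : q.η ^ 4 ≤ q.η := pow_le_of_le_one η0.le (by linarith) (by norm_num)
    linarith
  have ηsq : q.η ^ 2 ≤ q.η := pow_le_of_le_one η0.le (by linarith) (by norm_num)
  have n0 : ¬ ActG q cl (X t0) (true, j) P := by
    rintro ⟨-, s, hs1, hs2⟩
    have a1 := GeoB.al_le (x := x) hs1
    have a2 := dist_triangle x y s
    have a3 := inP s hs2
    have a4 := hca.xy
    have a5 : q.Δ * lam ≤ q.Δ * (q.η ^ 2 * al X x t0) := mul_le_mul_of_nonneg_left l1 (by linarith)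
    have a6 : q.Δ * q.η ^ 2 ≤ 1 / 1000 :=
      (mul_le_mul_of_nonneg_left ηsq (by linarith)).trans hΔη
    have a7 := mul_le_mul_of_nonneg_right a6 α0.le
    have a8 := mul_le_mul_of_nonneg_right η4 α0.le
    nlinarith
  have hact := hca.acts e' hca.be le_rfl
  obtain ⟨bP, b1, b2, b3, b4⟩ := GeoB.last_fail (fun σ => ActG q cl (X σ) (true, j) P)
    (hca.t0b.trans_lt hca.be) n0 ⟨hact, y, hca.yX', rfl⟩
  have ee := hca.ee
  have ee' := hca.ee'
  have hborn : BornG q cl X (true, j) P bP e :=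
    ⟨by omega, b3, b4 _ (Nat.lt_succ_self _) b2, fun σ h1 h2 => b4 σ h1 (by omega)⟩
  have hpd : padded (cl (true, j)) lam y := by
    refine hpad.2 j ?_ y hca.yX
    rcases ee.eq_or_lt with h | h
    · exact Or.inr (h ▸ hact)
    · have : e - 1 = e' := by omega
      exact Or.inl (this ▸ hact)
  have hcap : q.cap (true, j) = q.ζ * lam := by simp [GP.cap, hlam]
  have hhi : q.Δ * lam ≤ q.hi (true, j) := by
    have e1 : q.hi (true, j) = lam / q.η ^ (2 * q.k + 4) := by simp [GP.hi, hlam]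
    have e2 : q.η ^ (2 * q.k + 4) ≤ q.η := pow_le_of_le_one η0.le (by linarith) (by omega)
    rw [e1, le_div_iff₀ (pow_pos η0 _)]
    have e3 : q.Δ * q.η ^ (2 * q.k + 4) ≤ 1 :=
      (mul_le_mul_of_nonneg_left e2 (by linarith)).trans (by linarith)
    nlinarith
  set h := psi (X bP ∩ P) P (q.cap (true, j)) y with hh
  have h1 : h ≤ q.ζ * lam := hcap ▸ hb.ps.le_cap _ _ _ _ _
  have h2 : 2 * q.η * lam ≤ h := by
    refine hb.ps.le_psi _ _ _ _ _ _ ?_ fun z hz => ?_
    · rw [hcap]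
      exact mul_le_mul_of_nonneg_right (by linarith) l0.le
    · rcases hz with hz | hz
      · obtain ⟨z1, z2⟩ := mem_inter.1 hz
        have z3 : bP ≤ b := by
          by_contra hlt
          exact b3 ⟨hca.acts bP (not_le.1 hlt) b2.le, z, z1, hpart.eq y z z2⟩
        obtain ⟨w, w1, w2⟩ := hs.ch.sep bP b e z3 (hca.be.le.trans ee) hca.eT z z1 y hca.yX
        have := hca.far w w1
        have := dist_nonneg (x := w) (y := z)
        linarith
      · have z1 : lam < dist y z := not_le.1 fun h' => hz (hpd z h')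
        nlinarith
  have hRm : lam ≤ Rm := by
    obtain ⟨w, hw⟩ := hs.ne
    have r1 := (GeoB.al_le (x := x) hw).trans (hR x w)
    have r2 : 0 < q.η ^ (2 * q.k + 4) := pow_pos η0 _
    have r3 : q.η ^ (2 * q.k + 4) ≤ 1 := pow_le_one₀ η0.le (by linarith)
    have r4 : 0 < Rm := by
      by_contra h'
      have := mul_le_mul_of_nonneg_left (not_lt.1 h') r2.le
      linarith
    have r5 := mul_le_mul_of_nonneg_right r3 r4.le
    have r6 := mul_le_mul_of_nonneg_right (ηsq.trans (by linarith : q.η ≤ 1)) α0.le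
    linarith
  have δ0 : 0 ≤ q.η ^ 2 * lam := by positivity
  have δ1 : q.η ^ 2 * lam ≤ q.η * lam := mul_le_mul_of_nonneg_right ηsq l0.le
  have δ2 : q.η * lam ≤ q.ζ * lam := mul_le_mul_of_nonneg_right (by linarith) l0.le
  have δ3 : q.ζ * lam ≤ lam := mul_le_of_le_one_left l0.le (by linarith)
  have off : ∀ t ∈ X e, t ∉ (X e).filter (fun t => dist t y ≤ q.η ^ 2 * lam) →
      q.Δ * lam < dist t y := fun t ht hJ =>
    hhi.trans_lt ((hca.gap t ht).resolve_left fun h' => hJ (mem_filter.2 ⟨ht, h'⟩))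
  have n2 : (1 : ℝ) ≤ ((q.k : ℝ) + 1) ^ 2 := one_le_pow₀ hn.n1
  have key := hSL e hca.eT hpad.1 j P bP b1 hborn
    ((X e).filter (fun t => dist t y ≤ q.η ^ 2 * lam)) (filter_subset _ _) h (q.η ^ 2 * lam) lam
    (by nlinarith) l0 hRm
    (fun s hs' => by
      split_ifs with hJ
      · exact (hb.ps.lip _ _ _ _ s y).trans (mem_filter.1 hJ).2
      · rw [hb.ps.zero _ _ _ _ s (by rw [hcap]; positivity) (Or.inr fun hsP => ?_), sub_zero,
          abs_zero]
        · exact δ0
        · have := hpart.diam y s hsP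
          rw [dist_comm] at this
          exact absurd (off s hs' hJ) (not_lt.2 this))
    (fun s hs' t ht hJ => by
      have a1 := off t ht hJ
      have a2 := (mem_filter.1 hs').2
      have a3 := dist_triangle t s y
      have a4 := mul_le_mul_of_nonneg_right hΔ l0.le
      rw [dist_comm t s] at a3
      linarith)
    (by
      have a1 : h + 2 * (q.η ^ 2 * lam) ≤ 3 * (q.ζ * lam) := by linarith
      have a2 : 0 ≤ h + 2 * (q.η ^ 2 * lam) := by nlinarith
      have a3 := mul_le_mul_of_nonneg_right hc.a1 a2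
      have a4 : 12 * q.ζ ≤ c.θ := by nlinarith [hn.zt]
      have a5 := mul_le_mul_of_nonneg_right a4 l0.le
      linarith)
  refine GeoB.good_of hc hs hca hco le_rfl b1 hborn.1 ?_
    (TGEO2bAux.fin_num hc.a0 hc.m0 η0 l0 h2 ?_ hsum ?_ key)
  · obtain ⟨-, p, p1, p2⟩ := hborn.2.2.1
    have a1 := GeoB.al_le (x := x) p1
    have a2 := dist_triangle x y p
    have a3 := inP p p2
    have a4 := hca.xy
    linarith
  · have a1 := hc.ε1
    have a2 := mul_le_mul_of_nonneg_right hn.n1 hc.ε0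
    linarith
  · have a1 := hn.zm
    have a2 : ((q.k : ℝ) + 1) ≤ ((q.k : ℝ) + 1) ^ 2 := by nlinarith [hn.n1]
    have a3 : ((q.k : ℝ) + 1) * q.η ≤ ((q.k : ℝ) + 1) ^ 2 * q.ζ :=
      mul_le_mul a2 (by linarith) η0.le (by positivity)
    have a4 := hc.m0
    linarith

end Vale.Agent.P235
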