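import Vale.Agent.P235.Sts

namespace Vale.Agent.P235

open Finset
open scoped BigOperators

namespace GeoB

variable {V : Type} [MetricSpace V]

theorem ne_of {X : ℕ → Finset V} {T n t0 : ℕ} {x : V} (hc : Chain X T n) (hl : X T = {x})
    (hne : (X t0).Nonempty) {σ : ℕ} (h1 : t0 ≤ σ) (h2 : σ ≤ T) : (X σ).Nonempty := by
  obtain ⟨w, hw⟩ := hne
  obtain ⟨z, hz, _⟩ := hc.sep t0 σ T h1 h2 le_rfl w hw x (by rw [hl]; simp)
  exact ⟨z, hz⟩

theorem al_le {X : ℕ → Finset V} {x z : V} {σ : ℕ} (hz : z ∈ X σ) : al X x σ ≤ dist x z :=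
  Metric.infDist_le_dist_of_mem (by simpa using hz)

theorem al_ex {X : ℕ → Finset V} (x : V) {σ : ℕ} (h : (X σ).Nonempty) :
    ∃ z ∈ X σ, al X x σ = dist x z := by
  obtain ⟨z, hz, e⟩ := (X σ).finite_toSet.isCompact.exists_infDist_eq_dist
    (by simpa using h) x
  exact ⟨z, by simpa using hz, e⟩

theorem al_anti {X : ℕ → Finset V} {T n t0 : ℕ} {x : V} (hc : Chain X T n) (hl : X T = {x})
    (hne : (X t0).Nonempty) {σ σ' : ℕ} (h1 : t0 ≤ σ) (h2 : σ ≤ σ') (h3 : σ' ≤ T) :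
    al X x σ' ≤ al X x σ := by
  obtain ⟨w, hw, e⟩ := al_ex x (ne_of hc hl hne h1 (h2.trans h3))
  obtain ⟨z, hz, e'⟩ := hc.sep σ σ' T h2 h3 le_rfl w hw x (by rw [hl]; simp)
  have := al_le (x := x) hz
  have := dist_nonneg (x := z) (y := w)
  linarith

theorem al_nonneg (X : ℕ → Finset V) (x : V) (σ : ℕ) : 0 ≤ al X x σ := Metric.infDist_nonneg

theorem last_fail (p : ℕ → Prop) {a e : ℕ} (hae : a < e) (ha : ¬ p a) (he : p e) :
    ∃ b, a ≤ b ∧ b < e ∧ ¬ p b ∧ ∀ σ, b < σ → σ ≤ e → p σ := by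
  classical
  have h1 := Nat.findGreatest_spec (P := fun σ => ¬ p σ) (m := a) (n := e) hae.le ha
  have h2 := Nat.le_findGreatest (P := fun σ => ¬ p σ) (m := a) (n := e) hae.le ha
  have h3 := Nat.findGreatest_le (P := fun σ => ¬ p σ) e
  refine ⟨Nat.findGreatest (fun σ => ¬ p σ) e, h2, ?_, h1, fun σ h4 h5 => ?_⟩
  · rcases h3.lt_or_eq with h | h
    · exact h
    · rw [h] at h1; exact absurd he h1
  · by_contra h6
    exact Nat.findGreatest_is_greatest (P := fun σ => ¬ p σ) h4 h5 h6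

structure Num (q : GP) (c : NP) : Prop where
  z0 : 0 < q.ζ
  z1 : q.ζ ≤ 1 / 4000
  e0 : 0 < q.η
  e1 : q.η ≤ 1 / 4000 * q.ζ
  e2 : q.η ≤ 1 / 1000000
  dz : q.Δ * q.ζ ≤ 1 / 1000
  zt : 4000 * ((q.k : ℝ) + 1) ^ 2 * q.ζ ≤ c.θ
  zm : 4000 * ((q.k : ℝ) + 1) ^ 2 * q.ζ ≤ c.m
  n1 : (1 : ℝ) ≤ (q.k : ℝ) + 1

theorem num {q : GP} {c : NP} (hc : c.OK q) : Num q c := by
  have h1 := hc.ζ1
  have h2 := hc.ζ0
  have h3 := hc.Δ3
  have n1 : (1 : ℝ) ≤ (q.k : ℝ) + 1 := by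
    have : (0 : ℝ) ≤ q.k := Nat.cast_nonneg _
    linarith
  have h5 : (1 : ℝ) ≤ ((q.k : ℝ) + 1) ^ 2 := one_le_pow₀ n1
  have h4 : c.θ * c.m ≤ 1 := mul_le_one₀ hc.θ1 hc.m0.le hc.m1
  have h4a : c.θ * c.m ≤ c.θ := mul_le_of_le_one_right hc.θ0.le hc.m1
  have h4b : c.θ * c.m ≤ c.m := mul_le_of_le_one_left hc.m0.le hc.θ1
  have h6 : 4000 * ((q.k : ℝ) + 1) ^ 2 * q.ζ ≤ 1000 * ((q.k : ℝ) + 1) ^ 2 * (q.Δ + 1) * q.ζ := by
    have : 0 ≤ ((q.k : ℝ) + 1) ^ 2 * q.ζ := by positivity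
    nlinarith
  have h7 : 1000 * ((q.Δ + 1) * q.ζ) ≤ 1000 * ((q.k : ℝ) + 1) ^ 2 * (q.Δ + 1) * q.ζ := by
    have : 0 ≤ (q.Δ + 1) * q.ζ := by positivity
    nlinarith
  have z1 : q.ζ ≤ 1 / 4000 := by nlinarith
  refine ⟨h2, z1, pow_pos h2 2, ?_, ?_, by nlinarith, by linarith, by linarith, n1⟩
  · unfold GP.η; nlinarith
  · unfold GP.η; nlinarith

theorem good_of {q : GP} {c : NP} (hc : c.OK q) {X : ℕ → Finset V} {t0 T : ℕ} {x : V} {jt : ℤ}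
    {τ e : ℕ} {y : V} {j : ℤ} {b e' : ℕ} {co : ℕ → ℝ} (hs : Sit q X t0 T x jt τ)
    (hca : Cand q X t0 T x jt τ e y j b e') (hco : ∀ σ, 0 ≤ co σ) {lam : ℝ}
    (hl : q.η ^ j ≤ lam) {bq : ℕ} (h1 : t0 ≤ bq) (_h2 : bq < e)
    (h3 : al X x (bq + 1) ≤ al X x (τ + 1) + q.Δ * lam)
    (h4 : c.a * q.η * c.m * lam ≤ ∑ σ ∈ Ico bq e, co σ) : Good q c X t0 T x co τ := by
  have hn := num hc
  have hτe := hca.τe
  refine ⟨min bq τ, e, le_min h1 hs.t0τ, min_le_right _ _, by omega, hca.eT, ?_⟩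
  have hp : 0 < q.η ^ j := zpow_pos hn.e0 _
  have hΔ := hc.Δ3
  have e1 : alb q X x t0 (min (min bq τ + 1) τ) ≤ al X x (τ + 1) + (q.Δ + 4) * lam := by
    rcases lt_or_ge bq τ with h | h
    · have : min (min bq τ + 1) τ = bq + 1 := by omega
      rw [this]
      have : alb q X x t0 (bq + 1) ≤ al X x (bq + 1) := min_le_left _ _
      nlinarith
    · have : min (min bq τ + 1) τ = τ := by omega
      rw [this]
      have := hca.del
      nlinarith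
  have e2 : al X x (τ + 1) - 8 * lam ≤ alb q X x t0 e := by
    have := hca.ale
    have h5 := hs.drop
    have h6 : alb q X x t0 τ ≤ 2 * bet q X x t0 := min_le_right _ _
    refine le_min (by linarith) (by linarith)
  have e3 : ∑ σ ∈ Ico bq e, co σ ≤ ∑ σ ∈ Ico (min bq τ) e, co σ :=
    sum_le_sum_of_subset_of_nonneg (Ico_subset_Ico_left (min_le_left _ _)) (fun σ _ _ => hco σ)
  have e4 : 0 ≤ c.a * q.η * c.m / (q.Δ + 12) := by
    have := hc.a0; have := hc.m0; have := hn.e0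
    have : 0 < q.Δ + 12 := by linarith
    positivity
  calc _ ≤ c.a * q.η * c.m / (q.Δ + 12) * ((q.Δ + 12) * lam) :=
        mul_le_mul_of_nonneg_left (by linarith) e4
    _ = c.a * q.η * c.m * lam := by
        have : q.Δ + 12 ≠ 0 := by linarith
        field_simp
    _ ≤ _ := h4.trans e3

end GeoB

end Vale.Agent.P235
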