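import Vale.Agent.P235.Sts
import Vale.Agent.P235.GeoB

namespace Vale.Agent.P235

open Finset
open scoped BigOperators

namespace TGEO3Aux

theorem scale {η α : ℝ} (h0 : 0 < η) (h1 : η < 1) (hα : 0 < α) :
    ∃ jt : ℤ, η ^ 3 * α < η ^ jt ∧ η ^ jt ≤ η ^ 2 * α := by
  obtain ⟨n, a1, a2⟩ := exists_mem_Ico_zpow (x := η ^ 2 * α) (y := η⁻¹) (by positivity)
    ((one_lt_inv₀ h0).2 h1)
  rw [zpow_add_one₀ (inv_ne_zero h0.ne'), inv_zpow', ← div_eq_mul_inv, lt_div_iff₀ h0] at a2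
  rw [inv_zpow'] at a1
  exact ⟨-n, by linarith, a1⟩

open Classical in
theorem avg {Z : Type} [Fintype Z] (D : Finset ℕ) (δ : ℕ → ℝ) (p : Z → ℕ → Prop)
    (hδ : ∀ τ ∈ D, 0 ≤ δ τ)
    (hp : ∀ τ ∈ D, 2 * (univ.filter fun z => ¬ p z τ).card ≤ Fintype.card Z) :
    (∑ τ ∈ D, δ τ) * Fintype.card Z ≤ 2 * ∑ z, ∑ τ ∈ D.filter (p z), δ τ := by
  simp only [sum_filter]
  rw [sum_comm, sum_mul, mul_sum]
  refine sum_le_sum fun τ hτ => ?_
  rw [← sum_filter, sum_const, nsmul_eq_mul]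
  have h1 := card_filter_add_card_filter_not (s := (univ : Finset Z)) fun z => p z τ
  have h2 := hp τ hτ
  rw [card_univ] at h1
  have h3 : (Fintype.card Z : ℝ) ≤ 2 * (univ.filter fun z => p z τ).card := by
    exact_mod_cast (by omega : Fintype.card Z ≤ 2 * (univ.filter fun z => p z τ).card)
  nlinarith [hδ τ hτ]

end TGEO3Aux

theorem geo3 (h1 : GEO1S) (h2 : GEO2S) (h3 : COVS) : GEO3S := by
  classical
  intro V Z _ _ _ _ q c Rm cl X t0 T x co u hc hch hl hne hT hP hpad hco hR hS hH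
  have hn := GeoB.num hc
  have hη := hn.e0
  have hη1 := hn.e2
  have hΔ := hc.Δ3
  have hco' : ∀ z, 0 ≤ ∑ σ ∈ Ico t0 T, co z σ := fun z => sum_nonneg fun σ _ => hco z σ
  rcases (GeoB.al_nonneg X x t0).eq_or_lt with h0 | h0
  · rw [← h0, mul_zero, zero_mul]
    exact sum_nonneg fun z _ => hco' z
  obtain ⟨jt, j1, j2⟩ := TGEO3Aux.scale hη (by linarith) h0
  have hb : 0 ≤ bet q X x t0 := mul_nonneg (pow_nonneg hη.le 4) h0.le
  have anti : ∀ σ, t0 ≤ σ → σ < T → alb q X x t0 (σ + 1) ≤ alb q X x t0 σ := fun σ a b =>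
    min_le_min_right _ (GeoB.al_anti hch hl hne a (Nat.le_succ σ) b)
  have tel : ∑ τ ∈ Ico t0 T, (alb q X x t0 τ - alb q X x t0 (τ + 1)) = 2 * bet q X x t0 := by
    have e1 : alb q X x t0 t0 = 2 * bet q X x t0 := by
      refine min_eq_right ?_
      have : q.η ^ 4 ≤ (1 / 2) ^ 4 := pow_le_pow_left₀ hη.le (by linarith) 4
      unfold bet
      nlinarith
    have e2 : alb q X x t0 T = 0 := by
      have : al X x T = 0 := Metric.infDist_zero_of_mem (by rw [hl]; simp)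
      unfold alb
      rw [this]
      exact min_eq_left (by linarith)
    have e3 := sum_Ico_sub (alb q X x t0) hT
    rw [e1, e2] at e3
    simp only [sum_sub_distrib] at e3 ⊢
    linarith
  obtain ⟨D, hD⟩ : ∃ D, D = (Ico t0 T).filter fun τ => al X x (τ + 1) < alb q X x t0 τ := ⟨_, rfl⟩
  have hDm : ∀ τ, τ ∈ D ↔ (t0 ≤ τ ∧ τ < T) ∧ al X x (τ + 1) < alb q X x t0 τ := fun τ => by
    rw [hD, mem_filter, mem_Ico]
  have hsit : ∀ τ ∈ D, Sit q X t0 T x jt τ := fun τ h =>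
    ⟨hch, hl, hne, ((hDm τ).1 h).1.1, ((hDm τ).1 h).1.2, j1, j2, ((hDm τ).1 h).2⟩
  have hex : ∀ τ, ∃ e y j b e', τ ∈ D → Cand q X t0 T x jt τ e y j b e' := by
    intro τ
    by_cases h : τ ∈ D
    · obtain ⟨e, y, j, b, e', hh⟩ := h1 V q X t0 T x jt τ hn.z0 (by linarith [hn.z1]) (hsit τ h)
      exact ⟨e, y, j, b, e', fun _ => hh⟩
    · exact ⟨0, x, 0, 0, 0, fun h' => absurd h' h⟩
  choose e y j b e' hca using hex
  have hlow : 2 * bet q X x t0 ≤ ∑ τ ∈ D, (alb q X x t0 τ - alb q X x t0 (τ + 1)) := by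
    rw [← tel, hD, sum_filter]
    refine sum_le_sum fun τ _ => ?_
    split_ifs with h
    · exact le_rfl
    · exact sub_nonpos.2 (le_min (not_lt.1 h) (min_le_right _ _))
  have hav := TGEO3Aux.avg D (fun τ => alb q X x t0 τ - alb q X x t0 (τ + 1))
    (fun z τ => Pad q (cl z) X (e τ))
    (fun τ h => sub_nonneg.2 (anti τ ((hDm τ).1 h).1.1 ((hDm τ).1 h).1.2))
    fun τ h => hpad _ (hca τ h).eT
  obtain ⟨c2, hc2⟩ : ∃ c2, c2 = c.a * q.η * c.m / (q.Δ + 12) := ⟨_, rfl⟩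
  have c0 : 0 ≤ c2 := by
    have := hc.a0
    have := hc.m0
    have : 0 < q.Δ + 12 := by linarith
    rw [hc2]
    positivity
  have c1 : c2 ≤ 1 := by
    rw [hc2, div_le_one (by linarith)]
    have := mul_le_one₀ (mul_le_one₀ hc.a1 hη.le (by linarith)) hc.m0.le hc.m1
    linarith
  have hz : ∀ z, c2 * ∑ τ ∈ D.filter fun τ => Pad q (cl z) X (e τ),
      (alb q X x t0 τ - alb q X x t0 (τ + 1)) ≤ 8 * ∑ σ ∈ Ico t0 T, co z σ := by
    intro z
    by_cases hbz : bet q X x t0 ≤ ∑ σ ∈ Ico t0 T, co z σ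
    · have a1 : ∑ τ ∈ D.filter fun τ => Pad q (cl z) X (e τ),
          (alb q X x t0 τ - alb q X x t0 (τ + 1)) ≤ 2 * bet q X x t0 := by
        rw [← tel]
        exact sum_le_sum_of_subset_of_nonneg
          (fun τ h => mem_Ico.2 ((hDm τ).1 (mem_filter.1 h).1).1)
          fun τ h _ => sub_nonneg.2 (anti τ (mem_Ico.1 h).1 (mem_Ico.1 h).2)
      have a2 := mul_le_mul_of_nonneg_left a1 c0
      nlinarith
    · refine h3 t0 T (co z) _ c2 _ c0 (hco z) anti fun τ h => ?_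
      obtain ⟨a1, a2⟩ := mem_filter.1 h
      rw [hc2]
      exact (h2 V q c Rm (cl z) X t0 T x jt τ _ _ _ _ _ (co z) (u z) hc (hsit τ a1) (hca τ a1)
        (hP z) a2 (hco z) hR (hS z) (hH z)).resolve_right hbz
  have h4 := sum_le_sum fun z (_ : z ∈ univ) => hz z
  rw [← mul_sum, ← mul_sum] at h4
  have h5 := mul_le_mul_of_nonneg_left
    ((mul_le_mul_of_nonneg_right hlow (Nat.cast_nonneg (Fintype.card Z))).trans hav) c0
  have h6 : c.a * q.η ^ 5 * c.m / (16 * (q.Δ + 12)) * al X x t0 * Fintype.card Z =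
      c2 * (bet q X x t0 * Fintype.card Z) / 16 := by
    have : q.Δ + 12 ≠ 0 := by linarith
    rw [hc2, bet]
    field_simp
  have h7 : 0 ≤ ∑ z, ∑ σ ∈ Ico t0 T, co z σ := sum_nonneg fun z _ => hco' z
  rw [h6]
  linarith

end Vale.Agent.P235
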