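import Vale.Agent.P235.Sts

namespace Vale.Agent.P235

open Finset
open scoped BigOperators

namespace TGMAux

variable {V : Type} {G : SimpleGraph V} {l : Sym2 V → ℝ}

theorem wlen_nil (u : V) : wlen l (SimpleGraph.Walk.nil : G.Walk u u) = 0 := by simp [wlen]

theorem wlen_cons {u v w : V} (h : G.Adj u v) (p : G.Walk v w) :
    wlen l (SimpleGraph.Walk.cons h p) = l s(u, v) + wlen l p := by simp [wlen]

theorem wlen_append {u v w : V} (p : G.Walk u v) (q : G.Walk v w) :
    wlen l (p.append q) = wlen l p + wlen l q := by simp [wlen]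

theorem wlen_reverse {u v : V} (p : G.Walk u v) : wlen l p.reverse = wlen l p := by
  simp [wlen]

theorem wlen_nonneg (hl : ∀ e ∈ G.edgeSet, 0 < l e) {u v : V} (p : G.Walk u v) :
    0 ≤ wlen l p := by
  induction p with
  | nil => rw [wlen_nil]
  | cons h p ih =>
    rw [wlen_cons]
    exact add_nonneg (hl _ h).le ih

theorem wlen_bypass [DecidableEq V] (hl : ∀ e ∈ G.edgeSet, 0 < l e) {u v : V} (p : G.Walk u v) :
    wlen l p.bypass ≤ wlen l p := by
  refine (p.edges_bypass_sublist_edges.map l).sum_le_sum fun a ha => ?_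
  obtain ⟨e, he, rfl⟩ := List.mem_map.1 ha
  exact (hl e (p.edges_subset_edgeSet he)).le

theorem exists_min [Fintype V] (hG : G.Connected) (hl : ∀ e ∈ G.edgeSet, 0 < l e) (u v : V) :
    ∃ p : G.Walk u v, wlen l p = gdist G l u v ∧ ∀ q : G.Walk u v, wlen l p ≤ wlen l q := by
  classical
  obtain ⟨p₀⟩ := hG.preconnected u v
  haveI : Nonempty (G.Path u v) := ⟨p₀.toPath⟩
  obtain ⟨p, hp⟩ := Finite.exists_min fun p : G.Path u v => wlen l p.1
  have h1 : ∀ q : G.Walk u v, wlen l p.1 ≤ wlen l q := fun q =>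
    (hp q.toPath).trans (wlen_bypass hl q)
  have h2 : IsLeast {x : ℝ | ∃ p : G.Walk u v, wlen l p = x} (wlen l p.1) := by
    refine ⟨⟨p.1, rfl⟩, ?_⟩
    rintro x ⟨q, rfl⟩
    exact h1 q
  exact ⟨p.1, h2.csInf_eq.symm, h1⟩

theorem gdist_le [Fintype V] (hG : G.Connected) (hl : ∀ e ∈ G.edgeSet, 0 < l e) {u v : V}
    (q : G.Walk u v) : gdist G l u v ≤ wlen l q := by
  obtain ⟨p, h1, h2⟩ := exists_min hG hl u v
  exact h1 ▸ h2 q

theorem gdist_symm_le [Fintype V] (hG : G.Connected) (hl : ∀ e ∈ G.edgeSet, 0 < l e) (u v : V) :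
    gdist G l u v ≤ gdist G l v u := by
  obtain ⟨p, h1, -⟩ := exists_min hG hl v u
  rw [← h1, ← wlen_reverse]
  exact gdist_le hG hl _

theorem DW_self [Fintype V] [DecidableEq V] (W : Finset V → ℝ) (x : V) : DW W x x = 0 := by
  simp [DW]

theorem DW_tri [Fintype V] [DecidableEq V] {W : Finset V → ℝ} (hW : ∀ C, 0 ≤ W C) (x y z : V) :
    DW W x z ≤ DW W x y + DW W y z := by
  unfold DW
  rw [← sum_add_distrib]
  refine sum_le_sum fun C _ => ?_
  rw [← mul_add]
  exact mul_le_mul_of_nonneg_left (abs_sub_le _ _ _) (hW C)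

end TGMAux

open TGMAux

theorem gm : GMS := by
  intro V _ G l hG hl
  let m : MetricSpace V :=
    { dist := gdist G l
      dist_self := fun x => by
        obtain ⟨p, h1, h2⟩ := exists_min hG hl x x
        refine le_antisymm ?_ (h1 ▸ wlen_nonneg hl p)
        exact (gdist_le hG hl SimpleGraph.Walk.nil).trans (wlen_nil x).le
      dist_comm := fun x y => le_antisymm (gdist_symm_le hG hl x y) (gdist_symm_le hG hl y x)
      dist_triangle := fun x y z => by
        obtain ⟨p, h1, -⟩ := exists_min hG hl x y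
        obtain ⟨q, h2, -⟩ := exists_min hG hl y z
        show gdist G l x z ≤ gdist G l x y + gdist G l y z
        rw [← h1, ← h2, ← wlen_append]
        exact gdist_le hG hl _
      eq_of_dist_eq_zero := fun {x y} h => by
        obtain ⟨p, h1, -⟩ := exists_min hG hl x y
        have h2 : wlen l p = 0 := h1.trans h
        cases p with
        | nil => rfl
        | cons h3 p =>
          rw [wlen_cons] at h2
          linarith [hl _ (show s(x, _) ∈ G.edgeSet from h3), wlen_nonneg hl p] }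
  refine ⟨m, fun _ _ => rfl, ⟨fun u v h => hl _ h, fun u v p => gdist_le hG hl p, fun u v => ?_⟩⟩
  obtain ⟨p, h1, -⟩ := exists_min hG hl u v
  exact ⟨p, h1⟩

theorem pk4 : PK4S := by
  intro V _ _ _ G l S k W K hG hE hW hK hb x y
  have h1 : ∀ u w, G.Adj u w → DW W u w ≤ K * l s(u, w) := by
    intro u w h
    have h2 : dist u w ≤ l s(u, w) := by
      have := hG.le u w (SimpleGraph.Walk.cons h SimpleGraph.Walk.nil)
      rwa [wlen_cons, wlen_nil, add_zero] at this
    refine le_trans ?_ (mul_le_mul_of_nonneg_left h2 hK)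
    rcases lt_or_gt_of_ne h.ne with h3 | h3
    · exact hb w u (mem_insert_of_mem (hE.adj u w h h3)) w (mem_insert_self _ _)
    · exact hb u u (mem_insert_self _ _) w (mem_insert_of_mem (hE.adj w u h.symm h3))
  obtain ⟨p, hp⟩ := hG.ex x y
  rw [← hp]
  clear hp
  induction p with
  | nil => rw [DW_self, wlen_nil, mul_zero]
  | @cons u v w h p ih =>
    rw [wlen_cons, mul_add]
    linarith [DW_tri hW u v w, h1 u v h]

end Vale.Agent.P235
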