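import Vale.Agent.P235.Sts

namespace Vale.Agent.P235

open Finset
open scoped BigOperators

namespace TM1Aux

noncomputable def S1 {V ι : Type} (p : MP) (S : St V ι) (ψ : ι → V → ℝ) (i : ι) : St V ι where
  Ω := S.Ω × Fin p.M
  fin := inferInstance
  P := fun x => S.P x.1 / p.M
  U := fun x i' => if i' = p.k then p.κ * (S.β x.1 i * vv p.M x.2) else S.U x.1 i'
  β := fun x => S.β x.1
  ξ := Function.update S.ξ p.k (ψ i)

theorem sumP {Ω : Type} [Fintype Ω] {M : ℕ} (P : Ω → ℝ) (f : Ω × Fin M → ℝ) :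
    ∑ x : Ω × Fin M, P x.1 / M * f x = ∑ ω, P ω * 𝔼 j : Fin M, f (ω, j) := by
  rw [Fintype.sum_prod_type]
  refine Finset.sum_congr rfl fun ω _ => ?_
  simp only []
  rw [Finset.expect_eq_sum_div_card, Finset.card_univ, Fintype.card_fin, ← Finset.mul_sum]
  ring

theorem ex_const {M : ℕ} (hM : 2 ≤ M) (c : ℝ) : 𝔼 _j : Fin M, c = c := by
  have : Nonempty (Fin M) := ⟨⟨0, by omega⟩⟩
  exact Finset.expect_const Finset.univ_nonempty c

theorem ex_U01 {M : ℕ} (hM : 2 ≤ M) (h : Fin M → ℝ) (hh : ∀ j, 0 ≤ h j ∧ h j ≤ 1) :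
    0 ≤ 𝔼 j, h j ∧ 𝔼 j, h j ≤ 1 := by
  refine ⟨Finset.expect_nonneg fun j _ => (hh j).1, ?_⟩
  calc 𝔼 j, h j ≤ 𝔼 _j : Fin M, (1 : ℝ) := Finset.expect_le_expect fun j _ => (hh j).2
    _ = 1 := ex_const hM 1

theorem ex_min {M : ℕ} (hM : 2 ≤ M) (h : Fin M → ℝ) :
    𝔼 j, min (h j) (1 - h j) ≤ min (𝔼 j, h j) (1 - 𝔼 j, h j) := by
  refine le_min (Finset.expect_le_expect fun j _ => min_le_left _ _) ?_
  have h1 : 𝔼 j, (1 - h j) = 1 - 𝔼 j, h j := by
    rw [Finset.expect_sub_distrib, ex_const hM]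
  rw [← h1]
  exact Finset.expect_le_expect fun j _ => min_le_right _ _

theorem ex_abs {M : ℕ} (h v : Fin M → ℝ) (hh : ∀ j, 0 ≤ h j) (hv : ∀ j, |v j| ≤ 1) :
    |𝔼 j, h j * v j| ≤ 𝔼 j, h j := by
  rw [abs_le]
  constructor
  · rw [← Finset.expect_neg_distrib]
    refine Finset.expect_le_expect fun j _ => ?_
    have := abs_le.1 (hv j)
    nlinarith [hh j]
  · refine Finset.expect_le_expect fun j _ => ?_
    have := abs_le.1 (hv j)
    nlinarith [hh j]

theorem ex_vv (hb : Base) {M : ℕ} (hM : 2 ≤ M) (h : Fin M → ℝ) (hh : ∀ j, 0 ≤ h j ∧ h j ≤ 1) :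
    |𝔼 j, h j * vv M j| ≤ min (𝔼 j, h j) (1 - 𝔼 j, h j) := by
  refine le_min (ex_abs h _ (fun j => (hh j).1) fun j => hb.ex.vabs M j hM) ?_
  have h1 : 𝔼 j, (1 - h j) = 1 - 𝔼 j, h j := by
    rw [Finset.expect_sub_distrib, ex_const hM]
  have h2 := ex_abs (fun j => 1 - h j) (vv M) (fun j => by linarith [(hh j).2])
    fun j => hb.ex.vabs M j hM
  have h3 : 𝔼 j, (1 - h j) * vv M j = -𝔼 j, h j * vv M j := by
    have : ∀ j, (1 - h j) * vv M j = vv M j - h j * vv M j := fun j => by ring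
    simp only [this]
    rw [Finset.expect_sub_distrib, hb.ex.vmean M hM, zero_sub]
  rw [h3, abs_neg, h1] at h2
  exact h2

theorem fr_eq (hb : Base) {V ι : Type} [DecidableEq ι] (p : MP) (S : St V ι) (A : Finset ι)
    (ψ : ι → V → ℝ) (i : ι) (hi : i ∈ A) (ω : S.Ω) (j : Fin p.M) (l : ι → Fin p.M) :
    Fr p (p.k + 1) (S1 p S ψ i) (A.erase i) ψ (ω, j) l =
      Fr p p.k S A ψ ω (Function.update l i j) := by
  funext s
  rw [hb.m0.split V ι p p.k S A ψ i hi, hb.m0.upd V ι p p.k S (A.erase i) ψ i (by simp)]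
  simp only [Fr, S1, Finset.sum_range_succ, Function.update_self, if_true]
  have h1 : ∑ x ∈ range p.k, p.lam ^ x *
      (if x = p.k then p.κ * (S.β ω i * vv p.M j) else S.U ω x) *
        Function.update S.ξ p.k (ψ i) x s = ∑ x ∈ range p.k, p.lam ^ x * S.U ω x * S.ξ x s := by
    refine Finset.sum_congr rfl fun x hx => ?_
    have : x ≠ p.k := (Finset.mem_range.1 hx).ne
    rw [if_neg this, Function.update_of_ne this]
  rw [h1, MP.a]
  ring

theorem ex_S1 {V ι : Type} [Fintype ι] [DecidableEq ι] (p : MP) (S : St V ι)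
    (ψ : ι → V → ℝ) (i : ι) (f : (S1 p S ψ i).Ω → (ι → Fin p.M) → ℝ) :
    Ex (S1 p S ψ i) f = ∑ ω, S.P ω * 𝔼 l : ι → Fin p.M, 𝔼 j : Fin p.M, f (ω, j) l := by
  have := sumP S.P (fun x : S.Ω × Fin p.M => 𝔼 l : ι → Fin p.M, f x l)
  refine Eq.trans this ?_
  refine Finset.sum_congr rfl fun ω _ => ?_
  rw [Finset.expect_comm]

theorem rel1 (hb : Base) {V ι : Type} [Fintype ι] [DecidableEq ι] (p : MP) (hM : 2 ≤ p.M) (L : ℝ)
    (X : Finset V) (S : St V ι) (A : Finset ι) (ψ : ι → V → ℝ) (i : ι) (hi : i ∈ A) :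
    Rel L X S (Fr p p.k S A ψ) (S1 p S ψ i) (Fr p (p.k + 1) (S1 p S ψ i) (A.erase i) ψ)
      (A.erase i) ∅ := by
  refine ⟨fun g => ?_, fun i1 hi1 w' hw hind => ?_, fun i1 hi1 => absurd hi1 (by simp)⟩
  · rw [ex_S1]
    simp only [fr_eq hb p S A ψ i hi]
    unfold Ex
    refine Finset.sum_congr rfl fun ω _ => ?_
    rw [hb.ex.resample ι p.M i (fun l => cutI L X g (Fr p p.k S A ψ ω l))]
  · have hne : i1 ≠ i := (Finset.mem_erase.1 hi1).1
    refine ⟨fun ω l => 𝔼 j' : Fin p.M, w' (ω, l i) (Function.update l i j'), ?_, ?_, fun g => ?_⟩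
    · intro ω l
      exact ex_U01 hM _ fun j => hw _ _
    · intro ω l j
      refine Finset.expect_congr rfl fun j' _ => ?_
      rw [Function.update_of_ne hne.symm, Function.update_comm hne]
      exact hind _ _ _
    · rw [ex_S1]
      simp only [fr_eq hb p S A ψ i hi]
      unfold Ex
      refine Finset.sum_congr rfl fun ω _ => ?_
      rw [hb.ex.swap ι p.M i (fun l j => w' (ω, j) l * vv p.M (l i1) *
        cutI L X g (Fr p p.k S A ψ ω (Function.update l i j)))]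
      congr 1
      refine Finset.expect_congr rfl fun l _ => ?_
      simp only [Function.update_idem, Function.update_eq_self, Function.update_of_ne hne]
      rw [Finset.expect_mul, Finset.expect_mul]

theorem key (hb : Base) {Ω ι : Type} [Fintype Ω] [DecidableEq ι] {M : ℕ} (hM : 2 ≤ M)
    (P : Ω → ℝ) (hP : ∀ ω, 0 ≤ P ω) (β : Ω → ι → ℝ) (hβ : ∀ ω i, 0 ≤ β ω i) (A : Finset ι)
    (i : ι) (hi : i ∈ A) (κ c : ℝ) (hκ : 0 ≤ κ) (hc : |c| ≤ κ) (h : Ω × Fin M → ℝ)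
    (hh : U01 h) :
    |∑ ω, P ω * (c * β ω i * 𝔼 j, h (ω, j) * vv M j)| +
      κ * ∑ ω, P ω * ((∑ i' ∈ A.erase i, β ω i') * 𝔼 j, min (h (ω, j)) (1 - h (ω, j))) ≤
      κ * ∑ ω, P ω * (∑ i' ∈ A, β ω i') * min (𝔼 j, h (ω, j)) (1 - 𝔼 j, h (ω, j)) := by
  refine le_trans (add_le_add_left (Finset.abs_sum_le_sum_abs _ _) _) ?_
  rw [Finset.mul_sum, Finset.mul_sum, ← Finset.sum_add_distrib]
  refine Finset.sum_le_sum fun ω _ => ?_
  have h1 := ex_vv hb hM (fun j => h (ω, j)) fun j => hh _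
  have h2 := ex_min hM (fun j => h (ω, j))
  have h3 : ∑ i' ∈ A, β ω i' = β ω i + ∑ i' ∈ A.erase i, β ω i' :=
    (Finset.add_sum_erase A (β ω) hi).symm
  have h4 : 0 ≤ ∑ i' ∈ A.erase i, β ω i' := Finset.sum_nonneg fun i' _ => hβ ω i'
  rw [h3, abs_mul, abs_mul, abs_mul, abs_of_nonneg (hP ω), abs_of_nonneg (hβ ω i)]
  set m := min (𝔼 j, h (ω, j)) (1 - 𝔼 j, h (ω, j))
  set e := |𝔼 j, h (ω, j) * vv M j|
  set m' := 𝔼 j, min (h (ω, j)) (1 - h (ω, j))
  set b := ∑ i' ∈ A.erase i, β ω i'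
  have he : 0 ≤ e := abs_nonneg _
  have k1 : |c| * β ω i * e ≤ κ * β ω i * m :=
    mul_le_mul (mul_le_mul_of_nonneg_right hc (hβ ω i)) h1 he (mul_nonneg hκ (hβ ω i))
  have k2 : b * m' ≤ b * m := mul_le_mul_of_nonneg_left h2 h4
  have k3 := mul_le_mul_of_nonneg_left k1 (hP ω)
  have k4 := mul_le_mul_of_nonneg_left k2 (mul_nonneg hκ (hP ω))
  nlinarith

theorem inv1 (hb : Base) {V ι : Type} [MetricSpace V] [DecidableEq ι] (p : MP) (B : ℝ)
    (S : St V ι) (A : Finset ι) (ψ : ι → V → ℝ) (i : ι) (hp : p.OK) (hI : Inv p p.k B S A)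
    (hA : A.card ≤ p.N) (hi : i ∈ A) (hψ : LB B (ψ i)) :
    Inv p (p.k + 1) B (S1 p S ψ i) (A.erase i) := by
  have hM := hp.M2
  have hMr : (0 : ℝ) < p.M := by exact_mod_cast (by omega : 0 < p.M)
  have hβ : ∀ ω i, 0 ≤ S.β ω i := fun ω i => by
    rcases hI.β01 ω i with h | h <;> rw [h] <;> norm_num
  have hβ1 : ∀ ω i, S.β ω i ≤ 1 := fun ω i => by
    rcases hI.β01 ω i with h | h <;> rw [h] <;> norm_num
  have hκ := hp.κ0
  have hκ1 : p.κ ≤ 1 := by
    have h1 := hp.κk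
    have h2 : (0 : ℝ) ≤ p.k := Nat.cast_nonneg _
    nlinarith
  have hP : ∀ ω, 0 ≤ S.P ω := fun ω => (hI.Ppos ω).le
  have hs : ∀ f : S.Ω × Fin p.M → ℝ, ∑ x : (S1 p S ψ i).Ω, (S1 p S ψ i).P x * f x =
      ∑ ω, S.P ω * 𝔼 j : Fin p.M, f (ω, j) := fun f => sumP S.P f
  refine ⟨fun x => div_pos (hI.Ppos x.1) hMr, ?_, fun x i' => hI.β01 x.1 i', ?_, ?_, ?_, ?_⟩
  · have := hs (fun _ => 1)
    simp only [mul_one, ex_const hM] at this
    rw [this, hI.Psum]
  · intro i0 hi0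
    rw [hs (fun x => (S1 p S ψ i).U x i0)]
    by_cases h0 : i0 = p.k
    · simp only [S1, h0, if_true]
      refine Finset.sum_eq_zero fun ω _ => ?_
      rw [← Finset.mul_expect, ← Finset.mul_expect, hb.ex.vmean p.M hM]
      simp
    · simp only [S1, h0, if_false, ex_const hM]
      exact hI.U0 i0 (by omega)
  · intro i0 hi0
    by_cases h0 : i0 = p.k
    · simp only [S1, h0, Function.update_self]
      exact hψ
    · simp only [S1, Function.update_of_ne h0]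
      exact hI.lb i0 (by omega)
  · intro i1 hi1
    rw [hs (fun x => (S1 p S ψ i).β x i1)]
    simp only [S1, ex_const hM]
    exact hI.fl i1 (Finset.mem_of_mem_erase hi1)
  · intro i0 hi0 c hc h hh
    have hb01 : U01 (fun ω => 𝔼 j : Fin p.M, h (ω, j)) := fun ω => ex_U01 hM _ fun j => hh _
    have e1 := hs h
    have e2 := hs (fun x => h x * ((S1 p S ψ i).U x i0 +
      ∑ j ∈ Ioo i0 (p.k + 1), c j * (S1 p S ψ i).U x j))
    have e3 := hs (fun x => (∑ i' ∈ A.erase i, (S1 p S ψ i).β x i') * min (h x) (1 - h x))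
    simp only [mul_assoc]
    rw [e1, e2, e3]
    have e4 : ∀ ω, 𝔼 j : Fin p.M, (∑ i' ∈ A.erase i, (S1 p S ψ i).β (ω, j) i') *
        min (h (ω, j)) (1 - h (ω, j)) =
        (∑ i' ∈ A.erase i, S.β ω i') * 𝔼 j : Fin p.M, min (h (ω, j)) (1 - h (ω, j)) := by
      intro ω
      rw [Finset.mul_expect]
      rfl
    simp only [e4]
    by_cases h0 : i0 = p.k
    · have e5 : ∀ ω, 𝔼 j : Fin p.M, h (ω, j) * ((S1 p S ψ i).U (ω, j) i0 +
          ∑ j' ∈ Ioo i0 (p.k + 1), c j' * (S1 p S ψ i).U (ω, j) j') =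
          p.κ * S.β ω i * 𝔼 j : Fin p.M, h (ω, j) * vv p.M j := by
        intro ω
        rw [Finset.mul_expect]
        refine Finset.expect_congr rfl fun j _ => ?_
        have : Ioo i0 (p.k + 1) = ∅ := by
          rw [h0]
          ext x
          simp
        rw [this]
        simp only [S1, h0, if_true, Finset.sum_empty]
        ring
      simp only [e5]
      refine le_trans (key hb hM S.P hP S.β hβ A i hi p.κ p.κ hκ.le (abs_of_pos hκ).le h hh) ?_
      set m := ∑ ω, S.P ω * 𝔼 j : Fin p.M, h (ω, j) with hm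
      have m0 : 0 ≤ m := Finset.sum_nonneg fun ω _ => mul_nonneg (hP ω) (hb01 ω).1
      have m1 : m ≤ 1 := by
        rw [← hI.Psum]
        exact Finset.sum_le_sum fun ω _ => mul_le_of_le_one_right (hP ω) (hb01 ω).2
      have k1 : ∑ ω, S.P ω * (∑ i' ∈ A, S.β ω i') *
          min (𝔼 j : Fin p.M, h (ω, j)) (1 - 𝔼 j : Fin p.M, h (ω, j)) ≤ p.N * m := by
        rw [hm, Finset.mul_sum]
        refine Finset.sum_le_sum fun ω _ => ?_
        have a1 : ∑ i' ∈ A, S.β ω i' ≤ p.N := by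
          calc ∑ i' ∈ A, S.β ω i' ≤ ∑ _i' ∈ A, (1 : ℝ) := Finset.sum_le_sum fun i' _ => hβ1 ω i'
            _ = A.card := by simp
            _ ≤ p.N := by exact_mod_cast hA
        have a2 : 0 ≤ min (𝔼 j : Fin p.M, h (ω, j)) (1 - 𝔼 j : Fin p.M, h (ω, j)) :=
          le_min (hb01 ω).1 (by linarith [(hb01 ω).2])
        have a3 := mul_le_mul a1 (min_le_left (𝔼 j : Fin p.M, h (ω, j))
          (1 - 𝔼 j : Fin p.M, h (ω, j))) a2 (Nat.cast_nonneg _)
        have a4 := mul_le_mul_of_nonneg_left a3 (hP ω)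
        linarith
      have k2 := (hb.m0.a0 p hp).2.2.2.1
      have k3 := mul_le_mul_of_nonneg_left k1 hκ.le
      nlinarith
    · have hlt : i0 < p.k := by omega
      have e5 : ∀ ω, S.P ω * 𝔼 j : Fin p.M, h (ω, j) * ((S1 p S ψ i).U (ω, j) i0 +
          ∑ j' ∈ Ioo i0 (p.k + 1), c j' * (S1 p S ψ i).U (ω, j) j') =
          S.P ω * (𝔼 j : Fin p.M, h (ω, j)) * (S.U ω i0 + ∑ j' ∈ Ioo i0 p.k, c j' * S.U ω j') +
          S.P ω * ((c p.k * p.κ) * S.β ω i * 𝔼 j : Fin p.M, h (ω, j) * vv p.M j) := by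
        intro ω
        rw [mul_assoc, ← mul_add]
        congr 1
        rw [Finset.expect_mul, Finset.mul_expect, ← Finset.expect_add_distrib]
        refine Finset.expect_congr rfl fun j _ => ?_
        have h1 : Ioo i0 (p.k + 1) = insert p.k (Ioo i0 p.k) := by
          ext x
          simp only [Finset.mem_Ioo, Finset.mem_insert]
          omega
        have h2 : ∑ j' ∈ Ioo i0 p.k, c j' * (S1 p S ψ i).U (ω, j) j' =
            ∑ j' ∈ Ioo i0 p.k, c j' * S.U ω j' := by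
          refine Finset.sum_congr rfl fun x hx => ?_
          have : x ≠ p.k := (Finset.mem_Ioo.1 hx).2.ne
          simp only [S1, this, if_false]
        rw [h1, Finset.sum_insert (by simp), h2]
        simp only [S1, h0, if_true, if_false]
        ring
      simp only [e5]
      rw [Finset.sum_add_distrib]
      have hck : |c p.k * p.κ| ≤ p.κ := by
        rw [abs_mul, abs_of_pos hκ]
        nlinarith [hc p.k]
      have k1 := key hb hM S.P hP S.β hβ A i hi p.κ (c p.k * p.κ) hκ.le hck h hh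
      have k2 := hI.Q i0 hlt c hc _ hb01
      refine le_trans (add_le_add_left (abs_add_le _ _) _) ?_
      linarith

end TM1Aux

theorem m1s (hb : Base) : M1S := by
  intro V ι _ _ _ _ p B L X S A ψ i hp hI hA hi hψ
  exact ⟨TM1Aux.S1 p S ψ i, TM1Aux.inv1 hb p B S A ψ i hp hI hA hi hψ,
    TM1Aux.rel1 hb p hp.M2 L X S A ψ i hi⟩

end Vale.Agent.P235
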