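import Vale.Agent.P235.TM21

namespace Vale.Agent.P235

open Finset
open scoped BigOperators

namespace TM2Aux

/-- the new coefficients -/
noncomputable def nU (lam : ℝ) (m : ℕ) (r u : ℕ → ℝ) (j : ℕ) : ℝ :=
  (if j < m then 1 else lam) * (u (sk m j) - r (sk m j) * u m)

theorem ioo (i k : ℕ) : Ioo i k = Ico (i + 1) k := by
  ext j
  rw [mem_Ioo, mem_Ico]
  omega

theorem comb (lam κ : ℝ) (m k i : ℕ) (r c : ℕ → ℝ) (hi : i < m) (hm : m ≤ k) (hκ : 0 < κ)
    (hκk : ((k : ℝ) + 1) * κ ≤ 1 / 2) (hl0 : 0 < lam) (hl1 : lam ≤ 1)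
    (hr : ∀ j, j < m → |r j| ≤ κ / 2)
    (hr' : ∀ j, j < k + 1 → lam * |r j| ≤ 1 / (16 * ((k : ℝ) + 1))) (hc : ∀ j, |c j| ≤ κ) :
    ∃ c' : ℕ → ℝ, (∀ j, |c' j| ≤ κ) ∧ ∀ u : ℕ → ℝ,
      nU lam m r u i + ∑ j ∈ Ioo i k, c j * nU lam m r u j =
        u i + ∑ j ∈ Ioo i (k + 1), c' j * u j := by
  obtain ⟨γ, hγ⟩ : ∃ γ : ℝ, γ = -r i - ∑ j ∈ Ico (i + 1) k,
    c j * ((if j < m then 1 else lam) * r (sk m j)) := ⟨_, rfl⟩
  have hk1 : (0 : ℝ) < (k : ℝ) + 1 := by positivity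
  refine ⟨fun j => if j < m then c j else if j = m then γ else c (j - 1) * lam, ?_, ?_⟩
  · intro j
    beta_reduce
    split_ifs with h1 h2
    · exact hc j
    · have h3 : ∀ j ∈ Ico (i + 1) k, |c j * ((if j < m then 1 else lam) * r (sk m j))| ≤
          κ * (1 / (4 * ((k : ℝ) + 1))) := by
        intro j hj
        rw [abs_mul]
        refine mul_le_mul (hc j) ?_ (abs_nonneg _) hκ.le
        by_cases hjm : j < m
        · rw [if_pos hjm, one_mul, show sk m j = j from if_pos hjm]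
          refine (hr j hjm).trans ?_
          rw [le_div_iff₀ (by positivity)]
          nlinarith
        · rw [if_neg hjm, abs_mul, abs_of_pos hl0]
          refine (hr' _ (sk_lt (mem_Ico.mp hj).2)).trans ?_
          exact one_div_le_one_div_of_le (by positivity) (by linarith)
      have h4 := (abs_sum_le_sum_abs _ _).trans (sum_le_card_nsmul _ _ _ h3)
      rw [nsmul_eq_mul, Nat.card_Ico] at h4
      have h5 : ((k - (i + 1) : ℕ) : ℝ) ≤ (k : ℝ) + 1 := by
        have : ((k - (i + 1) : ℕ) : ℝ) ≤ (k : ℝ) := Nat.cast_le.mpr (Nat.sub_le _ _)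
        linarith
      have h6 : ((k - (i + 1) : ℕ) : ℝ) * (κ * (1 / (4 * ((k : ℝ) + 1)))) ≤ κ / 4 := by
        calc _ ≤ ((k : ℝ) + 1) * (κ * (1 / (4 * ((k : ℝ) + 1)))) :=
              mul_le_mul_of_nonneg_right h5 (by positivity)
          _ = κ / 4 := by field_simp
      have h7 := hr i hi
      rw [hγ]
      have h8 := abs_sub (-r i) (∑ j ∈ Ico (i + 1) k,
        c j * ((if j < m then 1 else lam) * r (sk m j)))
      rw [abs_neg] at h8
      linarith
    · rw [abs_mul, abs_of_pos hl0]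
      have := hc (j - 1)
      nlinarith [abs_nonneg (c (j - 1))]
  · intro u
    rw [ioo, ioo, sum_sk _ (i + 1) m k hi hm]
    have e1 : ∀ j ∈ Ico (i + 1) k,
        (if sk m j < m then c (sk m j) else if sk m j = m then γ else c (sk m j - 1) * lam) *
          u (sk m j) = c j * nU lam m r u j +
            c j * ((if j < m then 1 else lam) * r (sk m j)) * u m := by
      intro j _
      unfold nU
      by_cases hjm : j < m
      · rw [show sk m j = j from if_pos hjm, if_pos hjm, if_pos hjm]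
        ring
      · rw [show sk m j = j + 1 from if_neg hjm, if_neg (by omega), if_neg (by omega), if_neg hjm,
          Nat.add_sub_cancel]
        ring
    rw [sum_congr rfl e1, sum_add_distrib, ← sum_mul]
    beta_reduce
    rw [if_neg (lt_irrefl m), if_pos rfl, hγ]
    unfold nU
    rw [show sk m i = i from if_pos hi, if_pos hi]
    ring

theorem comb' (lam κ : ℝ) (m k i : ℕ) (r c u : ℕ → ℝ) (hi : m ≤ i) (hik : i < k) (hκ : 0 < κ)
    (hκk : ((k : ℝ) + 1) * κ ≤ 1 / 2) (hl0 : 0 < lam) (hl1 : lam ≤ 1 / (16 * ((k : ℝ) + 1)))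
    (hr' : ∀ j, j < k + 1 → lam * |r j| ≤ 1 / (16 * ((k : ℝ) + 1))) (hc : ∀ j, |c j| ≤ κ)
    (hu : ∀ j, j < k + 1 → |u j| ≤ 1) :
    |nU lam m r u i + ∑ j ∈ Ioo i k, c j * nU lam m r u j| ≤ 1 / 4 := by
  have hk0 : (0 : ℝ) ≤ k := Nat.cast_nonneg k
  have h16 : 1 / (16 * ((k : ℝ) + 1)) ≤ 1 / 16 :=
    one_div_le_one_div_of_le (by norm_num) (by linarith)
  have h1 : ∀ j, m ≤ j → j < k → |nU lam m r u j| ≤ 1 / 8 := by
    intro j hj hjk
    unfold nU
    rw [if_neg (by omega), abs_mul, abs_of_pos hl0]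
    have a1 := hu _ (sk_lt (m := m) hjk)
    have a2 := hr' _ (sk_lt (m := m) hjk)
    have a3 := hu m (by omega)
    have a4 := abs_sub (u (sk m j)) (r (sk m j) * u m)
    rw [abs_mul] at a4
    have a5 : |r (sk m j)| * |u m| ≤ |r (sk m j)| := by nlinarith [abs_nonneg (r (sk m j))]
    have a6 : lam * |u (sk m j) - r (sk m j) * u m| ≤ lam * (1 + |r (sk m j)|) :=
      mul_le_mul_of_nonneg_left (by linarith) hl0.le
    linarith
  have h3 : ∀ j ∈ Ioo i k, |c j * nU lam m r u j| ≤ κ * (1 / 8) := by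
    intro j hj
    rw [abs_mul]
    have := mem_Ioo.mp hj
    exact mul_le_mul (hc j) (h1 j (by omega) this.2) (abs_nonneg _) hκ.le
  have h4 := (abs_sum_le_sum_abs _ _).trans (sum_le_card_nsmul _ _ _ h3)
  rw [nsmul_eq_mul, Nat.card_Ioo] at h4
  have h5 : ((k - i - 1 : ℕ) : ℝ) ≤ (k : ℝ) := Nat.cast_le.mpr (by omega)
  have h6 : ((k - i - 1 : ℕ) : ℝ) * (κ * (1 / 8)) ≤ (k : ℝ) * (κ * (1 / 8)) :=
    mul_le_mul_of_nonneg_right h5 (by positivity)
  have h7 := abs_add_le (nU lam m r u i) (∑ j ∈ Ioo i k, c j * nU lam m r u j)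
  have h8 := h1 i hi hik
  nlinarith

theorem inv (hb : Base) {V ι : Type} [MetricSpace V] (p : MP) (B : ℝ) (S : St V ι) (A : Finset ι)
    (hp : p.OK) (hS : Inv p (p.k + 1) B S A) (hA : A.card ≤ p.N) (m : ℕ) (r : ℕ → ℝ)
    (hm : m ≤ p.k) (hr : ∀ j, j < m → |r j| ≤ p.κ / 2)
    (hr' : ∀ j, j < p.k + 1 → p.lam * |r j| ≤ 1 / (16 * ((p.k : ℝ) + 1))) :
    Inv p p.k B ⟨S.Ω, S.fin, S.P, fun ω => nU p.lam m r (S.U ω), S.β, fun i => S.ξ (sk m i)⟩ A := by
  obtain ⟨-, -, -, hκN, hl1⟩ := hb.m0.a0 p hp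
  refine ⟨hS.Ppos, hS.Psum, hS.β01, fun i hi => ?_, fun i hi => hS.lb _ (sk_lt hi), hS.fl, ?_⟩
  · show ∑ ω, S.P ω * nU p.lam m r (S.U ω) i = 0
    have e1 : ∀ ω, S.P ω * nU p.lam m r (S.U ω) i =
        (if i < m then 1 else p.lam) * (S.P ω * S.U ω (sk m i)) -
          (if i < m then 1 else p.lam) * r (sk m i) * (S.P ω * S.U ω m) := by
      intro ω
      unfold nU
      ring
    rw [sum_congr rfl fun ω _ => e1 ω, sum_sub_distrib, ← mul_sum, ← mul_sum,
      hS.U0 _ (sk_lt hi), hS.U0 m (by omega)]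
    ring
  · intro i hi c hc h hh
    show |∑ ω, S.P ω * h ω * (nU p.lam m r (S.U ω) i +
        ∑ j ∈ Ioo i p.k, c j * nU p.lam m r (S.U ω) j)| +
      p.κ * ∑ ω, S.P ω * (∑ i' ∈ A, S.β ω i') * min (h ω) (1 - h ω) ≤
        (∑ ω, S.P ω * h ω) - (∑ ω, S.P ω * h ω) ^ 2 / 2
    by_cases him : i < m
    · obtain ⟨c', hc', e⟩ := comb p.lam p.κ m p.k i r c him hm hp.κ0 hp.κk hp.lam0 hl1 hr hr' hc
      simp only [e]
      exact hS.Q i (by omega) c' hc' h hh
    · have hP : ∀ ω, 0 ≤ S.P ω * h ω := fun ω => mul_nonneg (hS.Ppos ω).le (hh ω).1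
      have h0 : 0 ≤ ∑ ω, S.P ω * h ω := sum_nonneg fun ω _ => hP ω
      have h1 : ∑ ω, S.P ω * h ω ≤ 1 := by
        rw [← hS.Psum]
        exact sum_le_sum fun ω _ => mul_le_of_le_one_right (hS.Ppos ω).le (hh ω).2
      have h2 : |∑ ω, S.P ω * h ω * (nU p.lam m r (S.U ω) i +
          ∑ j ∈ Ioo i p.k, c j * nU p.lam m r (S.U ω) j)| ≤ (∑ ω, S.P ω * h ω) * (1 / 4) := by
        rw [sum_mul]
        refine (abs_sum_le_sum_abs _ _).trans (sum_le_sum fun ω _ => ?_)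
        rw [abs_mul, abs_of_nonneg (hP ω)]
        exact mul_le_mul_of_nonneg_left (comb' p.lam p.κ m p.k i r c (S.U ω) (by omega) hi hp.κ0
          hp.κk hp.lam0 hp.lamle hr' hc (hb.m0.U1 V ι p _ B S A hp hS ω)) (hP ω)
      have h3 : ∑ ω, S.P ω * (∑ i' ∈ A, S.β ω i') * min (h ω) (1 - h ω) ≤
          (∑ ω, S.P ω * h ω) * p.N := by
        rw [sum_mul]
        refine sum_le_sum fun ω _ => ?_
        have b1 : ∑ i' ∈ A, S.β ω i' ≤ p.N := by
          have := sum_le_card_nsmul A (fun i' => S.β ω i') 1 fun i' _ => by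
            rcases hS.β01 ω i' with e | e <;> rw [e] <;> norm_num
          rw [nsmul_eq_mul, mul_one] at this
          exact this.trans (Nat.cast_le.mpr hA)
        have b2 : 0 ≤ ∑ i' ∈ A, S.β ω i' := sum_nonneg fun i' _ => by
          rcases hS.β01 ω i' with e | e <;> rw [e] <;> norm_num
        have b3 : min (h ω) (1 - h ω) ≤ h ω := min_le_left _ _
        have b4 := (hS.Ppos ω).le
        calc S.P ω * (∑ i' ∈ A, S.β ω i') * min (h ω) (1 - h ω)
            ≤ S.P ω * (∑ i' ∈ A, S.β ω i') * h ω :=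
              mul_le_mul_of_nonneg_left b3 (mul_nonneg b4 b2)
          _ = S.P ω * h ω * ∑ i' ∈ A, S.β ω i' := by ring
          _ ≤ S.P ω * h ω * p.N := mul_le_mul_of_nonneg_left b1 (hP ω)
      have h4 := mul_le_mul_of_nonneg_left h3 hp.κ0.le
      have h5 := mul_le_mul_of_nonneg_left hκN h0
      nlinarith

theorem fr (lam d C : ℝ) (m k : ℕ) (r b u x : ℕ → ℝ) (hm : m ≤ k) (hr : r m = 1)
    (hd : ∀ i, lam ^ i * r i = d * b i) (hC : ∑ i ∈ range (k + 1), b i * x i = C) :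
    ∑ i ∈ range (k + 1), lam ^ i * u i * x i =
      ∑ i ∈ range k, lam ^ i * nU lam m r u i * x (sk m i) + d * C * u m := by
  have h1 := sum_sk (fun i => lam ^ i * (u i - r i * u m) * x i) 0 m k (Nat.zero_le _) hm
  rw [← range_eq_Ico, ← range_eq_Ico, hr] at h1
  have e1 : ∀ i ∈ range k, lam ^ i * nU lam m r u i * x (sk m i) =
      lam ^ sk m i * (u (sk m i) - r (sk m i) * u m) * x (sk m i) := by
    intro i _
    unfold nU
    by_cases h : i < m
    · rw [if_pos h, show sk m i = i from if_pos h]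
      ring
    · rw [if_neg h, show sk m i = i + 1 from if_neg h]
      ring
  have e2 : ∀ i ∈ range (k + 1), lam ^ i * (u i - r i * u m) * x i =
      lam ^ i * u i * x i - d * u m * (b i * x i) := by
    intro i _
    have := hd i
    linear_combination (-(u m * x i)) * this
  rw [sum_congr rfl e2, sum_sub_distrib, ← mul_sum, hC] at h1
  rw [sum_congr rfl e1]
  linarith

end TM2Aux

theorem m2s (hb : Base) : M2S := by
  intro V ι _ _ _ _ p B L X S A ψ hp hS hA hψ hX hB hL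
  obtain ⟨b, C, hC, hb0⟩ := TM2Aux.dep X p.k S.ξ hX
  have hκ := hp.κ0
  have hk0 : (0 : ℝ) ≤ p.k := Nat.cast_nonneg _
  have ht : 1 ≤ 2 / p.κ := by
    rw [le_div_iff₀ hκ]
    have := hp.κk
    nlinarith
  obtain ⟨m, r, d, hm, hr1, hd, hr, hr'⟩ := TM2Aux.pivot p.k b p.lam (2 / p.κ) hp.lam0 ht hb0
  have hI := TM2Aux.inv hb p B S A hp hS hA m r hm (fun j hj => by
      have := hr j hj
      rwa [one_div_div] at this)
    (fun j hj => (mul_le_mul_of_nonneg_left (hr' j hj) hp.lam0.le).trans hp.lam1)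
  refine ⟨_, hI, TM2Aux.rel_shift hb p.M hp.M2 L X S _ _ _ _ (fun ω => d * C * S.U ω m) A ?_ ?_ ?_
    ?_⟩
  · have e : ∀ ω, S.P ω * (d * C * S.U ω m) = d * C * (S.P ω * S.U ω m) := fun ω => by ring
    rw [sum_congr rfl fun ω _ => e ω, ← mul_sum, hS.U0 m (by omega), mul_zero]
  · intro ω l s hs
    have := TM2Aux.fr p.lam d C m p.k r b (S.U ω) (fun i => S.ξ i s) hm hr1 hd (hC s hs)
    unfold Fr
    rw [this]
    ring
  · intro ω l s
    refine (hb.m0.bd V ι p _ B S A A ψ hp hS hA hψ hB ω l s).trans ?_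
    push_cast
    linarith
  · intro ω l s
    refine (hb.m0.bd V ι p _ B _ A A ψ hp hI hA hψ hB ω l s).trans ?_
    linarith

end Vale.Agent.P235
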