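import Vale.Agent.P235.Sts

namespace Vale.Agent.P235

open Finset
open scoped BigOperators

namespace TM4Aux

def Sl {Ω : Type} [Fintype Ω] (P Y : Ω → ℝ) (q : Ω → ℝ → ℝ) : Prop :=
  ∀ h : Ω → ℝ, U01 h → |∑ ω, P ω * h ω * Y ω| + ∑ ω, q ω (h ω) ≤
    (∑ ω, P ω * h ω) - (∑ ω, P ω * h ω) ^ 2 / 2

theorem sum_upd {Ω : Type} [Fintype Ω] [DecidableEq Ω] (f : Ω → ℝ → ℝ) (h : Ω → ℝ) (a : Ω)
    (x : ℝ) : ∑ ω, f ω (Function.update h a x ω) = f a x + ∑ ω ∈ univ.erase a, f ω (h ω) := by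
  rw [← add_sum_erase univ _ (mem_univ a), Function.update_self]
  congr 1
  refine sum_congr rfl fun ω hω => ?_
  rw [Function.update_of_ne (ne_of_mem_erase hω)]

theorem upd01 {Ω : Type} [DecidableEq Ω] {h : Ω → ℝ} (hh : U01 h) (a : Ω) {x : ℝ} (h0 : 0 ≤ x)
    (h1 : x ≤ 1) : U01 (Function.update h a x) := by
  intro ω
  by_cases e : ω = a
  · subst e
    rw [Function.update_self]
    exact ⟨h0, h1⟩
  · rw [Function.update_of_ne e]
    exact hh ω

theorem step {Ω : Type} [Fintype Ω] [DecidableEq Ω] {P Y : Ω → ℝ} {q q' : Ω → ℝ → ℝ} (a : Ω)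
    (h0 : q a 0 = 0) (h1 : q a 1 = 0) (hq : ∀ ω, ω ≠ a → q' ω = q ω)
    (ha : ∀ x, q' a x = P a ^ 2 * (x * (1 - x)) / 2) (H : Sl P Y q) : Sl P Y q' := by
  intro h hh
  have A0 := H _ (upd01 hh a le_rfl zero_le_one)
  have A1 := H _ (upd01 hh a zero_le_one le_rfl)
  rw [sum_upd (fun ω x => P ω * x * Y ω), sum_upd q, sum_upd (fun ω x => P ω * x)] at A0 A1
  rw [← add_sum_erase univ _ (mem_univ a), ← add_sum_erase univ (fun ω => q' ω (h ω)) (mem_univ a),
    ← add_sum_erase univ (fun ω => P ω * h ω) (mem_univ a)]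
  have e : ∑ ω ∈ univ.erase a, q' ω (h ω) = ∑ ω ∈ univ.erase a, q ω (h ω) :=
    sum_congr rfl fun ω hω => by rw [hq ω (ne_of_mem_erase hω)]
  rw [e, ha]
  rw [h0] at A0
  rw [h1] at A1
  obtain ⟨t0, t1⟩ := hh a
  generalize ∑ ω ∈ univ.erase a, q ω (h ω) = R at *
  generalize ∑ ω ∈ univ.erase a, P ω * h ω * Y ω = Z at *
  generalize ∑ ω ∈ univ.erase a, P ω * h ω = m at *
  generalize h a = t at *
  generalize P a = p at *
  generalize Y a = y at *
  have tri : |p * t * y + Z| ≤ (1 - t) * |p * 0 * y + Z| + t * |p * 1 * y + Z| := by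
    have e : p * t * y + Z = (1 - t) * (p * 0 * y + Z) + t * (p * 1 * y + Z) := by ring
    rw [e]
    refine (abs_add_le _ _).trans ?_
    rw [abs_mul, abs_mul, abs_of_nonneg t0, abs_of_nonneg (sub_nonneg.2 t1)]
  have B0 := mul_le_mul_of_nonneg_left A0 (sub_nonneg.2 t1)
  have B1 := mul_le_mul_of_nonneg_left A1 t0
  nlinarith

theorem slack {Ω : Type} [Fintype Ω] [DecidableEq Ω] {P Y : Ω → ℝ} {q : Ω → ℝ → ℝ}
    (h0 : ∀ a, q a 0 = 0) (h1 : ∀ a, q a 1 = 0) (H : Sl P Y q) (T : Finset Ω) :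
    Sl P Y (fun ω x => if ω ∈ T then P ω ^ 2 * (x * (1 - x)) / 2 else q ω x) := by
  induction T using Finset.induction_on with
  | empty => simpa using H
  | insert a T haT ih =>
    refine step a ?_ ?_ ?_ ?_ ih
    · simp [haT, h0]
    · simp [haT, h1]
    · intro ω hω
      simp [hω]
    · intro x
      simp

theorem min_le {x : ℝ} (h0 : 0 ≤ x) (h1 : x ≤ 1) : min x (1 - x) ≤ 2 * (x * (1 - x)) := by
  rcases le_total x (1 - x) with h | h
  · rw [min_eq_left h]; nlinarith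
  · rw [min_eq_right h]; nlinarith

noncomputable def nb {V ι : Type} [DecidableEq ι] (S : St V ι) (A' : Finset ι) (γ : ℝ)
    (ω : S.Ω) (i : ι) : ℝ :=
  if i ∈ A' then (if γ ≤ S.P ω then 1 else 0) else S.β ω i

noncomputable abbrev newS {V ι : Type} [DecidableEq ι] (S : St V ι) (A' : Finset ι) (γ : ℝ) :
    St V ι :=
  { S with β := nb S A' γ }

theorem inv_new {V ι : Type} [MetricSpace V] [DecidableEq ι] {p : MP} {B : ℝ} {S : St V ι}
    {A A' : Finset ι} (hp : p.OK) (hI : Inv p p.k B S A) (hc : Fintype.card S.Ω ≤ p.G)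
    (hd : Disjoint A A') (hN : (A ∪ A').card ≤ p.N) :
    Inv p p.k B (newS S A' (p.eb / p.G)) (A ∪ A') := by
  classical
  have hG : (0 : ℝ) < p.G := by
    unfold MP.G
    positivity
  set γ : ℝ := p.eb / p.G with hγ
  have hγ0 : 0 < γ := div_pos hp.eb0 hG
  have hβ : ∀ (ω : S.Ω) (i : ι), nb S A' γ ω i =
      if i ∈ A' then (if γ ≤ S.P ω then 1 else 0) else S.β ω i := fun _ _ => rfl
  have h01 : ∀ ω i, nb S A' γ ω i = 0 ∨ nb S A' γ ω i = 1 := by
    intro ω i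
    rw [hβ]
    split_ifs
    · exact Or.inr rfl
    · exact Or.inl rfl
    · exact hI.β01 ω i
  refine ⟨hI.Ppos, hI.Psum, h01, hI.U0, hI.lb, ?_, ?_⟩
  · intro i hi
    change 1 - p.eb ≤ ∑ ω : S.Ω, S.P ω * nb S A' γ ω i
    by_cases hi' : i ∈ A'
    · have e : ∀ ω : S.Ω, S.P ω - γ ≤ S.P ω * nb S A' γ ω i := by
        intro ω
        rw [hβ, if_pos hi']
        split_ifs with h
        · linarith
        · linarith [not_le.1 h]
      refine le_trans ?_ (sum_le_sum fun ω _ => e ω)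
      rw [sum_sub_distrib, hI.Psum, sum_const, card_univ, nsmul_eq_mul]
      have h1 : (Fintype.card S.Ω : ℝ) ≤ p.G := by exact_mod_cast hc
      have h2 : (p.G : ℝ) * γ = p.eb := by rw [hγ]; field_simp
      nlinarith
    · have hiA : i ∈ A := (mem_union.1 hi).resolve_right hi'
      simp only [hβ, if_neg hi']
      exact hI.fl i hiA
  · intro i hi c hcκ (h : S.Ω → ℝ) hh
    have H : Sl S.P (fun ω => S.U ω i + ∑ j ∈ Ioo i p.k, c j * S.U ω j)
        (fun ω x => p.κ * (S.P ω * (∑ i' ∈ A, S.β ω i') * min x (1 - x))) := by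
      intro h hh
      rw [← mul_sum]
      exact hI.Q i hi c hcκ h hh
    have H' := slack (by intro a; simp) (by intro a; simp) H (univ.filter fun ω => γ ≤ S.P ω) h hh
    refine le_trans ?_ H'
    change |∑ ω : S.Ω, S.P ω * h ω * (S.U ω i + ∑ j ∈ Ioo i p.k, c j * S.U ω j)| +
      p.κ * ∑ ω : S.Ω, S.P ω * (∑ i' ∈ A ∪ A', nb S A' γ ω i') * min (h ω) (1 - h ω) ≤ _
    rw [mul_sum]
    refine add_le_add le_rfl (sum_le_sum fun ω _ => ?_)
    have hP := hI.Ppos ω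
    obtain ⟨t0, t1⟩ := hh ω
    have hm0 : 0 ≤ min (h ω) (1 - h ω) := le_min t0 (sub_nonneg.2 t1)
    by_cases hω : γ ≤ S.P ω
    · have hm : ω ∈ univ.filter fun ω => γ ≤ S.P ω := by simpa using hω
      simp only [if_pos hm]
      have n1 : ∑ i' ∈ A ∪ A', nb S A' γ ω i' ≤ p.N := by
        have : ∑ i' ∈ A ∪ A', nb S A' γ ω i' ≤ ∑ _i' ∈ A ∪ A', (1 : ℝ) :=
          sum_le_sum fun i' _ => by
            rcases h01 ω i' with e | e <;> rw [e]
            norm_num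
        rw [sum_const, nsmul_eq_mul, mul_one] at this
        exact this.trans (by exact_mod_cast hN)
      have n2 : p.κ * ∑ i' ∈ A ∪ A', nb S A' γ ω i' ≤ S.P ω / 4 :=
        (mul_le_mul_of_nonneg_left n1 hp.κ0.le).trans (hp.κN.trans (by linarith))
      calc p.κ * (S.P ω * (∑ i' ∈ A ∪ A', nb S A' γ ω i') * min (h ω) (1 - h ω))
          = (p.κ * ∑ i' ∈ A ∪ A', nb S A' γ ω i') * (S.P ω * min (h ω) (1 - h ω)) := by
            ring
        _ ≤ S.P ω / 4 * (S.P ω * (2 * (h ω * (1 - h ω)))) :=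
            mul_le_mul n2 (mul_le_mul_of_nonneg_left (min_le t0 t1) hP.le)
              (mul_nonneg hP.le hm0) (by linarith)
        _ = _ := by ring
    · have hm : ω ∉ univ.filter fun ω => γ ≤ S.P ω := by simpa using hω
      simp only [if_neg hm]
      rw [sum_union hd]
      have e1 : ∑ i' ∈ A, nb S A' γ ω i' = ∑ i' ∈ A, S.β ω i' :=
        sum_congr rfl fun i' hi' => by rw [hβ, if_neg (disjoint_left.1 hd hi')]
      have e2 : ∑ i' ∈ A', nb S A' γ ω i' = 0 :=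
        sum_eq_zero fun i' hi' => by rw [hβ, if_pos hi', if_neg hω]
      rw [e1, e2, add_zero]

theorem fr_new {V ι : Type} [DecidableEq ι] {p : MP} {S : St V ι} {A A' : Finset ι} (γ : ℝ)
    {X : Finset V} {ψ ψ' : ι → V → ℝ} (hd : Disjoint A A') (h1 : ∀ i ∈ A, ψ' i = ψ i)
    (h2 : ∀ i ∈ A', ∀ s ∈ X, ψ' i s = 0) (ω : S.Ω) (l : ι → Fin p.M) :
    ∀ s ∈ X, Fr p p.k (newS S A' γ) (A ∪ A') ψ' ω l s = Fr p p.k S A ψ ω l s := by
  intro s hs
  unfold Fr
  rw [sum_union hd]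
  have e1 : ∑ i ∈ A, nb S A' γ ω i * vv p.M (l i) * ψ' i s =
      ∑ i ∈ A, S.β ω i * vv p.M (l i) * ψ i s := by
    refine sum_congr rfl fun i hi => ?_
    have : nb S A' γ ω i = S.β ω i := by
      exact if_neg (disjoint_left.1 hd hi)
    rw [this, h1 i hi]
  have e2 : ∑ i ∈ A', nb S A' γ ω i * vv p.M (l i) * ψ' i s = 0 :=
    sum_eq_zero fun i hi => by rw [h2 i hi s hs, mul_zero]
  rw [e1, e2, add_zero]

end TM4Aux

open TM4Aux in
theorem m4s (hb : Base) : M4S := by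
  intro V ι _ _ _ _ p B L X S A A' ψ ψ' hp hI hc hd hN h1 h2
  refine ⟨newS S A' (p.eb / p.G), inv_new hp hI hc hd hN, ?_⟩
  have e : ∀ (g : Finset V → ℝ) (ω : S.Ω) (l : ι → Fin p.M),
      cutI L X g (Fr p p.k (newS S A' (p.eb / p.G)) (A ∪ A') ψ' ω l) =
        cutI L X g (Fr p p.k S A ψ ω l) := fun g ω l =>
    hb.ca.congr V L X g _ _ (fr_new _ hd h1 h2 ω l)
  refine ⟨fun g => ?_, fun i _ w' hw hi => ⟨w', hw, hi, fun g => ?_⟩, fun i hi w' hw g => ?_⟩
  · exact congrArg (Ex S) (funext fun ω => funext fun l => e g ω l)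
  · exact congrArg (Ex S) (funext fun ω => funext fun l => by rw [e g ω l])
  · have hiA : i ∉ A := disjoint_right.1 hd hi
    have hI' : Indep (fun (ω : S.Ω) (l : ι → Fin p.M) =>
        w' ω l * cutI L X g (Fr p p.k S A ψ ω l)) i := by
      intro ω l j
      simp only
      rw [hw ω l j, hb.m0.upd V ι p p.k S A ψ i hiA ω l j]
    have := hb.ex.indep V ι p.M S _ i (vv p.M) hI'
    rw [hb.ex.vmean p.M hp.M2, mul_zero] at this
    rw [← this]
    exact congrArg (Ex S) (funext fun ω => funext fun l => by rw [e g ω l]; ring)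

end Vale.Agent.P235
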