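import Vale.Agent.P235.Sts

/-! P235: thresholds along a martingale with boundedly many values. -/

namespace Vale.Agent.P235

open Finset
open scoped BigOperators

namespace TMKAux

noncomputable section

/-- radius of level `j` -/
def rr (j : ℕ) : ℝ := (1 / 5) ^ j / 4

def ph (c r u : ℝ) : ℝ := max 0 (4 * r ^ 2 - (u - c) ^ 2)

def dd (c r u : ℝ) : ℝ := if (u - c) ^ 2 < 4 * r ^ 2 then 2 * (u - c) else 0

def Phi (n : ℕ) (c : ℕ → ℝ) (u : ℝ) : ℝ := ∑ j ∈ range (n + 1), ph (c j) (rr j) u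

def Cfg (c : ℕ → ℝ) : Prop := ∀ j, |c (j + 1) - c j| ≤ 3 * rr (j + 1)

theorem rr_pos (j : ℕ) : 0 < rr j := by unfold rr; positivity

theorem rr_succ (j : ℕ) : rr j = 5 * rr (j + 1) := by unfold rr; ring

theorem rr_anti {i j : ℕ} (h : i ≤ j) : rr j ≤ rr i :=
  div_le_div_of_nonneg_right (pow_le_pow_of_le_one (by norm_num) (by norm_num) h) (by norm_num)

theorem ph_nonneg (c r u : ℝ) : 0 ≤ ph c r u := le_max_left _ _

theorem ph_zero {c r u : ℝ} (hr : 0 ≤ r) (h : 2 * r ≤ |u - c|) : ph c r u = 0 := by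
  have := pow_le_pow_left₀ (by positivity) h 2
  rw [sq_abs] at this
  exact max_eq_left (by linarith)

theorem growth (c r u u' : ℝ) : ph c r u ≤ ph c r u' + (u' - u) ^ 2 + dd c r u * (u' - u) := by
  have h1 := ph_nonneg c r u'
  have h2 : 4 * r ^ 2 - (u' - c) ^ 2 ≤ ph c r u' := le_max_right _ _
  unfold dd
  split_ifs with h
  · refine max_le ?_ ?_ <;> nlinarith
  · refine max_le ?_ ?_ <;> nlinarith [sq_nonneg (u' - u)]

theorem Growth (n : ℕ) (c : ℕ → ℝ) (u u' : ℝ) : Phi n c u ≤ Phi n c u' + (n + 1) * (u' - u) ^ 2 +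
    (∑ j ∈ range (n + 1), dd (c j) (rr j) u) * (u' - u) := by
  unfold Phi
  refine (sum_le_sum fun j _ => growth (c j) (rr j) u u').trans (le_of_eq ?_)
  rw [sum_add_distrib, sum_add_distrib, sum_mul, sum_const, card_range, nsmul_eq_mul]
  push_cast
  rfl

theorem nest1 {c : ℕ → ℝ} (hc : Cfg c) {j : ℕ} {u : ℝ} (h : |u - c (j + 1)| < rr (j + 1)) :
    |u - c j| < rr j := by
  have h1 := abs_sub_le u (c (j + 1)) (c j)
  have h2 := hc j
  have h3 := rr_pos (j + 1)
  rw [rr_succ j]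
  linarith

theorem nest {c : ℕ → ℝ} (hc : Cfg c) {i j : ℕ} (hij : i ≤ j) {u : ℝ} (h : |u - c j| < rr j) :
    |u - c i| < rr i := by
  induction j, hij using Nat.le_induction with
  | base => exact h
  | succ k _ ih => exact ih (nest1 hc h)

theorem pigeon {c : ℕ → ℝ} (hc : Cfg c) (Vs : Finset ℝ) :
    ∃ j ≤ Vs.card, ∀ v ∈ Vs, |v - c j| < rr j → |v - c (j + 1)| < rr (j + 1) := by
  by_contra hcon
  push Not at hcon
  have key : ∀ j ≤ Vs.card + 1, (Vs.filter fun v => |v - c j| < rr j).card + j ≤ Vs.card := by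
    intro j
    induction j with
    | zero => exact fun _ => card_filter_le _ _
    | succ j ih =>
      intro hj
      obtain ⟨v, hv, h1, h2⟩ := hcon j (by omega)
      have h3 : (Vs.filter fun v => |v - c (j + 1)| < rr (j + 1)).card <
          (Vs.filter fun v => |v - c j| < rr j).card :=
        card_lt_card ⟨fun w hw => mem_filter.2 ⟨(mem_filter.1 hw).1, nest1 hc (mem_filter.1 hw).2⟩,
          fun hs => absurd (mem_filter.1 (hs (mem_filter.2 ⟨hv, h1⟩))).2 (not_lt.2 h2)⟩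
      have := ih (by omega)
      omega
  have := key _ le_rfl
  omega

theorem ind_le {a b u u' : ℝ} : |(if a < u' then (1 : ℝ) else 0) - (if b < u then 1 else 0)| ≤
    |(if a < u' then (1 : ℝ) else 0) - (if a < u then 1 else 0)| +
      |(if a < u then (1 : ℝ) else 0) - (if b < u then 1 else 0)| := abs_sub_le _ _ _

theorem same {a r u u' : ℝ} (hr : 0 < r) (h : r ≤ |u' - a|) :
    |(if a < u' then (1 : ℝ) else 0) - (if a < u then 1 else 0)| ≤ 1 / r ^ 2 * (u' - u) ^ 2 := by
  have key : r ≤ |u' - u| → (1 : ℝ) ≤ 1 / r ^ 2 * (u' - u) ^ 2 := fun h1 => by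
    have := pow_le_pow_left₀ hr.le h1 2
    rw [sq_abs] at this
    rw [one_div, inv_mul_eq_div, le_div_iff₀ (by positivity)]
    linarith
  split_ifs with h1 h2 h2
  · rw [sub_self, abs_zero]
    positivity
  · rw [sub_zero, abs_one]
    rw [abs_of_pos (by linarith)] at h
    exact key (le_abs.2 (Or.inl (by linarith)))
  · rw [zero_sub, abs_neg, abs_one]
    rw [abs_of_nonpos (by linarith)] at h
    exact key (le_abs.2 (Or.inr (by linarith)))
  · rw [sub_self, abs_zero]
    positivity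

theorem switch {a b z r u y : ℝ} (ha : |a - z| < r) (hb : |b - z| < r) (hy : 0 ≤ y)
    (h : |u - z| < r → 1 ≤ y) :
    |(if a < u then (1 : ℝ) else 0) - (if b < u then 1 else 0)| ≤ y := by
  rw [abs_lt] at ha hb h
  split_ifs with h1 h2 h2
  · simpa using hy
  · rw [sub_zero, abs_one]
    exact h ⟨by linarith [ha.1], by linarith [hb.2]⟩
  · rw [zero_sub, abs_neg, abs_one]
    exact h ⟨by linarith [hb.1], by linarith [ha.2]⟩
  · simpa using hy

/-- the new configuration -/
theorem reconf {n : ℕ} {c : ℕ → ℝ} (hc : Cfg c) (Vs : Finset ℝ) (hn : Vs.card < n) :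
    ∃ c' : ℕ → ℝ, Cfg c' ∧ ∀ u ∈ Vs, rr n ≤ |u - c' n| ∧
      |(if c n < u then (1 : ℝ) else 0) - (if c' n < u then 1 else 0)| +
        1 / rr n ^ 2 * Phi n c' u ≤ 1 / rr n ^ 2 * Phi n c u := by
  obtain ⟨j, hj, h⟩ := pigeon hc Vs
  have hρ := rr_pos (j + 1)
  have h5 := rr_succ j
  have hjn : j + 1 ≤ n := by omega
  obtain ⟨x, hx1, hx2⟩ : ∃ x, |x - c j| ≤ 3 * rr (j + 1) ∧ ∀ u ∈ Vs, 2 * rr (j + 1) ≤ |u - x| := by
    rcases le_total (c j) (c (j + 1)) with h1 | h1
    · refine ⟨c j - 3 * rr (j + 1), abs_le.2 ⟨by linarith, by linarith⟩, fun u hu => ?_⟩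
      by_contra h2
      have h3 := abs_lt.1 (not_le.1 h2)
      have h4 := abs_lt.1 (h u hu (abs_lt.2 ⟨by linarith [h3.1], by linarith [h3.2]⟩))
      linarith [h3.2, h4.1]
    · refine ⟨c j + 3 * rr (j + 1), abs_le.2 ⟨by linarith, by linarith⟩, fun u hu => ?_⟩
      by_contra h2
      have h3 := abs_lt.1 (not_le.1 h2)
      have h4 := abs_lt.1 (h u hu (abs_lt.2 ⟨by linarith [h3.1], by linarith [h3.2]⟩))
      linarith [h3.1, h4.2]
  refine ⟨fun i => if i ≤ j then c i else x, fun i => ?_, fun u hu => ?_⟩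
  · dsimp only
    rcases lt_trichotomy i j with h1 | rfl | h1
    · rw [if_pos (by omega), if_pos h1.le]
      exact hc i
    · rw [if_neg (by omega), if_pos le_rfl]
      exact hx1
    · rw [if_neg (by omega), if_neg (by omega), sub_self, abs_zero]
      linarith [rr_pos (i + 1)]
  · simp only [if_neg (by omega : ¬ n ≤ j)]
    have hrn := rr_anti hjn
    have hn0 := rr_pos n
    refine ⟨by linarith [hx2 u hu], ?_⟩
    have a1 := switch (a := c n) (b := x) (z := c j) (r := rr j) (u := u)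
      (y := 1 / rr n ^ 2 * ph (c (j + 1)) (rr (j + 1)) u)
      (nest hc (by omega : j ≤ n) (by simpa using hn0)) (by linarith)
      (mul_nonneg (by positivity) (ph_nonneg _ _ _)) (fun h1 => by
        have h2 := pow_le_pow_left₀ (abs_nonneg _) (h u hu h1).le 2
        rw [sq_abs] at h2
        have h3 : 4 * rr (j + 1) ^ 2 - (u - c (j + 1)) ^ 2 ≤ ph (c (j + 1)) (rr (j + 1)) u :=
          le_max_right _ _
        have h4 := pow_le_pow_left₀ hn0.le hrn 2
        rw [one_div, inv_mul_eq_div, le_div_iff₀ (by positivity)]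
        nlinarith [sq_nonneg (rr (j + 1))])
    have a2 : ph (c (j + 1)) (rr (j + 1)) u + Phi n (fun i => if i ≤ j then c i else x) u ≤
        Phi n c u := by
      have e : ph (c (j + 1)) (rr (j + 1)) u =
          ∑ i ∈ range (n + 1), if i = j + 1 then ph (c i) (rr i) u else 0 := by
        rw [sum_ite_eq', if_pos (mem_range.2 (by omega))]
      unfold Phi
      rw [e, ← sum_add_distrib]
      refine sum_le_sum fun i _ => ?_
      beta_reduce
      by_cases h1 : i ≤ j
      · rw [if_neg (by omega), if_pos h1, zero_add]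
      · have h2 := rr_anti (by omega : j + 1 ≤ i)
        rw [if_neg h1, ph_zero (c := x) (rr_pos i).le (by linarith [hx2 u hu]), add_zero]
        split_ifs
        · exact le_rfl
        · exact ph_nonneg _ _ _
    have a3 := mul_le_mul_of_nonneg_left a2 (by positivity : 0 ≤ 1 / rr n ^ 2)
    linarith

end

end TMKAux

open TMKAux

theorem mk : MKS := by
  intro M0
  obtain ⟨n, hn⟩ : ∃ n, M0 < n := ⟨_, Nat.lt_succ_self _⟩
  have hn0 := rr_pos n
  refine ⟨1 / rr n ^ 2 * (n + 2), by positivity, ?_⟩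
  intro Ω _ W t0 T Y hT hW _ hY hV hm
  have key : ∀ d σ, σ + d = T → t0 ≤ σ → ∃ (th c : ℕ → ℝ), (0 < th T ∧ th T < 1) ∧ Cfg c ∧
      th σ = c n ∧ (∀ ω, rr n ≤ |Y σ ω - c n|) ∧
      ∑ ρ ∈ Ico σ T, ∑ ω, W ω * |(if th (ρ + 1) < Y (ρ + 1) ω then (1 : ℝ) else 0) -
        (if th ρ < Y ρ ω then 1 else 0)| + ∑ ω, W ω * (1 / rr n ^ 2 * Phi n c (Y σ ω)) ≤
        1 / rr n ^ 2 * (n + 2) * ∑ ω, W ω * (Y σ ω * (1 - Y σ ω)) := by
    intro d
    induction d with
    | zero =>
      intro σ h _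
      obtain rfl : σ = T := h
      have h1 : ∀ ω, |Y σ ω - 1 / 2| = 1 / 2 := fun ω => by
        rcases hY ω with h | h <;> rw [h] <;> norm_num [abs_of_neg]
      have h2 : ∀ j, 2 * rr j ≤ 1 / 2 := fun j => by
        have := rr_anti (Nat.zero_le j)
        rw [show rr 0 = 1 / 4 by norm_num [rr]] at this
        linarith
      refine ⟨fun _ => 1 / 2, fun _ => 1 / 2, by norm_num, fun j => ?_, rfl, fun ω => ?_, ?_⟩
      · rw [sub_self, abs_zero]
        linarith [rr_pos (j + 1)]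
      · rw [h1]
        linarith [h2 n]
      · have h3 : ∀ ω, Phi n (fun _ => 1 / 2) (Y σ ω) = 0 := fun ω =>
          sum_eq_zero fun j _ => ph_zero (rr_pos j).le (by rw [h1]; exact h2 j)
        have h4 : ∀ ω, Y σ ω * (1 - Y σ ω) = 0 := fun ω => by
          rcases hY ω with h | h <;> rw [h] <;> norm_num
        simp only [h3, h4, Ico_self, sum_empty, mul_zero, sum_const_zero, add_zero, le_refl]
    | succ d ih =>
      intro σ h h0
      have hσ : σ < T := by omega
      obtain ⟨th, c, a1, a2, a3, a4, a5⟩ := ih (σ + 1) (by omega) (by omega)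
      obtain ⟨Vs, b1, b2⟩ := hV σ
      obtain ⟨c', c1, c2⟩ := reconf (n := n) a2 Vs (by omega)
      refine ⟨Function.update th σ (c' n), c', by rwa [Function.update_of_ne hσ.ne'], c1,
        Function.update_self _ _ _, fun ω => (c2 _ (b2 ω)).1, ?_⟩
      rw [sum_eq_sum_Ico_succ_bot hσ, Function.update_self, Function.update_of_ne (by omega), a3,
        sum_congr (s₁ := Ico (σ + 1) T) rfl fun ρ hρ => by
          rw [Function.update_of_ne (a := ρ + 1) (by have := (mem_Ico.1 hρ).1; omega),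
            Function.update_of_ne (a := ρ) (by have := (mem_Ico.1 hρ).1; omega)]]
      have hmar := hm σ h0 hσ fun u => 1 / rr n ^ 2 * ((n + 2) * (1 - 2 * u) +
        ∑ j ∈ range (n + 1), dd (c j) (rr j) u)
      have hpt : ∀ ω, W ω * |(if c n < Y (σ + 1) ω then (1 : ℝ) else 0) -
          (if c' n < Y σ ω then 1 else 0)| + W ω * (1 / rr n ^ 2 * Phi n c' (Y σ ω)) ≤
          W ω * (1 / rr n ^ 2 * Phi n c (Y (σ + 1) ω)) +
          1 / rr n ^ 2 * (n + 2) * (W ω * (Y σ ω * (1 - Y σ ω))) -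
          1 / rr n ^ 2 * (n + 2) * (W ω * (Y (σ + 1) ω * (1 - Y (σ + 1) ω))) +
          (W ω * (Y (σ + 1) ω * (1 / rr n ^ 2 * ((n + 2) * (1 - 2 * Y σ ω) +
            ∑ j ∈ range (n + 1), dd (c j) (rr j) (Y σ ω)))) -
          W ω * (Y σ ω * (1 / rr n ^ 2 * ((n + 2) * (1 - 2 * Y σ ω) +
            ∑ j ∈ range (n + 1), dd (c j) (rr j) (Y σ ω))))) := fun ω => by
        have d1 := ind_le (a := c n) (b := c' n) (u := Y σ ω) (u' := Y (σ + 1) ω)
        have d2 := same (u := Y σ ω) hn0 (a4 ω)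
        have d3 := (c2 _ (b2 ω)).2
        have d4 := mul_le_mul_of_nonneg_left (Growth n c (Y σ ω) (Y (σ + 1) ω))
          (by positivity : 0 ≤ 1 / rr n ^ 2)
        have d5 := mul_le_mul_of_nonneg_left (add_le_add (add_le_add d1 d2) (add_le_add d3 d4))
          (hW ω)
        linarith
      have hs := sum_le_sum fun ω (_ : ω ∈ univ) => hpt ω
      rw [sum_add_distrib, sum_add_distrib, sum_sub_distrib, sum_sub_distrib, sum_add_distrib,
        ← mul_sum, ← mul_sum, hmar, sub_self, add_zero] at hs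
      linarith
  obtain ⟨th, c, a1, -, -, -, a5⟩ := key (T - t0) t0 (by omega) le_rfl
  refine ⟨th, a1.1, a1.2, le_trans (le_add_of_nonneg_right (sum_nonneg fun ω _ => ?_)) a5⟩
  exact mul_nonneg (hW ω) (mul_nonneg (by positivity) (sum_nonneg fun j _ => ph_nonneg _ _ _))

end Vale.Agent.P235
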