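import Vale.Agent.P235.Sts

namespace Vale.Agent.P235

open Finset
open scoped BigOperators

namespace TPAD1Aux

def Conn {V : Type} (G : SimpleGraph V) (C : Finset V) (u v : V) : Prop :=
  ∃ p : G.Walk u v, ∀ z ∈ p.support, z ∈ C

section conn

variable {V : Type} {G : SimpleGraph V} {C D : Finset V} {u v w : V}

theorem Conn.rfl' (h : u ∈ C) : Conn G C u u :=
  ⟨SimpleGraph.Walk.nil, fun z hz => by
    rw [SimpleGraph.Walk.support_nil, List.mem_singleton] at hz
    rw [hz]
    exact h⟩

theorem Conn.symm' (h : Conn G C u v) : Conn G C v u := by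
  obtain ⟨p, hp⟩ := h
  refine ⟨p.reverse, fun z hz => hp z ?_⟩
  rw [SimpleGraph.Walk.support_reverse, List.mem_reverse] at hz
  exact hz

theorem Conn.trans' (h : Conn G C u v) (h' : Conn G C v w) : Conn G C u w := by
  obtain ⟨p, hp⟩ := h
  obtain ⟨q, hq⟩ := h'
  refine ⟨p.append q, fun z hz => ?_⟩
  rcases (SimpleGraph.Walk.mem_support_append_iff p q).1 hz with h1 | h1
  · exact hp z h1
  · exact hq z h1

theorem Conn.right (h : Conn G C u v) : v ∈ C := by
  obtain ⟨p, hp⟩ := h
  exact hp v p.end_mem_support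

theorem mem_comp [Fintype V] : v ∈ comp G C u ↔ Conn G C u v := by
  unfold comp Conn
  simp only [mem_filter, mem_univ, true_and]

theorem comp_eq [Fintype V] (h : v ∈ comp G C u) : comp G C v = comp G C u := by
  ext w
  rw [mem_comp] at h
  rw [mem_comp, mem_comp]
  exact ⟨fun h1 => h.trans' h1, fun h1 => h.symm'.trans' h1⟩

theorem conn_comp [Fintype V] [DecidableEq V] (h : v ∈ comp G C u) :
    Conn G (comp G C u) u v := by
  obtain ⟨p, hp⟩ := mem_comp.1 h
  refine ⟨p, fun z hz => mem_comp.2 ⟨p.takeUntil z hz, fun y hy => hp y ?_⟩⟩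
  exact p.support_takeUntil_subset_support hz hy

end conn

theorem win_lt {r : ℝ} {m s : ℕ} (hm : 0 < m) (hr : 0 < r) {h h' : ℝ}
    (e : win r m s h = win r m s h') : h - h' < m * r := by
  unfold win at e
  have hm' : (0 : ℤ) < m := by exact_mod_cast hm
  have h1 := Int.emod_add_mul_ediv (⌊h / r⌋ + s) m
  have h2 := Int.emod_add_mul_ediv (⌊h' / r⌋ + s) m
  have h3 := Int.emod_lt_of_pos (⌊h / r⌋ + s) hm'
  have h4 := Int.emod_nonneg (⌊h' / r⌋ + s) hm'.ne'
  rw [e] at h1
  have h5 : ⌊h / r⌋ + 1 ≤ ⌊h' / r⌋ + m := by linarith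
  have h6 : ((⌊h / r⌋ : ℤ) : ℝ) + 1 ≤ ((⌊h' / r⌋ : ℤ) : ℝ) + m := by exact_mod_cast h5
  have h7 := Int.lt_floor_add_one (h / r)
  have h8 := Int.floor_le (h' / r)
  have h9 : (h - h') / r < m := by
    rw [sub_div]
    linarith
  exact (div_lt_iff₀ hr).1 h9

theorem mn_eq {V : Type} [LinearOrder V] {C : Finset V} (h : C.Nonempty) (x : V) :
    mn C x = C.min' h := by
  unfold mn
  rw [dif_pos h]

section len

variable {V : Type} {G : SimpleGraph V} {l : Sym2 V → ℝ}

theorem wlen_append {u v w : V} (p : G.Walk u v) (q : G.Walk v w) :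
    wlen l (p.append q) = wlen l p + wlen l q := by
  unfold wlen
  rw [SimpleGraph.Walk.edges_append, List.map_append, List.sum_append]

variable [MetricSpace V]

theorem wlen_nonneg (hG : Geo G l) {u v : V} (p : G.Walk u v) : 0 ≤ wlen l p :=
  le_trans dist_nonneg (hG.le u v p)

theorem dIn_le (hG : Geo G l) {C : Finset V} {u v : V} (p : G.Walk u v)
    (hp : ∀ z ∈ p.support, z ∈ C) : dIn G l C u v ≤ wlen l p := by
  refine csInf_le ⟨0, ?_⟩ ⟨p, hp, rfl⟩
  rintro x ⟨q, _, rfl⟩
  exact wlen_nonneg hG q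

omit [MetricSpace V] in
theorem le_dIn {C : Finset V} {u v : V} (h : Conn G C u v) {a : ℝ}
    (ha : ∀ p : G.Walk u v, (∀ z ∈ p.support, z ∈ C) → a ≤ wlen l p) : a ≤ dIn G l C u v := by
  obtain ⟨p, hp⟩ := h
  refine le_csInf ⟨_, p, hp, rfl⟩ ?_
  rintro x ⟨q, hq, rfl⟩
  exact ha q hq

end len

section tree

variable {V : Type} [LinearOrder V] {G : SimpleGraph V} {S : V → Finset V} {k : ℕ}
  {dep : V → ℕ}

theorem lemA (hE : Elim G S k) (hT : TreeF S dep) (o : V) {u w : V} (p : G.Walk u w) :
    Desc S o u → (∀ z ∈ p.support, o ≤ z) → Desc S o w := by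
  induction p with
  | nil => exact fun h _ => h
  | @cons a b c hab q ih =>
    intro h1 h2
    have h3 : ∀ z ∈ q.support, o ≤ z := fun z hz => h2 z (by
      rw [SimpleGraph.Walk.support_cons]
      exact List.mem_cons_of_mem _ hz)
    refine ih ?_ h3
    rcases lt_or_gt_of_ne hab.ne with h4 | h4
    · exact hT.trans _ _ _ h1 (hT.anc b a (hE.adj a b hab h4))
    · rcases hT.out o a h1 b (hE.adj b a hab.symm h4) with h5 | h5
      · exact h5
      · exact absurd (hT.lt o b h5) (not_lt.2 (h3 b q.start_mem_support))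

theorem lemB (hE : Elim G S k) (hT : TreeF S dep) (o : V) {u w : V} (p : G.Walk u w) :
    ¬ Desc S o u → Desc S o w → ∃ b ∈ S o, b ∈ p.support := by
  induction p with
  | nil => exact fun h h' => absurd h' h
  | @cons a b c hab q ih =>
    intro h1 h2
    by_cases h3 : Desc S o b
    · rcases lt_or_gt_of_ne hab.ne with h4 | h4
      · rcases hT.out o b h3 a (hE.adj a b hab h4) with h5 | h5
        · exact absurd h5 h1
        · exact ⟨a, h5, SimpleGraph.Walk.start_mem_support _⟩
      · exact absurd (hT.trans _ _ _ h3 (hT.anc a b (hE.adj b a hab.symm h4))) h1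
    · obtain ⟨d, hd, hd2⟩ := ih h3 h2
      refine ⟨d, hd, ?_⟩
      rw [SimpleGraph.Walk.support_cons]
      exact List.mem_cons_of_mem _ hd2

end tree

section cells

variable {V : Type} [Fintype V] [LinearOrder V] {G : SimpleGraph V} {l : Sym2 V → ℝ} {r : ℝ}
  {m : ℕ} {z : ℕ → ℕ}

theorem cell_succ (j : ℕ) (x : V) : cell G l r m z (j + 1) x =
    comp G ((cell G l r m z j x).filter (fun y =>
      win r m (z j) (dIn G l (cell G l r m z j x) (mn (cell G l r m z j x) x) y) =
        win r m (z j) (dIn G l (cell G l r m z j x) (mn (cell G l r m z j x) x) x))) x := rfl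

theorem cell_mem (j : ℕ) (x : V) : x ∈ cell G l r m z j x := by
  induction j with
  | zero => exact mem_univ x
  | succ j ih =>
    rw [cell_succ, mem_comp]
    exact Conn.rfl' (mem_filter.2 ⟨ih, rfl⟩)

theorem cell_step {j : ℕ} {x y : V} (h : y ∈ cell G l r m z (j + 1) x) :
    y ∈ cell G l r m z j x ∧
      win r m (z j) (dIn G l (cell G l r m z j x) (mn (cell G l r m z j x) x) y) =
        win r m (z j) (dIn G l (cell G l r m z j x) (mn (cell G l r m z j x) x) x) := by
  rw [cell_succ, mem_comp] at h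
  exact mem_filter.1 h.right

theorem cell_anti {i j : ℕ} (hij : i ≤ j) {x y : V} (h : y ∈ cell G l r m z j x) :
    y ∈ cell G l r m z i x := by
  induction j, hij using Nat.le_induction with
  | base => exact h
  | succ j _ ih => exact ih (cell_step h).1

theorem cell_eq (j : ℕ) {x y : V} (h : y ∈ cell G l r m z j x) :
    cell G l r m z j y = cell G l r m z j x := by
  induction j with
  | zero => rfl
  | succ j ih =>
    obtain ⟨h1, h2⟩ := cell_step h
    have hne : (cell G l r m z j x).Nonempty := ⟨y, h1⟩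
    have h3 : mn (cell G l r m z j x) y = mn (cell G l r m z j x) x := by
      rw [mn_eq hne, mn_eq hne]
    rw [cell_succ] at h
    rw [cell_succ, cell_succ, ih h1, h3, h2]
    exact comp_eq h

theorem cell_conn [MetricSpace V] (hG : Geo G l) (j : ℕ) {x y : V}
    (h : y ∈ cell G l r m z j x) : Conn G (cell G l r m z j x) x y := by
  cases j with
  | zero =>
    obtain ⟨p, _⟩ := hG.ex x y
    exact ⟨p, fun w _ => mem_univ w⟩
  | succ j =>
    rw [cell_succ] at h ⊢
    exact conn_comp h

theorem cell_conn2 [MetricSpace V] (hG : Geo G l) (j : ℕ) {x y y' : V}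
    (h : y ∈ cell G l r m z j x) (h' : y' ∈ cell G l r m z j x) :
    Conn G (cell G l r m z j x) y y' :=
  (cell_conn hG j h).symm'.trans' (cell_conn hG j h')

theorem step [MetricSpace V] {S : V → Finset V} {k : ℕ} {dep : V → ℕ} (hm : 0 < m) (hr : 0 < r)
    (hG : Geo G l) (hE : Elim G S k) (hT : TreeF S dep) (j : ℕ) {x y o : V}
    (hy : y ∈ cell G l r m z (j + 1) x) (ho : o ∈ cell G l r m z (j + 1) x) (hd : Desc S o y)
    (far : ∀ c ∈ insert o (S o), (m : ℝ) * r ≤ dist c y) :
    ∃ b ∈ S o, b ∈ cell G l r m z j x ∧ b ∉ cell G l r m z (j + 1) x := by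
  obtain ⟨hy1, hy2⟩ := cell_step hy
  obtain ⟨ho1, ho2⟩ := cell_step ho
  have hne : (cell G l r m z j x).Nonempty := ⟨y, hy1⟩
  have hq1 : mn (cell G l r m z j x) x ∈ cell G l r m z j x := by
    rw [mn_eq hne]
    exact min'_mem _ _
  have hq2 : mn (cell G l r m z j x) x ≤ o := by
    rw [mn_eq hne]
    exact min'_le _ _ ho1
  have hw : ∀ b ∈ cell G l r m z (j + 1) x,
      dIn G l (cell G l r m z j x) (mn (cell G l r m z j x) x) y -
        dIn G l (cell G l r m z j x) (mn (cell G l r m z j x) x) b < m * r := fun b hb =>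
    win_lt hm hr (hy2.trans (cell_step hb).2.symm)
  generalize mn (cell G l r m z j x) x = q at hq1 hq2 hw
  have hc := cell_conn2 hG j hq1 hy1
  rcases eq_or_lt_of_le hq2 with h1 | h1
  · exfalso
    subst h1
    have h2 := dIn_le hG (C := cell G l r m z j x) (SimpleGraph.Walk.nil : G.Walk q q)
      (fun w hw => by
        rw [SimpleGraph.Walk.support_nil, List.mem_singleton] at hw
        rw [hw]
        exact hq1)
    have h3 : wlen l (SimpleGraph.Walk.nil : G.Walk q q) = 0 := rfl
    have h4 := le_dIn (l := l) hc fun p _ => hG.le q y p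
    have h5 := far q (mem_insert_self _ _)
    have h6 := hw q ho
    linarith
  · have hnd : ¬ Desc S o q := fun h => absurd (hT.le o q h) (not_le.2 h1)
    have hT1 : ((S o).filter (fun b => b ∈ cell G l r m z j x)).Nonempty := by
      obtain ⟨p, hp⟩ := hc
      obtain ⟨b, hb, hb2⟩ := lemB hE hT o p hnd hd
      exact ⟨b, mem_filter.2 ⟨hb, hp b hb2⟩⟩
    obtain ⟨b, hb, hmin⟩ := exists_min_image _
      (fun b => dIn G l (cell G l r m z j x) q b + dist b y) hT1
    obtain ⟨hb1, hb2⟩ := mem_filter.1 hb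
    refine ⟨b, hb1, hb2, fun hb3 => ?_⟩
    have h2 : dIn G l (cell G l r m z j x) q b + dist b y ≤ dIn G l (cell G l r m z j x) q y := by
      refine le_dIn hc fun p hp => ?_
      obtain ⟨d, hd1, hd2⟩ := lemB hE hT o p hnd hd
      have h3 := hmin d (mem_filter.2 ⟨hd1, hp d hd2⟩)
      have h4 := dIn_le hG (C := cell G l r m z j x) (p.takeUntil d hd2)
        (fun w hw => hp w (p.support_takeUntil_subset_support hd2 hw))
      have h5 := hG.le d y (p.dropUntil d hd2)
      have h6 := wlen_append (l := l) (p.takeUntil d hd2) (p.dropUntil d hd2)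
      rw [p.take_spec hd2] at h6
      linarith
    have h3 := far b (mem_insert_of_mem hb1)
    have h4 := hw b hb3
    linarith

theorem key [MetricSpace V] {S : V → Finset V} {k : ℕ} {dep : V → ℕ} (hm : 0 < m) (hr : 0 < r)
    (hG : Geo G l) (hE : Elim G S k) (hT : TreeF S dep) (x : V) :
    ∃ c ∈ insert (mn (cell G l r m z (k + 1) x) x) (S (mn (cell G l r m z (k + 1) x) x)),
      dist c x < m * r := by
  have hx : x ∈ cell G l r m z (k + 1) x := cell_mem _ _
  have hne : (cell G l r m z (k + 1) x).Nonempty := ⟨x, hx⟩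
  have ho1 : mn (cell G l r m z (k + 1) x) x ∈ cell G l r m z (k + 1) x := by
    rw [mn_eq hne]
    exact min'_mem _ _
  have ho2 : ∀ w ∈ cell G l r m z (k + 1) x, mn (cell G l r m z (k + 1) x) x ≤ w := by
    intro w hw
    rw [mn_eq hne]
    exact min'_le _ _ hw
  generalize mn (cell G l r m z (k + 1) x) x = o at ho1 ho2
  by_contra hcon
  have far : ∀ c ∈ insert o (S o), (m : ℝ) * r ≤ dist c x := fun c hc =>
    not_lt.1 fun h => hcon ⟨c, hc, h⟩
  have hd : Desc S o x := by
    obtain ⟨p, hp⟩ := cell_conn2 hG (k + 1) ho1 hx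
    exact lemA hE hT o p (hT.refl o) fun w hw => ho2 w (hp w hw)
  have cnt : ∀ j, j ≤ k + 1 →
      ((S o).filter (fun b => b ∈ cell G l r m z j x)).card + j ≤ (S o).card := by
    intro j
    induction j with
    | zero => exact fun _ => card_filter_le _ _
    | succ j ih =>
      intro hj
      obtain ⟨b, hb1, hb2, hb3⟩ := step hm hr hG hE hT j (cell_anti hj hx) (cell_anti hj ho1) hd far
      have h1 : (S o).filter (fun b => b ∈ cell G l r m z (j + 1) x) ⊂
          (S o).filter (fun b => b ∈ cell G l r m z j x) := by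
        refine (ssubset_iff_of_subset fun w hw => ?_).2
          ⟨b, mem_filter.2 ⟨hb1, hb2⟩, fun h => hb3 (mem_filter.1 h).2⟩
        exact mem_filter.2 ⟨(mem_filter.1 hw).1, (cell_step (mem_filter.1 hw).2).1⟩
      have h2 := card_lt_card h1
      have h3 := ih (by omega)
      omega
  have h1 := cnt (k + 1) le_rfl
  have h2 := hE.card o
  omega

end cells

end TPAD1Aux

open TPAD1Aux in
theorem pad1 : PAD1S := by
  intro V _ _ _ G l S k dep m r z hm hr hG hE hT
  refine ⟨fun x => ?_, fun x y hy => ?_, fun x y hy => ?_⟩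
  · exact mem_filter.2 ⟨cell_mem _ _, fun _ _ => rfl⟩
  · obtain ⟨h1, h2⟩ := mem_filter.1 hy
    have hne : (cell G l r m z (k + 1) x).Nonempty := ⟨y, h1⟩
    have h3 : mn (cell G l r m z (k + 1) x) y = mn (cell G l r m z (k + 1) x) x := by
      rw [mn_eq hne, mn_eq hne]
    unfold fcell
    rw [cell_eq _ h1, h3]
    refine filter_congr fun w _ => ?_
    exact ⟨fun h c hc => (h c hc).trans (h2 c hc), fun h c hc => (h c hc).trans (h2 c hc).symm⟩
  · obtain ⟨_, h2⟩ := mem_filter.1 hy
    obtain ⟨c, hc, h3⟩ := key (z := z) hm hr hG hE hT x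
    have h4 := win_lt hm hr (h2 c hc)
    have h5 := dist_triangle_left x y c
    linarith

end Vale.Agent.P235
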