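import Vale.Agent.P235.Sts

namespace Vale.Agent.P235

open Finset
open scoped BigOperators

namespace TPAD2Aux

def good (r : ℝ) (m s : ℕ) (h : ℝ) : Prop := ∀ h', |h' - h| ≤ r → win r m s h' = win r m s h

theorem floor_le {r : ℝ} (hr : 0 < r) {a b : ℝ} (h : a - b ≤ r) : ⌊a / r⌋ ≤ ⌊b / r⌋ + 1 := by
  rw [← Int.floor_add_one]
  refine Int.floor_le_floor ?_
  rw [div_add_one hr.ne']
  exact div_le_div_of_nonneg_right (by linarith) hr.le

theorem good_of {r : ℝ} (hr : 0 < r) {m s : ℕ} (hm : 0 < m) {h : ℝ}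
    (h0 : (⌊h / r⌋ + s) % (m : ℤ) ≠ 0) (h1 : (⌊h / r⌋ + s) % (m : ℤ) ≠ m - 1) : good r m s h := by
  intro h' hh
  have a1 := floor_le hr (abs_le.1 hh).2
  have a2 := floor_le hr (a := h) (b := h') (by linarith [(abs_le.1 hh).1])
  have hm' : (0 : ℤ) < m := Nat.cast_pos.2 hm
  have b1 := Int.emod_nonneg (⌊h / r⌋ + s) hm'.ne'
  have b2 := Int.emod_lt_of_pos (⌊h / r⌋ + s) hm'
  have b3 := Int.emod_add_mul_ediv (⌊h / r⌋ + s) (m : ℤ)
  unfold win
  refine ((Int.ediv_emod_unique (r := (⌊h / r⌋ + s) % (m : ℤ) + (⌊h' / r⌋ - ⌊h / r⌋)) hm').2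
    ⟨by linarith, by omega, by omega⟩).1

theorem one_res {m : ℕ} (u ρ : ℤ) :
    (univ.filter (fun s : Fin m => (u + ((s : ℕ) : ℤ)) % (m : ℤ) = ρ)).card ≤ 1 := by
  refine card_le_one.2 fun a ha b hb => ?_
  have h : (u + ((a : ℕ) : ℤ)) ≡ (u + ((b : ℕ) : ℤ)) [ZMOD m] :=
    (mem_filter.1 ha).2.trans (mem_filter.1 hb).2.symm
  have h2 : ((a : ℕ) : ℤ) % (m : ℤ) = ((b : ℕ) : ℤ) % (m : ℤ) := Int.ModEq.add_left_cancel' u h
  have ha' := a.2
  have hb' := b.2
  rw [Int.emod_eq_of_lt (by omega) (by omega), Int.emod_eq_of_lt (by omega) (by omega)] at h2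
  exact Fin.ext (by omega)

open Classical in
theorem bad_card {r : ℝ} (hr : 0 < r) {m : ℕ} (hm : 0 < m) (h : ℝ) :
    (univ.filter (fun s : Fin m => ¬ good r m s h)).card ≤ 2 := by
  have hs : univ.filter (fun s : Fin m => ¬ good r m s h) ⊆
      univ.filter (fun s : Fin m => (⌊h / r⌋ + ((s : ℕ) : ℤ)) % (m : ℤ) = 0) ∪
        univ.filter (fun s : Fin m => (⌊h / r⌋ + ((s : ℕ) : ℤ)) % (m : ℤ) = m - 1) := by
    intro s hs
    by_contra hc
    simp only [mem_union, mem_filter, mem_univ, true_and, not_or] at hc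
    exact (mem_filter.1 hs).2 (good_of hr hm hc.1 hc.2)
  refine (card_le_card hs).trans ((card_union_le _ _).trans ?_)
  exact add_le_add (one_res _ _) (one_res _ _)

open Classical in
/-- The shifts that are not good for one of the heights. -/
noncomputable def bset (r : ℝ) (m : ℕ) {V : Type} (C : Finset V) (h : V → ℝ) : Finset (Fin m) :=
  C.biUnion (fun c => univ.filter (fun s : Fin m => ¬ good r m s (h c)))

theorem mem_bset {r : ℝ} {m : ℕ} {V : Type} {C : Finset V} {h : V → ℝ} {s : Fin m} {c : V}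
    (hc : c ∈ C) (h1 : ¬ good r m s (h c)) : s ∈ bset r m C h := by
  unfold bset
  simp only [mem_biUnion, mem_filter, mem_univ, true_and]
  exact ⟨c, hc, h1⟩

theorem card_bset {r : ℝ} (hr : 0 < r) {m : ℕ} (hm : 0 < m) {V : Type} (C : Finset V)
    (h : V → ℝ) : (bset r m C h).card ≤ C.card * 2 :=
  card_biUnion_le_card_mul _ _ _ fun c _ => bad_card hr hm (h c)

theorem count {n m b : ℕ} (j : Fin n) (H : (Fin n → Fin m) → Finset (Fin m))
    (hH : ∀ z s, H (Function.update z j s) = H z) (hb : ∀ z, (H z).card ≤ b) :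
    (univ.filter (fun z : Fin n → Fin m => z j ∈ H z)).card * m ≤
      b * Fintype.card (Fin n → Fin m) := by
  have key : ∀ F : (Fin n → Fin m) → ℕ, ∑ z : Fin n → Fin m, ∑ s : Fin m,
      F (Function.update z j s) = ∑ z : Fin n → Fin m, ∑ _s : Fin m, F z := by
    intro F
    rw [← Fintype.sum_prod_type', ← Fintype.sum_prod_type']
    refine sum_bij' (fun x _ => (Function.update x.1 j x.2, x.1 j))
      (fun x _ => (Function.update x.1 j x.2, x.1 j)) (by simp) (by simp) (by simp) (by simp)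
      (by simp)
  have k1 := key (fun z => if z j ∈ H z then 1 else 0)
  simp only [Function.update_self, hH, sum_const, card_univ, Fintype.card_fin, smul_eq_mul] at k1
  rw [← mul_sum, ← card_filter] at k1
  rw [mul_comm, ← k1, mul_comm, ← smul_eq_mul, ← card_univ]
  refine sum_le_card_nsmul _ _ _ fun z _ => ?_
  rw [← card_filter, filter_mem_eq_inter, univ_inter]
  exact hb z

variable {V : Type} {G : SimpleGraph V} {l : Sym2 V → ℝ}

theorem wlen_append {u v w : V} (p : G.Walk u v) (q : G.Walk v w) :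
    wlen l (p.append q) = wlen l p + wlen l q := by
  simp [wlen]

theorem wlen_reverse {u v : V} (p : G.Walk u v) : wlen l p.reverse = wlen l p := by
  simp [wlen]

theorem supp_le [MetricSpace V] (hg : Geo G l) {u v : V} (p : G.Walk u v) :
    ∀ w ∈ p.support, dist u w ≤ wlen l p := by
  induction p with
  | nil =>
    intro w hw
    simp only [SimpleGraph.Walk.support_nil, List.mem_singleton] at hw
    subst hw
    simp [wlen]
  | @cons a b c h p ih =>
    intro w hw
    rw [SimpleGraph.Walk.support_cons, List.mem_cons] at hw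
    rcases hw with rfl | hw
    · rw [dist_self]
      exact dist_nonneg.trans (hg.le _ _ _)
    · have h1 := hg.le a b (SimpleGraph.Walk.cons h SimpleGraph.Walk.nil)
      have h2 := ih w hw
      have h3 := dist_triangle a b w
      simp only [wlen, SimpleGraph.Walk.edges_cons, SimpleGraph.Walk.edges_nil, List.map_cons,
        List.map_nil, List.sum_cons, List.sum_nil] at h1 h2 ⊢
      linarith

theorem geo_ball [MetricSpace V] (hg : Geo G l) {x y : V} {r : ℝ} (h : dist x y ≤ r) :
    ∃ p : G.Walk x y, wlen l p ≤ r ∧ ∀ w ∈ p.support, dist x w ≤ r := by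
  obtain ⟨p, hp⟩ := hg.ex x y
  exact ⟨p, hp.le.trans h, fun w hw => (supp_le hg p w hw).trans (hp.le.trans h)⟩

theorem dIn_le [MetricSpace V] (hg : Geo G l) {C : Finset V} {o a b : V} (q : G.Walk o a)
    (hq : ∀ z ∈ q.support, z ∈ C) (p : G.Walk a b) (hp : ∀ z ∈ p.support, z ∈ C) :
    dIn G l C o b - dIn G l C o a ≤ wlen l p := by
  have h : dIn G l C o b - wlen l p ≤ dIn G l C o a := by
    refine le_csInf ⟨_, q, hq, rfl⟩ ?_
    rintro _ ⟨q', hq', rfl⟩
    have h1 : dIn G l C o b ≤ wlen l (q'.append p) := by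
      refine csInf_le ⟨0, ?_⟩ ⟨q'.append p, fun z hz => ?_, rfl⟩
      · rintro _ ⟨w, -, rfl⟩
        exact dist_nonneg.trans (hg.le _ _ w)
      · rcases (SimpleGraph.Walk.mem_support_append_iff _ _).1 hz with h | h
        · exact hq' z h
        · exact hp z h
    rw [wlen_append] at h1
    linarith
  linarith

theorem dIn_abs [MetricSpace V] (hg : Geo G l) {C : Finset V} {o a b : V} (q : G.Walk a o)
    (hq : ∀ z ∈ q.support, z ∈ C) (p : G.Walk a b) (hp : ∀ z ∈ p.support, z ∈ C) :
    |dIn G l C o b - dIn G l C o a| ≤ wlen l p := by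
  have hq' : ∀ z ∈ q.reverse.support, z ∈ C := fun z hz => hq z (by simpa using hz)
  have hp' : ∀ z ∈ p.reverse.support, z ∈ C := fun z hz => hp z (by simpa using hz)
  have h1 := dIn_le hg q.reverse hq' p hp
  have h2 := dIn_le hg (q.reverse.append p) (fun z hz => by
    rcases (SimpleGraph.Walk.mem_support_append_iff _ _).1 hz with h | h
    · exact hq' z h
    · exact hp z h) p.reverse hp'
  rw [wlen_reverse] at h2
  exact abs_le.2 ⟨by linarith, h1⟩

theorem mem_comp [Fintype V] {C : Finset V} {x y : V} :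
    y ∈ comp G C x ↔ ∃ p : G.Walk x y, ∀ z ∈ p.support, z ∈ C := by
  unfold comp
  simp only [mem_filter, mem_univ, true_and]

theorem mn_mem [LinearOrder V] {C : Finset V} {x : V} (h : x ∈ C) : mn C x ∈ C := by
  unfold mn
  rw [dif_pos ⟨x, h⟩]
  exact min'_mem _ _

variable [Fintype V] [LinearOrder V]

theorem conn [MetricSpace V] (hg : Geo G l) (r : ℝ) (m : ℕ) (z : ℕ → ℕ) (x : V) (j : ℕ) :
    x ∈ cell G l r m z j x ∧
      ∀ o ∈ cell G l r m z j x, ∃ p : G.Walk x o, ∀ w ∈ p.support, w ∈ cell G l r m z j x := by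
  induction j with
  | zero =>
    refine ⟨mem_univ _, fun o _ => ?_⟩
    obtain ⟨p, -⟩ := hg.ex x o
    exact ⟨p, fun w _ => mem_univ _⟩
  | succ j ih =>
    refine ⟨mem_comp.2 ⟨SimpleGraph.Walk.nil, fun w hw => ?_⟩, fun o ho => ?_⟩
    · simp only [SimpleGraph.Walk.support_nil, List.mem_singleton] at hw
      subst hw
      exact mem_filter.2 ⟨ih.1, rfl⟩
    · obtain ⟨p, hp⟩ := mem_comp.1 ho
      exact ⟨p, fun w hw => mem_comp.2 ⟨p.takeUntil w hw, fun y hy =>
        hp y (p.support_takeUntil_subset_support hw hy)⟩⟩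

/-- The height seen by `x` in round `j`. -/
noncomputable def ht (G : SimpleGraph V) (l : Sym2 V → ℝ) (r : ℝ) (m : ℕ) (z : ℕ → ℕ) (j : ℕ)
    (x : V) : ℝ :=
  dIn G l (cell G l r m z j x) (mn (cell G l r m z j x) x) x

theorem ball [MetricSpace V] (hg : Geo G l) (r : ℝ) (m : ℕ) (z : ℕ → ℕ) (x : V) (j : ℕ) :
    (∀ i, i < j → good r m (z i) (ht G l r m z i x)) →
      ∀ y, dist x y ≤ r → y ∈ cell G l r m z j x := by
  induction j with
  | zero => exact fun _ y _ => mem_univ _
  | succ j ih =>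
    intro h y hy
    have ih' := ih fun i hi => h i (by omega)
    obtain ⟨c1, c2⟩ := conn hg r m z x j
    obtain ⟨q, hq⟩ := c2 _ (mn_mem c1)
    obtain ⟨p, -, hp⟩ := geo_ball hg hy
    refine mem_comp.2 ⟨p, fun w hw => mem_filter.2 ⟨ih' w (hp w hw), ?_⟩⟩
    obtain ⟨p', h1, h2⟩ := geo_ball hg (hp w hw)
    exact h j (Nat.lt_succ_self j) _
      ((dIn_abs hg q hq p' fun v hv => ih' v (h2 v hv)).trans h1)

theorem cell_congr (r : ℝ) (m : ℕ) (z z' : ℕ → ℕ) (x : V) (j : ℕ) :
    (∀ i, i < j → z i = z' i) → cell G l r m z j x = cell G l r m z' j x := by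
  induction j with
  | zero => exact fun _ => rfl
  | succ j ih =>
    intro h
    simp only [cell]
    rw [ih fun i hi => h i (by omega), h j (Nat.lt_succ_self j)]

theorem pad_of [MetricSpace V] (hg : Geo G l) (S : V → Finset V) (k : ℕ) (r : ℝ) (m : ℕ)
    (z : ℕ → ℕ) (x : V) (h1 : ∀ i, i < k + 1 → good r m (z i) (ht G l r m z i x))
    (h2 : ∀ c ∈ insert (mn (cell G l r m z (k + 1) x) x) (S (mn (cell G l r m z (k + 1) x) x)),
      good r m (z (k + 1)) (dist c x)) : padded (fcell G l S k r m z) r x := by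
  intro y hy
  refine mem_filter.2 ⟨ball hg r m z x _ h1 y hy, fun c hc => h2 c hc _ ?_⟩
  rw [dist_comm c y, dist_comm c x]
  exact (abs_dist_sub_le y x c).trans (by rwa [dist_comm])

theorem zext_update {n m : ℕ} (z : Fin n → Fin m) (j : Fin n) (s : Fin m) {i : ℕ} (h : i < j) :
    zext (Function.update z j s) i = zext z i := by
  unfold zext
  split_ifs with hi
  · rw [Function.update_of_ne fun h' => h.ne (congrArg Fin.val h')]
  · rfl

theorem zext_val {n m : ℕ} (z : Fin n → Fin m) (j : Fin n) : zext z j = z j := by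
  simp [zext]

end TPAD2Aux

open TPAD2Aux in
theorem pad2 : PAD2S := by
  intro V _ _ _ G l S k m r x hm hr hg he
  classical
  let H : Fin (k + 2) → (Fin (k + 2) → Fin m) → Finset (Fin m) := fun j z =>
    bset r m {x} (fun _ => ht G l r m (zext z) j x)
  let H' : (Fin (k + 2) → Fin m) → Finset (Fin m) := fun z =>
    bset r m (insert (mn (cell G l r m (zext z) (k + 1) x) x)
      (S (mn (cell G l r m (zext z) (k + 1) x) x))) (fun c => dist c x)
  have hc : ∀ (j : Fin (k + 2)) (z : Fin (k + 2) → Fin m) (s : Fin m),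
      cell G l r m (zext (Function.update z j s)) j x = cell G l r m (zext z) j x :=
    fun j z s => cell_congr r m _ _ x j fun i hi => zext_update z j s hi
  have c1 : ∀ j : Fin (k + 2), (univ.filter (fun z : Fin (k + 2) → Fin m => z j ∈ H j z)).card * m ≤
      2 * Fintype.card (Fin (k + 2) → Fin m) := fun j =>
    count j (H j) (fun z s => by simp only [H, ht, hc]) fun z =>
      (card_bset hr hm _ _).trans (by simp)
  have c2 : (univ.filter (fun z : Fin (k + 2) → Fin m => z (Fin.last _) ∈ H' z)).card * m ≤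
      ((k + 1) * 2) * Fintype.card (Fin (k + 2) → Fin m) :=
    count (Fin.last _) H' (fun z s => by
      have := hc (Fin.last _) z s
      rw [Fin.val_last] at this
      simp only [H', this]) fun z =>
      (card_bset hr hm _ _).trans (Nat.mul_le_mul_right 2
        ((card_insert_le _ _).trans (Nat.add_le_add_right (he.card _) 1)))
  have hs : univ.filter (fun z : Fin (k + 2) → Fin m =>
      ¬ padded (fcell G l S k r m (zext z)) r x) ⊆
      (univ : Finset (Fin (k + 1))).biUnion (fun j =>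
        univ.filter (fun z : Fin (k + 2) → Fin m => z j.castSucc ∈ H j.castSucc z)) ∪
      univ.filter (fun z : Fin (k + 2) → Fin m => z (Fin.last _) ∈ H' z) := by
    intro z hz
    by_contra hn
    rw [mem_union, not_or] at hn
    refine (mem_filter.1 hz).2 (pad_of hg S k r m _ x (fun i hi => ?_) fun c hc' => ?_)
    · by_contra h
      refine hn.1 (mem_biUnion.2 ⟨⟨i, hi⟩, mem_univ _, mem_filter.2 ⟨mem_univ _,
        mem_bset (mem_singleton_self x) ?_⟩⟩)
      rw [← zext_val z (Fin.castSucc ⟨i, hi⟩)]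
      exact h
    · by_contra h
      refine hn.2 (mem_filter.2 ⟨mem_univ _, mem_bset hc' ?_⟩)
      rw [← zext_val z (Fin.last _)]
      exact h
  have c3 := (card_le_card hs).trans ((card_union_le _ _).trans
    (Nat.add_le_add_right card_biUnion_le _))
  have c4 := Nat.mul_le_mul_right m c3
  rw [add_mul, sum_mul] at c4
  have c5 := sum_le_card_nsmul (univ : Finset (Fin (k + 1))) _ _ fun j _ => c1 j.castSucc
  rw [card_univ, Fintype.card_fin, smul_eq_mul] at c5
  have c6 : (univ.filter (fun z : Fin (k + 2) → Fin m =>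
      ¬ padded (fcell G l S k r m (zext z)) r x)).card * m ≤
      4 * (k + 1) * Fintype.card (Fin (k + 2) → Fin m) := by
    refine c4.trans ((add_le_add c5 c2).trans (le_of_eq ?_))
    ring
  exact_mod_cast c6

end Vale.Agent.P235
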