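import Vale.Agent.P235.Sts

namespace Vale.Agent.P235

open Finset
open scoped BigOperators

noncomputable section

namespace TPK1Aux

theorem cap_bd (q : GP) (hζ0 : 0 < q.ζ) (hζ1 : q.ζ < 1) {B d : ℝ} (hB : 0 ≤ B) (j : Sc)
    (h1 : q.lo j < d) (h2 : d ≤ q.η ^ 3 * B) : 0 ≤ q.cap j ∧ q.cap j ≤ B := by
  have hη0 : 0 < q.η := by unfold GP.η; positivity
  have hη1 : q.η ≤ 1 := by unfold GP.η; nlinarith
  unfold GP.lo at h1
  unfold GP.cap
  split_ifs at h1 ⊢ with h
  · have h3 : 0 < q.η ^ j.2 := zpow_pos hη0 _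
    have h4 : q.η ^ j.2 < B := lt_of_mul_lt_mul_left (h1.trans_le h2) (pow_pos hη0 3).le
    exact ⟨by positivity, by nlinarith⟩
  · have h3 : q.η ^ 3 ≤ 1 := pow_le_one₀ hη0.le hη1
    exact ⟨by positivity, by nlinarith⟩

section
variable {V ι : Type} [LinearOrder V] [Fintype ι] [DecidableEq ι] {M : ℕ}

theorem ex_const (hb : Base) (hM : 0 < M) (S : St V ι) (hP : ∑ ω, S.P ω = 1) (c : ℝ) :
    Ex S (fun _ (_ : ι → Fin M) => c) = c := by
  rw [hb.ex.om V ι M S (fun _ => c) hM, ← Finset.sum_mul, hP, one_mul]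

theorem ex_mul (hb : Base) (S : St V ι) (f : S.Ω → (ι → Fin M) → ℝ) (c : ℝ) :
    Ex S (fun ω l => f ω l * c) = Ex S f * c := by
  have h := hb.ex.lin V ι M S f f c 0
  simp only [zero_mul, add_zero] at h
  simp only [mul_comm _ c]
  exact h

theorem ex_rep (hb : Base) (hM : 0 < M) {L : ℝ} (hL : 0 ≤ L) (X : Finset V) (S : St V ι)
    (hP0 : ∀ ω, 0 < S.P ω) (hP : ∑ ω, S.P ω = 1) (F : S.Ω → (ι → Fin M) → V → ℝ) :
    ∃ m : Finset V → ℝ, (∀ a, 0 ≤ m a) ∧ ∀ g, Ex S (fun ω l => cutI L X g (F ω l)) =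
      ∑ a ∈ X.powerset, m a * g a := by
  refine ⟨fun a => Ex S (fun ω l => cutI L X (fun A' => if A' = a then 1 else 0) (F ω l)),
    fun a => ?_, fun g => ?_⟩
  · refine (ex_const hb hM S hP 0).symm.le.trans ?_
    refine hb.ex.mono V ι M S _ _ (fun ω => (hP0 ω).le) fun ω l => ?_
    have h1 := hb.ca.const V L X 0 (F ω l)
    rw [mul_zero] at h1
    refine h1.symm.le.trans (hb.ca.mono V L X _ _ _ hL fun A _ => ?_)
    split_ifs
    · exact zero_le_one
    · exact le_rfl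
  · have h1 : (fun ω l => cutI L X g (F ω l)) = fun ω l => ∑ A ∈ X.powerset,
        cutI L X (fun A' => if A' = A then 1 else 0) (F ω l) * g A := by
      funext ω l
      exact hb.ca.rep V L X g (F ω l)
    rw [h1, hb.ex.sum V ι M S (Finset V) X.powerset
      (fun A ω l => cutI L X (fun A' => if A' = A then 1 else 0) (F ω l) * g A)]
    exact Finset.sum_congr rfl fun A _ => ex_mul hb S _ _

theorem ex_res (hb : Base) (L : ℝ) {X Y : Finset V} (h : Y ⊆ X) (S : St V ι)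
    (F : S.Ω → (ι → Fin M) → V → ℝ) (g : Finset V → ℝ) :
    Ex S (fun ω l => cutI L X (fun A => g (A ∩ Y)) (F ω l)) =
      Ex S (fun ω l => cutI L Y g (F ω l)) := by
  simp only [hb.ca.res V L X Y g _ h]

end

section
variable {V : Type} [LinearOrder V] (S : V → Finset V)

theorem nX0 (v : V) : nX S (v, 0) = S v := by simp [nX]
theorem nX1 (v : V) : nX S (v, 1) = insert v (S v) := by simp [nX]
theorem nX2 (v : V) : nX S (v, 2) = {v} := by
  have h1 : (2 : Fin 3) ≠ 0 := by decide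
  have h2 : (2 : Fin 3) ≠ 1 := by decide
  simp [nX, h1, h2]
theorem np0 (v : V) : npar S (v, 0) = (par S v, 1) := by simp [npar]
theorem np1 (v : V) : npar S (v, 1) = (v, 0) := by simp [npar]
theorem np2 (v : V) : npar S (v, 2) = (v, 1) := by
  have h1 : (2 : Fin 3) ≠ 0 := by decide
  have h2 : (2 : Fin 3) ≠ 1 := by decide
  simp [npar, h1, h2]

end

theorem main (hb : Base) (htm : TMS) (hbn : BNS) {V ι : Type} [Fintype V] [LinearOrder V]
    [MetricSpace V] [Fintype ι] [DecidableEq ι] (S : V → Finset V) (dep : V → ℕ) (p : MP)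
    (B L : ℝ) (A : Nd V → Finset ι) (Φ : Nd V → ι → V → ℝ) (hp : p.OK) (hT : TreeF S dep)
    (hB : 0 ≤ B) (hL : ((p.k : ℝ) + 2) * B ≤ L) (hA0 : ∀ t, ndep dep t = 0 → A t = ∅)
    (hX : ∀ t, (nX S t).card ≤ p.k + 1) (hA : ∀ t, 2 * (A t).card ≤ p.N)
    (hΦ : ∀ t i, LB B (Φ t i)) (hΦ0 : ∀ t i, ∀ s ∈ nX S t, Φ t i s = 0) :
    ∃ W : Finset V → ℝ, (∀ C, 0 ≤ W C) ∧ CI S W ∧
      ∀ t : Nd V, ∃ (Ψ : ℕ → ι → V → ℝ) (St' : ℕ → St V ι),
        ChSt p B L (fun σ => nX S (ch S dep t σ)) (ndep dep t) (fun σ => A (ch S dep t σ))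
          (fun σ => Φ (ch S dep t σ)) Ψ St' W := by
  obtain ⟨Sg, Ψ, hinv, hlb, hstep, hrel⟩ := htm V ι (Nd V) p B L (npar S) (ndep dep) (nX S) A Φ
    hp hB hL hT.npar_dep hA0 hX hA hΦ hΦ0
  have hM : 0 < p.M := lt_of_lt_of_le (by norm_num) hp.M2
  have hL0 : 0 ≤ L := le_trans (by positivity) hL
  obtain ⟨W, hW0, hW1, hW2⟩ := hbn V S dep (fun t g => Ex (Sg t) (fun ω l => cutI L (nX S t) g
      (Fr p p.k (Sg t) (talv (npar S) (ndep dep) A t) (Ψ t) ω l))) (2 * L) hT (by positivity)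
    (fun t => ex_rep hb hM hL0 _ _ (hinv t).Ppos (hinv t).Psum _)
    (fun v g => by
      have h := (hrel (v, 1) (by simp [ndep])).T0 g
      rw [np1] at h
      rw [← h, nX1, nX0]
      exact ex_res hb L (Finset.subset_insert _ _) _ _ g)
    (fun v hv g => by
      have h := (hrel (v, 0) (by
        have := hT.tr.s v hv
        simp only [ndep]
        omega)).T0 (fun a => g (a ∩ S v))
      rw [np0] at h
      rw [← h, nX1, nX0]
      exact (ex_res hb L (hT.sub v hv) _ _ g).symm)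
    (fun v g => by
      have h := (hrel (v, 2) (by simp [ndep])).T0 (fun a => g (a ∩ {v}))
      rw [np2] at h
      rw [← h, nX1, nX2]
      exact (ex_res hb L (Finset.singleton_subset_iff.2 (Finset.mem_insert_self _ _)) _ _ g).symm)
    (fun v _ => by
      simp only [hb.ca.const, mul_one]
      exact ex_const hb hM _ (hinv _).Psum _)
  refine ⟨W, hW0, hW2, fun t => ⟨fun σ => Ψ (ch S dep t σ), fun σ => Sg (ch S dep t σ), ?_⟩⟩
  have halv : ∀ σ, σ ≤ ndep dep t → alv (fun σ => A (ch S dep t σ)) σ =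
      talv (npar S) (ndep dep) A (ch S dep t σ) := by
    intro σ hσ
    have h1 := hT.ch_dep t σ hσ
    unfold alv talv
    cases σ with
    | zero =>
      rw [if_pos h1]
      show A (ch S dep t 0) ∪ A (ch S dep t 0) = ∅
      rw [hA0 _ h1, Finset.union_empty]
    | succ σ => rw [if_neg (by omega), hT.ch_par t σ hσ, Nat.add_sub_cancel]
  refine ⟨fun σ hσ => ?_, fun σ _ => ?_, fun σ _ i => hlb _ i, fun σ hσ i => ?_, fun σ hσ => ?_,
    hW0, fun σ hσ g => ?_⟩
  · rw [halv σ hσ]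
    exact hinv _
  · have h1 := hA (ch S dep t (σ - 1))
    have h2 := hA (ch S dep t σ)
    have h3 := Finset.card_union_le (A (ch S dep t (σ - 1))) (A (ch S dep t σ))
    show (A (ch S dep t (σ - 1)) ∪ A (ch S dep t σ)).card ≤ p.N
    omega
  · have h1 := hT.ch_dep t (σ + 1) hσ
    have h := hstep (ch S dep t (σ + 1)) (by omega) i
    rw [hT.ch_par t σ hσ] at h
    exact h
  · have h1 := hT.ch_dep t (σ + 1) hσ
    have h := hrel (ch S dep t (σ + 1)) (by omega)
    rw [hT.ch_par t σ hσ] at h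
    rw [halv σ hσ.le, halv (σ + 1) hσ]
    exact h
  · rw [halv σ hσ]
    exact hW1 _ g

end TPK1Aux

theorem pk1 (hb : Base) (htm : TMS) (hbn : BNS) (hc : CNT1S) : PK1S := by
  intro V _ _ _ S dep p q m cl B L hp hk hΔ hζ0 hζ1 hN hT _ hch hB hd hL
  classical
  obtain ⟨R, hR1, hR2, hR3⟩ := hc V q m hΔ hζ0 hζ1
  have hX : ∀ t, (nX S t).card ≤ p.k + 1 := fun t => by
    have := (hch t).card _ le_rfl
    rwa [hT.ch_top] at this
  have hcap : ∀ i : {j // j ∈ R} × Finset V, 0 ≤ q.cap i.1.1 ∧ q.cap i.1.1 ≤ B := fun i => by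
    obtain ⟨s, t, h⟩ := hR2 _ i.1.2
    exact TPK1Aux.cap_bd q hζ0 hζ1 hB _ h (hd s t)
  obtain ⟨W, hW0, hW1, hW2⟩ := TPK1Aux.main hb htm hbn S dep p B L
    (fun t => (univ : Finset ({j // j ∈ R} × Finset V)).filter
      (fun i => ActG q cl (nX S t) i.1.1 i.2))
    (fun t i => psi (nX S t ∩ i.2) i.2 (q.cap i.1.1)) hp hT hB hL
    (fun t ht => by
      refine Finset.filter_eq_empty_iff.2 fun i _ h => ?_
      obtain ⟨s, hs, -⟩ := h.2
      rw [hT.root t ht] at hs
      exact Finset.notMem_empty _ hs)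
    hX
    (fun t => by
      have h1 : ((univ : Finset ({j // j ∈ R} × Finset V)).filter
          (fun i => ActG q cl (nX S t) i.1.1 i.2)).card ≤
          (((R.filter (fun j => act q (nX S t) j)) ×ˢ nX S t).image
            (fun x : Sc × V => (x.1, cl x.1 x.2))).card := by
        refine Finset.card_le_card_of_injOn (fun i => (i.1.1, i.2)) (fun i hi => ?_)
          (fun i _ i' _ h => ?_)
        · obtain ⟨h2, s, hs, h3⟩ := (Finset.mem_filter.1 (Finset.mem_coe.1 hi)).2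
          refine Finset.mem_coe.2 (Finset.mem_image.2 ⟨(i.1.1, s), ?_, ?_⟩)
          · exact Finset.mem_product.2 ⟨Finset.mem_filter.2 ⟨i.1.2, h2⟩, hs⟩
          · simp only [h3]
        · simp only [Prod.mk.injEq] at h
          exact Prod.ext (Subtype.ext h.1) h.2
      have h2 := h1.trans Finset.card_image_le
      rw [Finset.card_product] at h2
      have h3 := hR3 (nX S t) (by rw [hk]; exact hX t)
      rw [hk] at h3
      have h4 := h2.trans (Nat.mul_le_mul h3 (hX t))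
      have h5 : 2 * (p.k + 1) ^ 3 * (2 * p.k + 6 * m + 12) =
          2 * ((p.k + 1) ^ 2 * (2 * p.k + 6 * m + 12) * (p.k + 1)) := by ring
      rw [h5] at hN
      exact (Nat.mul_le_mul_left 2 h4).trans hN)
    (fun t i => ⟨hb.ps.lip V _ _ _, fun s => by
      rw [abs_of_nonneg (hb.ps.nonneg V _ _ _ s (hcap i).1)]
      exact (hb.ps.le_cap V _ _ _ s).trans (hcap i).2⟩)
    (fun t i s hs => hb.ps.zero V _ _ _ s (hcap i).1 (by
      by_cases h : s ∈ i.2
      · exact Or.inl (Finset.mem_inter.2 ⟨hs, h⟩)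
      · exact Or.inr h))
  refine ⟨W, hW0, hW1, {j // j ∈ R} × Finset V, inferInstance, inferInstance, fun i => i.1.1,
    fun i => i.2, fun t => ?_⟩
  obtain ⟨Ψ, St', h⟩ := hW2 t
  refine ⟨_, _, Ψ, St', h, fun σ _ i => ?_, fun σ _ j P hj => ?_, fun σ i => rfl⟩
  · simp only [Finset.mem_filter, Finset.mem_univ, true_and]
  · exact ⟨(⟨j, hR1 _ j hj.1⟩, P), rfl, rfl⟩

end

end Vale.Agent.P235
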