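import Vale.Agent.P235.Sts

namespace Vale.Agent.P235

open Finset
open scoped BigOperators

namespace TPK2Aux

theorem ind_inter {V : Type} [DecidableEq V] {s : V} {X : Finset V} (hs : s ∈ X) (C : Finset V) :
    ind s (C ∩ X) = ind s C := by
  simp [ind, hs]

theorem bridge {V ι : Type} [Fintype V] [LinearOrder V] [MetricSpace V] {q : GP}
    {cl : Sc → V → Finset V} {X : ℕ → Finset V} {T : ℕ} {A : ℕ → Finset ι} {Φ : ℕ → ι → V → ℝ}
    {sc : ι → Sc} {ce : ι → Finset V} (hI : Idx q cl X T A Φ sc ce) {j : Sc} {P : Finset V}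
    {b e : ℕ} (h : BornG q cl X j P b e) (he : e ≤ T) :
    ∃ i, Born A i b e ∧ Φ b i = psi (X b ∩ P) P (q.cap j) := by
  obtain ⟨h1, h2, h3, h4⟩ := h
  obtain ⟨i, rfl, rfl⟩ := hI.surj (b + 1) (by omega) j P h3
  exact ⟨i, ⟨h1, fun h => h2 ((hI.mem b (by omega) i).1 h), (hI.mem (b + 1) (by omega) i).2 h3,
    fun σ a1 a2 => (hI.mem σ (by omega) i).2 (h4 σ a1 a2)⟩, hI.phi b i⟩

theorem cost_nonneg {V : Type} [Fintype V] [DecidableEq V] {W : Finset V → ℝ} (hW : ∀ C, 0 ≤ W C)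
    (X : ℕ → Finset V) (g : ℕ → Finset V → ℝ) (σ : ℕ) : 0 ≤ cost W X g σ :=
  sum_nonneg fun C _ => mul_nonneg (hW C) (abs_nonneg _)

theorem tele {V : Type} [Fintype V] [DecidableEq V] {W : Finset V → ℝ} (hW : ∀ C, 0 ≤ W C)
    {X : ℕ → Finset V} {g : ℕ → Finset V → ℝ} {e T : ℕ} (he : e ≤ T) {x y : V}
    (hx : X T = {x}) (hg : ∀ a, g T a = ind x a) (hy : y ∈ X e) :
    ∑ C, W C * |g e (C ∩ X e) - ind y (C ∩ X e)| ≤ ∑ σ ∈ Ico e T, cost W X g σ + DW W x y := by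
  unfold cost DW
  rw [sum_comm, ← sum_add_distrib]
  refine sum_le_sum fun C _ => ?_
  rw [← mul_sum, ← mul_add]
  refine mul_le_mul_of_nonneg_left ?_ (hW C)
  have h1 := dist_le_Ico_sum_dist (fun σ => g σ (C ∩ X σ)) he
  simp only [Real.dist_eq] at h1
  rw [hg, ind_inter (by rw [hx]; exact mem_singleton_self x)] at h1
  rw [ind_inter hy, sum_congr rfl fun σ _ => abs_sub_comm _ _]
  linarith [abs_sub_le (g e (C ∩ X e)) (ind x C) (ind y C)]

end TPK2Aux

open TPK2Aux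

theorem pk2 (hb : Base) (hsa : SAS) (hsp : SPS) (hss : SSS) (hsh : SHS) (hsb : SBS) (hac : ACGS) :
    PK2S := by
  intro V ι _ _ _ _ _ p q c B L Rm cl X T A Φ Ψ S W sc ce hp hc hl hB hR hL hX hP hS hI
  have hk0 : (0 : ℝ) ≤ p.k := Nat.cast_nonneg _
  have hM : (0 : ℝ) < p.M := by have := hp.M2; positivity
  have hL1 : ((p.k : ℝ) + 2) * B ≤ L := by linarith
  have hL0 : 0 ≤ L := le_trans (by positivity) hL1
  have heb := hp.eb0
  have hM1 : (0 : ℝ) < 1 / p.M := by positivity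
  have he0 : 0 ≤ p.eb + 1 / (p.M : ℝ) := by positivity
  have hθ := hc.θ0
  have hε := hl.ε
  have hε1 := hc.ε1
  have ha := (hb.m0.a0 p hp).1
  rw [hl.k] at hε1
  have AC : ∀ e, e ≤ T → ACpad q cl (X e) → ∀ s ∈ X e, ∀ t ∈ X e, ∀ d : ℝ, 0 < d →
      d ≤ c.θ * dist s t →
      pcl (S e) (Fr p p.k (S e) (alv A e) (Ψ e)) s t d ≤ p.eb + 1 / p.M := by
    intro e he hpad s hs t ht d hd hd'
    have hst : s ≠ t := by
      rintro rfl
      rw [dist_self, mul_zero] at hd'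
      linarith
    obtain ⟨j, P, b, h1, h2⟩ := hac V q cl X T e s t hc.Δ3 (hl.k ▸ hX) hP he hs ht hst hpad
    obtain ⟨i, h3, h4⟩ := bridge hI h1 he
    obtain ⟨h5, h6, -⟩ := hsb V ι p B L X T A Φ Ψ S W (fun _ _ => 0) i b e hp hL0 hS hX.nest h3 he
    refine hsa V ι p B (S e) (alv A e) (Ψ e) i s t d hp (hS.inv e he) h6 hd ?_
    rw [h5, h4]
    have h7 := mul_le_mul_of_nonneg_left (hd'.trans (mul_le_mul_of_nonneg_left h2 hθ.le)) hM.le
    have h8 := mul_le_mul_of_nonneg_right hl.θ (abs_nonneg (psi (X b ∩ P) P (q.cap (false, j)) s -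
      psi (X b ∩ P) P (q.cap (false, j)) t))
    linarith
  have DWeq : ∀ s ∈ X T, ∀ t ∈ X T, DW W s t = Ex (S T) (fun ω l => cutI L (X T)
      (fun C => |ind s C - ind t C|) (Fr p p.k (S T) (alv A T) (Ψ T) ω l)) := by
    intro s hs t ht
    rw [← hS.marg T le_rfl]
    exact sum_congr rfl fun C _ => by rw [ind_inter hs, ind_inter ht]
  have SP := fun s (hs : s ∈ X T) t (ht : t ∈ X T) => hsp V ι p B L (X T) (S T) (alv A T) (Ψ T)
    s t hp (hS.inv T le_rfl) (hS.card T le_rfl) (hS.lb T le_rfl) hB hL1 hs ht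
  have hc3 : ((p.k : ℝ) + 1) ^ 3 ≤ ((p.k : ℝ) + 2) ^ 3 := by gcongr; norm_num
  have hc1 : (p.k : ℝ) + 1 ≤ ((p.k : ℝ) + 2) ^ 3 := by nlinarith [sq_nonneg ((p.k : ℝ) + 2)]
  have hc2 : ((p.k : ℝ) + 2) * (p.k + 1) ≤ ((p.k : ℝ) + 2) ^ 3 := by
    nlinarith [sq_nonneg ((p.k : ℝ) + 2), mul_nonneg hk0 (sq_nonneg ((p.k : ℝ) + 2))]
  refine ⟨fun s hs t ht => ?_, fun hpad s hs t ht => ?_, fun x t0 g hx hg hgT hD => ?_⟩
  · rw [DWeq s hs t ht]
    exact (SP s hs t ht).1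
  · rcases (dist_nonneg (x := s) (y := t)).eq_or_lt with h | h
    · rw [← h, mul_zero]
      exact sum_nonneg fun C _ => mul_nonneg (hS.W0 C) (abs_nonneg _)
    · have h1 := (SP s hs t ht).2 _ _ (by positivity)
        (AC T le_rfl hpad s hs t ht (c.θ * dist s t) (by positivity) le_rfl)
      rw [← DWeq s hs t ht] at h1
      have h2 : p.eb + 1 / (p.M : ℝ) ≤ 1 / 2 := by
        have h3 : 1 * (2 * p.eb + 1 / (p.M : ℝ)) ≤
            ((p.k : ℝ) + 2) ^ 3 * (2 * p.eb + 1 / p.M) :=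
          mul_le_mul_of_nonneg_right (by linarith) (by positivity)
        nlinarith [hc.ε0]
      have h3 : 0 < c.θ * dist s t := by positivity
      nlinarith
  · refine ⟨fun e s => Ex (S e) fun ω l =>
      cc (X e) (g e) (Fr p p.k (S e) (alv A e) (Ψ e) ω l) s, ?_, ?_⟩
    · intro e he hpad j P b _ hborn J hJ h δ D h0 hD0 hDR hψ hfar h4
      obtain ⟨i, h3, h5⟩ := bridge hI hborn he
      obtain ⟨h6, h7, h8⟩ := hsb V ι p B L X T A Φ Ψ S W g i b e hp hL0 hS hX.nest h3 he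
      have hδ : 0 ≤ δ := by
        obtain ⟨w, hw, -⟩ := hborn.2.2.1.2
        obtain ⟨z, hz, -⟩ := hX.sep (b + 1) e T hborn.1 he le_rfl w hw x
          (by rw [hx]; exact mem_singleton_self x)
        exact (abs_nonneg _).trans (hψ z hz)
      have hθD : c.θ * D ≤ D := mul_le_of_le_one_left hD0.le hc.θ1
      obtain ⟨w, w1, w2, w3⟩ := hss V ι p B L (X e) J (S e) (alv A e) (Ψ e) i (g e) h δ (c.θ * D)
        (p.eb + 1 / p.M) hp (hS.inv e he) (hS.card e he) (hS.lb e he) hB (hX.card e he) h7 hJ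
        (hg e) h0 hδ (by positivity) he0 (by linarith) (by rw [h6, h5]; exact hψ)
        (fun s hs t ht htJ => AC e he hpad s (hJ hs) t ht _ (by positivity)
          (mul_le_mul_of_nonneg_left (hfar s hs t ht htJ) hθ.le)) (by rw [← hl.a]; exact h4)
      have h9 := h8 w w1 w2
      have h10 : ((p.k : ℝ) + 1) * (p.eb + ((p.k : ℝ) + 1) ^ 2 * (p.eb + 1 / p.M)) ≤ c.ε := by
        have a1 := mul_le_mul_of_nonneg_right hc3 he0
        have a2 := mul_le_mul_of_nonneg_right hc1 heb.le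
        nlinarith
      have h11 : 0 ≤ p.a * h * m2 p.M :=
        mul_nonneg (mul_nonneg ha.le h0) (hb.ex.m2pos _ hp.M2).le
      have h12 := mul_le_mul_of_nonneg_left h10 h11
      rw [hl.a, hl.m, hl.k]
      linarith
    · intro e ht0 he hpad y hy r R hr hR0 hRR hgap hrR
      rw [hl.k] at hrR ⊢
      have hθR : c.θ * R ≤ R := mul_le_of_le_one_left hR0.le hc.θ1
      have h1 := hsh V ι p B L (X e) ((X e).filter fun s => dist s y ≤ r) (S e) (alv A e) (Ψ e)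
        (g e) y r (c.θ * R) (p.eb + 1 / p.M) hp (hS.inv e he) (hS.card e he) (hS.lb e he) hB
        (hX.card e he) (filter_subset _ _) (mem_filter.2 ⟨hy, by rwa [dist_self]⟩) (hg e) he0
        (by linarith) (fun s hs => (mem_filter.1 hs).2) hrR
        (fun s hs hsJ => AC e he hpad s hs y hy _ (by positivity)
          (mul_le_mul_of_nonneg_left ((hgap s hs).resolve_left
            fun h => hsJ (mem_filter.2 ⟨hs, h⟩)) hθ.le))
      rw [← hS.marg e he] at h1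
      have h2 := tele hS.W0 he hx hgT hy
      have h3 : ∑ σ ∈ Ico e T, cost W X g σ ≤ ∑ σ ∈ Ico t0 T, cost W X g σ :=
        sum_le_sum_of_subset_of_nonneg (Ico_subset_Ico ht0 le_rfl)
          fun σ _ _ => cost_nonneg hS.W0 X g σ
      have h4 : ((p.k : ℝ) + 2) * (p.k + 1) * (p.eb + 1 / p.M) ≤ c.ε := by
        have a1 := mul_le_mul_of_nonneg_right hc2 he0
        have a2 : 0 ≤ ((p.k : ℝ) + 2) ^ 3 * p.eb := by positivity
        nlinarith
      have h5 := mul_le_mul_of_nonneg_right h4 (sub_nonneg.2 hrR)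
      have h6 := hD x y
      nlinarith

end Vale.Agent.P235
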