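import Vale.Agent.P235.Sts

namespace Vale.Agent.P235

open Finset
open scoped BigOperators

namespace TPK3Aux

variable {V : Type} [Fintype V] [LinearOrder V]

/-- The part of the vertex set seen from a node. -/
noncomputable def NN (S : V → Finset V) (t : Nd V) : Finset V :=
  if t.2 = 0 then (desc S t.1)ᶜ else if t.2 = 1 then insert t.1 (desc S t.1)ᶜ else univ

/-- `H` depends only on the trace on `N`. -/
def Meas (N : Finset V) (H : Finset V → ℝ) : Prop := ∀ C, H (C ∩ N) = H C

/-- `m` is the conditional probability of `x` at the node `t`. -/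
def PP (S : V → Finset V) (W : Finset V → ℝ) (x : V) (t : Nd V) (m : Finset V → ℝ) : Prop :=
  U01 m ∧ ∀ H, Meas (NN S t) H →
    ∑ C, W C * (ind x C * H C) = ∑ C, W C * (m (C ∩ nX S t) * H C)

omit [Fintype V] in
theorem Meas.mono {N N' : Finset V} {H : Finset V → ℝ} (h : Meas N H) (hN : N ⊆ N') :
    Meas N' H := fun C => by
  rw [← h (C ∩ N'), inter_assoc, inter_eq_right.mpr hN, h C]

theorem mem_desc {S : V → Finset V} {v z : V} : z ∈ desc S v ↔ Desc S v z := by
  simp [desc]

omit [Fintype V] in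
theorem ind01 (x : V) : U01 (ind x) := fun a => by
  unfold ind
  split_ifs <;> norm_num

omit [Fintype V] in
theorem ind_inter {x : V} {N : Finset V} (h : x ∈ N) (C : Finset V) : ind x (C ∩ N) = ind x C := by
  simp [ind, h]

theorem fin3 (i : Fin 3) : i = 0 ∨ i = 1 ∨ i = 2 := by
  revert i
  decide

theorem not_desc {S : V → Finset V} {dep : V → ℕ} (hT : TreeF S dep) {u z : V} (h : z < u) :
    z ∈ (desc S u)ᶜ := by
  rw [mem_compl, mem_desc]
  exact fun h' => absurd (hT.le _ _ h') (not_le.mpr h)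

theorem nX_sub {S : V → Finset V} {dep : V → ℕ} (hT : TreeF S dep) (t : Nd V) :
    nX S t ⊆ NN S t := by
  obtain ⟨u, i⟩ := t
  have h : S u ⊆ (desc S u)ᶜ := fun z hz => not_desc hT (hT.lt _ _ hz)
  rcases fin3 i with rfl | rfl | rfl
  · simpa [nX, NN] using h
  · simpa [nX, NN] using insert_subset_insert u h
  · simp [nX, NN]

omit [Fintype V] in
theorem ne_of_dep {S : V → Finset V} {dep : V → ℕ} (hT : TreeF S dep) {u : V}
    (h : ndep dep ((u, 0) : Nd V) ≠ 0) : (S u).Nonempty := by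
  by_contra h'
  apply h
  simp [ndep, hT.tr.z u h']

theorem NN_par {S : V → Finset V} {dep : V → ℕ} (hT : TreeF S dep) {t : Nd V}
    (h : ndep dep t ≠ 0) : NN S (npar S t) ⊆ NN S t := by
  obtain ⟨u, i⟩ := t
  rcases fin3 i with rfl | rfl | rfl
  · have hne := ne_of_dep hT h
    have h1 : NN S (npar S (u, 0)) = insert (par S u) (desc S (par S u))ᶜ := by simp [npar, NN]
    have h2 : NN S (u, 0) = (desc S u)ᶜ := by simp [NN]
    rw [h1, h2]
    intro z hz
    rcases mem_insert.mp hz with rfl | hz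
    · exact not_desc hT (hT.lt _ _ (hT.parmem _ hne))
    · rw [mem_compl, mem_desc] at hz ⊢
      exact fun h' => hz (hT.trans _ _ _ (hT.anc _ _ (hT.parmem _ hne)) h')
  · simp [npar, NN]
  · simp [NN]

theorem PP_res {S : V → Finset V} {W : Finset V → ℝ} {x : V} {t t' : Nd V} {m : Finset V → ℝ}
    (h : PP S W x t m) (h1 : nX S t ⊆ nX S t') (h2 : NN S t' ⊆ NN S t) :
    PP S W x t' (fun a => m (a ∩ nX S t)) := by
  refine ⟨fun a => h.1 _, fun H hH => ?_⟩
  rw [h.2 H (hH.mono h2)]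
  refine sum_congr rfl fun C _ => ?_
  simp only [inter_assoc, inter_eq_right.mpr h1]

theorem PP_step {S : V → Finset V} {dep : V → ℕ} (hT : TreeF S dep) {W : Finset V → ℝ}
    (hCI : CI S W) {x : V} {t : Nd V} {m : Finset V → ℝ} (h : PP S W x t m)
    (hd : ndep dep t ≠ 0) : ∃ m', PP S W x (npar S t) m' := by
  have hN := NN_par hT hd
  obtain ⟨u, i⟩ := t
  rcases fin3 i with rfl | rfl | rfl
  · refine ⟨_, PP_res h ?_ hN⟩
    simpa [nX, npar] using hT.sub u (ne_of_dep hT hd)
  · obtain ⟨φ, hφ, hφ'⟩ := hCI u m h.1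
    refine ⟨φ, hφ, fun H hH => ?_⟩
    rw [h.2 H (hH.mono hN)]
    have h1 : NN S (npar S (u, 1)) = (desc S u)ᶜ := by simp [npar, NN]
    have h2 : ∀ C, H (C \ desc S u) = H C := fun C => by
      rw [sdiff_eq_inter_compl, ← h1, hH C]
    have h3 := hφ' H
    simp only [h2] at h3
    simpa [nX, npar] using h3
  · refine ⟨_, PP_res h ?_ hN⟩
    simp [nX, npar]

theorem PP_top (S : V → Finset V) (W : Finset V → ℝ) (x : V) : PP S W x (x, 2) (ind x) := by
  refine ⟨ind01 x, fun H _ => sum_congr rfl fun C _ => ?_⟩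
  rw [ind_inter]
  simp [nX]

theorem PP_all {S : V → Finset V} {dep : V → ℕ} (hT : TreeF S dep) {W : Finset V → ℝ}
    (hCI : CI S W) (x : V) : ∀ j σ, σ + j = ndep dep (x, 2) →
      ∃ m, PP S W x (ch S dep (x, 2) σ) m := by
  intro j
  induction j with
  | zero =>
    intro σ h
    rw [Nat.add_zero] at h
    rw [h, hT.ch_top]
    exact ⟨_, PP_top S W x⟩
  | succ j ih =>
    intro σ h
    obtain ⟨m, hm⟩ := ih (σ + 1) (by omega)
    rw [← hT.ch_par _ σ (by omega)]
    refine PP_step hT hCI hm ?_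
    rw [hT.ch_dep _ _ (by omega)]
    omega

omit [Fintype V] in
theorem nX_card {S : V → Finset V} {k : ℕ} (h : ∀ v, (S v).card ≤ k) (t : Nd V) :
    (nX S t).card ≤ k + 1 := by
  unfold nX
  have h1 := h t.1
  have h2 := card_insert_le t.1 (S t.1)
  split_ifs
  · omega
  · omega
  · simp

theorem DW_ge {S : V → Finset V} {W : Finset V → ℝ} (hW : ∀ C, 0 ≤ W C) {x y : V} {t : Nd V}
    {m : Finset V → ℝ} (h : PP S W x t m) (hy : y ∈ NN S t) :
    ∑ C, W C * (m (C ∩ nX S t) * (1 - m (C ∩ nX S t))) ≤ DW W x y := by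
  have h1 := h.2 (fun C => 1 - 2 * ind y C) (fun C => by simp only [ind_inter hy])
  have h2 : DW W x y = ∑ C, W C * (ind x C * (1 - 2 * ind y C)) + ∑ C, W C * ind y C := by
    unfold DW
    rw [← sum_add_distrib]
    refine sum_congr rfl fun C _ => ?_
    unfold ind
    split_ifs <;> norm_num
  rw [h2, h1, ← sum_add_distrib]
  refine sum_le_sum fun C _ => ?_
  rw [← mul_add]
  refine mul_le_mul_of_nonneg_left ?_ (hW C)
  obtain ⟨a0, a1⟩ := h.1 (C ∩ nX S t)
  unfold ind
  split_ifs <;> nlinarith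

end TPK3Aux

open TPK3Aux in
theorem pk3 (hmk : MKS) : PK3S := by
  intro k
  obtain ⟨c, hc, hM⟩ := hmk (2 ^ (k + 1))
  refine ⟨c, hc, fun V _ _ S dep W v x y hT hk hW hCI hvx hvy => ?_⟩
  have hex : ∀ σ, ∃ m : Finset V → ℝ, U01 m ∧
      (σ ≤ ndep dep (x, 2) → PP S W x (ch S dep (x, 2) σ) m) ∧
      (σ = ndep dep (x, 2) → m = ind x) := by
    intro σ
    by_cases h : σ < ndep dep (x, 2)
    · obtain ⟨m, hm⟩ := PP_all hT hCI x (ndep dep (x, 2) - σ) σ (by omega)
      exact ⟨m, hm.1, fun _ => hm, fun h' => absurd h' h.ne⟩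
    · refine ⟨ind x, ind01 x, fun h' => ?_, fun _ => rfl⟩
      rw [le_antisymm h' (not_lt.mp h), hT.ch_top]
      exact PP_top S W x
  choose m hm1 hm2 hm3 using hex
  obtain ⟨hd, hch⟩ := hT.ch_desc x v hvx
  have ht0 : 2 * dep v ≤ ndep dep (x, 2) := by
    unfold ndep
    simp only
    omega
  obtain ⟨th, h0, h1, h2⟩ := hM (Finset V) W (2 * dep v) (ndep dep (x, 2))
    (fun σ C => m σ (C ∩ nX S (ch S dep (x, 2) σ))) ht0 hW (fun σ C => hm1 σ _)
    (fun C => by
      simp only [hm3 _ rfl]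
      unfold ind
      split_ifs
      · exact Or.inr rfl
      · exact Or.inl rfl)
    (fun σ => by
      refine ⟨(nX S (ch S dep (x, 2) σ)).powerset.image (m σ), ?_, fun C => ?_⟩
      · refine card_image_le.trans ?_
        rw [card_powerset]
        exact Nat.pow_le_pow_right (by norm_num) (nX_card hk _)
      · exact mem_image_of_mem _ (mem_powerset.mpr inter_subset_right))
    (fun σ _ hσ φ => by
      have a1 : Meas (nX S (ch S dep (x, 2) σ))
          (fun C => φ (m σ (C ∩ nX S (ch S dep (x, 2) σ)))) := fun C => by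
        simp only [inter_assoc, inter_self]
      have a2 := a1.mono (nX_sub hT _)
      have a3 : NN S (ch S dep (x, 2) σ) ⊆ NN S (ch S dep (x, 2) (σ + 1)) := by
        rw [← hT.ch_par _ σ hσ]
        refine NN_par hT ?_
        rw [hT.ch_dep _ _ hσ]
        omega
      exact ((hm2 (σ + 1) hσ).2 _ (a2.mono a3)).symm.trans ((hm2 σ hσ.le).2 _ a2))
  refine ⟨fun σ a => if th σ < m σ a then 1 else 0, fun σ a => ?_, fun a => ?_, ?_⟩
  · dsimp only
    split_ifs <;> norm_num
  · simp only [hm3 _ rfl]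
    unfold ind
    by_cases hx : x ∈ a
    · simp [hx, h1]
    · simp [hx, h0.le]
  · refine h2.trans (mul_le_mul_of_nonneg_left ?_ hc.le)
    refine DW_ge hW (hm2 _ ht0) ?_
    rw [hch]
    simpa [NN, mem_desc] using hvy

end Vale.Agent.P235
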