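import Vale.Agent.P235.Sts

namespace Vale.Agent.P235

open Finset
open scoped BigOperators

namespace TSAPAux

theorem one {M : ℕ} (c : Fin M → Prop) [DecidablePred c] (h : ∀ j j', c j → c j' → j = j') :
    𝔼 j : Fin M, (if c j then (1 : ℝ) else 0) ≤ 1 / M := by
  rw [Fintype.expect_eq_sum_div_card, Fintype.card_fin, sum_boole]
  refine div_le_div_of_nonneg_right ?_ (Nat.cast_nonneg _)
  exact_mod_cast card_le_one.2 fun j hj j' hj' => h j j' (mem_filter.1 hj).2 (mem_filter.1 hj').2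

theorem const (hb : Base) {V ι : Type} [MetricSpace V] [Fintype ι] [DecidableEq ι] {p : MP}
    {B : ℝ} {S : St V ι} {A : Finset ι} (hp : p.OK) (hI : Inv p p.k B S A) (c : ℝ) :
    Ex S (fun _ (_ : ι → Fin p.M) => c) = c := by
  rw [hb.ex.om V ι p.M S (fun _ => c) (by linarith [hp.M2]), ← sum_mul, hI.Psum, one_mul]

end TSAPAux

theorem sa (hb : Base) : SAS := by
  intro V ι _ _ _ _ p B S A ψ i s t d hp hI hi hd hM
  have hM0 : (0 : ℝ) < p.M := by exact_mod_cast (by linarith [hp.M2] : 0 < p.M)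
  have : Nonempty (Fin p.M) := ⟨⟨0, by linarith [hp.M2]⟩⟩
  have ha := (hb.m0.a0 p hp).1
  have key : ∀ ω, 𝔼 l : ι → Fin p.M,
      (if |Fr p p.k S A ψ ω l s - Fr p p.k S A ψ ω l t| < d then (1 : ℝ) else 0) ≤
        1 + 1 / p.M - S.β ω i := by
    intro ω
    rcases hI.β01 ω i with h | h
    · refine expect_le univ_nonempty fun l _ => ?_
      have : (0 : ℝ) < 1 / p.M := by positivity
      split_ifs <;> linarith
    · rw [hb.ex.resample ι p.M i, h, add_sub_cancel_left]
      refine expect_le univ_nonempty fun l _ => TSAPAux.one _ fun j j' h1 h2 => ?_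
      by_contra hne
      have h3 := hb.ex.vsep p.M j j' hp.M2 hne
      simp only [hb.m0.split V ι p p.k S A ψ i hi, hb.m0.upd V ι p p.k S _ ψ i (notMem_erase i A),
        Function.update_self, h, one_mul] at h1 h2
      have h4 : |vv p.M j - vv p.M j'| * (p.a * |ψ i s - ψ i t|) < 2 * d := by
        rw [← abs_of_pos ha, ← abs_mul, ← abs_mul, abs_lt]
        rw [abs_lt] at h1 h2
        constructor <;> linarith [h1.1, h1.2, h2.1, h2.2]
      have h5 := mul_le_mul h3 hM (by positivity) (abs_nonneg _)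
      rw [← mul_assoc, div_mul_cancel₀ _ hM0.ne'] at h5
      linarith
  refine (sum_le_sum fun ω _ => mul_le_mul_of_nonneg_left (key ω) (hI.Ppos ω).le).trans ?_
  simp only [mul_sub]
  rw [sum_sub_distrib, ← sum_mul, hI.Psum]
  linarith [hI.fl i hi]

theorem sp (hb : Base) : SPS := by
  intro V ι _ _ _ _ p B L X S A ψ s t hp hI hA hψ hB hL hs ht
  have bd : ∀ ω l s, |Fr p p.k S A ψ ω l s| ≤ L := fun ω l s =>
    (hb.m0.bd V ι p p.k B S A A ψ hp hI hA hψ hB ω l s).trans (by linarith)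
  simp only [fun ω l => hb.ca.xor V L X (Fr p p.k S A ψ ω l) s t hs ht (bd ω l s) (bd ω l t)]
  have P0 := fun ω => (hI.Ppos ω).le
  refine ⟨(hb.ex.mono V ι p.M S _ _ P0 fun ω l =>
    hb.m0.lip V ι p p.k B S A A ψ hp hI hA hψ ω l s t).trans (TSAPAux.const hb hp hI _).le,
    fun d e hd he => ?_⟩
  refine le_trans ?_ (hb.ex.mono V ι p.M S (fun ω l => d * 1 + -d *
    if |Fr p p.k S A ψ ω l s - Fr p p.k S A ψ ω l t| < d then 1 else 0) _ P0 fun ω l => ?_)
  · rw [hb.ex.lin, TSAPAux.const hb hp hI]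
    have := mul_le_mul_of_nonneg_left he hd
    unfold pcl at this
    linarith
  · split_ifs with h
    · linarith [abs_nonneg (Fr p p.k S A ψ ω l s - Fr p p.k S A ψ ω l t)]
    · linarith [not_lt.1 h]

theorem sh (hb : Base) : SHS := by
  intro V ι _ _ _ _ p B L X J S A ψ g y r R e hp hI hA hψ hB hX hJ hy hg he hL hr hR hc
  have hk : (0 : ℝ) ≤ p.k := Nat.cast_nonneg _
  have hr0 : 0 ≤ r := dist_nonneg.trans (hr y hy)
  have hX' : (X.card : ℝ) ≤ p.k + 1 := by exact_mod_cast hX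
  have hL0 : 0 ≤ L := by nlinarith [mul_nonneg hk hB, mul_nonneg hk hr0]
  have hρ : 0 ≤ R - ((p.k : ℝ) + 1) * r := sub_nonneg.2 hR
  set ρ := R - ((p.k : ℝ) + 1) * r with hρd
  refine le_trans ?_ (hb.ex.mono V ι p.M S (fun ω l => 1 * (ρ * 1 + -ρ *
    ∑ s ∈ J, cc X g (Fr p p.k S A ψ ω l) s) + -(((p.k : ℝ) + 2) * ρ) * ∑ s ∈ X \ J,
      if |Fr p p.k S A ψ ω l s - Fr p p.k S A ψ ω l y| < R then 1 else 0) _
    (fun ω => (hI.Ppos ω).le) fun ω l => ?_)
  · rw [hb.ex.lin, hb.ex.lin, TSAPAux.const hb hp hI, hb.ex.sum, hb.ex.sum]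
    have h1 : ∑ s ∈ X \ J, pcl S (Fr p p.k S A ψ) s y R ≤ (p.k + 1) * e := by
      refine (sum_le_card_nsmul _ _ e fun s hs =>
        hc s (mem_sdiff.1 hs).1 (mem_sdiff.1 hs).2).trans ?_
      rw [nsmul_eq_mul]
      exact mul_le_mul_of_nonneg_right
        (le_trans (Nat.cast_le.2 (card_le_card sdiff_subset)) hX') he
    have := mul_le_mul_of_nonneg_left h1 (mul_nonneg (by linarith : 0 ≤ (p.k : ℝ) + 2) hρ)
    unfold pcl at this
    linarith
  · by_cases h : ∃ s ∈ X \ J, |Fr p p.k S A ψ ω l s - Fr p p.k S A ψ ω l y| < R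
    · obtain ⟨s, hs, h⟩ := h
      have h0 := hb.ca.mono V L X (fun _ => 0) (fun C => |g C - ind y C|) (Fr p p.k S A ψ ω l) hL0
        fun _ _ => abs_nonneg _
      rw [hb.ca.const, mul_zero] at h0
      have h1 := single_le_sum (f := fun s =>
        if |Fr p p.k S A ψ ω l s - Fr p p.k S A ψ ω l y| < R then (1 : ℝ) else 0)
        (fun _ _ => by split_ifs <;> norm_num) hs
      rw [if_pos h] at h1
      have h2 := card_nsmul_le_sum J (cc X g (Fr p p.k S A ψ ω l)) (-1) fun s _ => by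
        unfold cc
        linarith [(hg (up X (Fr p p.k S A ψ ω l) s)).1,
          (hg ((up X (Fr p p.k S A ψ ω l) s).erase s)).2]
      rw [nsmul_eq_mul] at h2
      have h3 : (J.card : ℝ) ≤ p.k + 1 := le_trans (Nat.cast_le.2 (card_le_card hJ)) hX'
      have h4 := mul_le_mul_of_nonneg_left h1 (mul_nonneg (by linarith : 0 ≤ (p.k : ℝ) + 2) hρ)
      have h5 := mul_le_mul_of_nonneg_left (show -((p.k : ℝ) + 1) ≤ _ from le_trans (by linarith) h2) hρ
      linarith
    · push Not at h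
      rw [sum_eq_zero fun s hs => if_neg (h s hs).not_gt]
      have := hb.chs V L X J g (Fr p p.k S A ψ ω l) y ((p.k + 1) * r) R hJ hy hg
        (fun s hs => (hb.m0.lip V ι p p.k B S A A ψ hp hI hA hψ ω l s y).trans
          (mul_le_mul_of_nonneg_left (hr s hs) (by linarith)))
        (fun s hs hs' => h s (mem_sdiff.2 ⟨hs, hs'⟩)) hR fun s _ => by
          linarith [hb.m0.bd V ι p p.k B S A A ψ hp hI hA hψ hB ω l s]
      linarith

end Vale.Agent.P235
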