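import Vale.Agent.P235.Sts

namespace Vale.Agent.P235

open Finset
open scoped BigOperators

namespace TSBAux

theorem cut_abs (hb : Base) {V : Type} [LinearOrder V] {L : ℝ} (hL : 0 ≤ L) (X : Finset V)
    (g1 g2 : Finset V → ℝ) (F : V → ℝ) :
    |cutI L X g1 F - cutI L X g2 F| ≤ cutI L X (fun A => |g1 A - g2 A|) F := by
  have h1 := hb.ca.lin V L X g1 g2 F 1 (-1)
  have h2 := hb.ca.lin V L X g2 g1 F 1 (-1)
  have h3 := hb.ca.mono V L X (fun A => 1 * g1 A + -1 * g2 A) (fun A => |g1 A - g2 A|) F hL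
    (fun A _ => by linarith [le_abs_self (g1 A - g2 A)])
  have h4 := hb.ca.mono V L X (fun A => 1 * g2 A + -1 * g1 A) (fun A => |g1 A - g2 A|) F hL
    (fun A _ => by linarith [neg_abs_le (g1 A - g2 A)])
  rw [abs_le]
  constructor <;> linarith

theorem ex_abs (hb : Base) {V ι : Type} [Fintype ι] [DecidableEq ι] {M : ℕ} (S : St V ι)
    (hP : ∀ ω, 0 ≤ S.P ω) (f1 f2 h : S.Ω → (ι → Fin M) → ℝ)
    (hf : ∀ ω l, |f1 ω l - f2 ω l| ≤ h ω l) : |Ex S f1 - Ex S f2| ≤ Ex S h := by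
  have h1 := hb.ex.lin V ι M S f1 f2 1 (-1)
  have h2 := hb.ex.lin V ι M S f2 f1 1 (-1)
  have h3 := hb.ex.mono V ι M S (fun ω l => 1 * f1 ω l + -1 * f2 ω l) h hP
    (fun ω l => by linarith [(abs_le.1 (hf ω l)).2])
  have h4 := hb.ex.mono V ι M S (fun ω l => 1 * f2 ω l + -1 * f1 ω l) h hP
    (fun ω l => by linarith [(abs_le.1 (hf ω l)).1])
  rw [abs_le]
  constructor <;> linarith

theorem cmp (hb : Base) {V ι : Type} [Fintype V] [LinearOrder V] [Fintype ι] [DecidableEq ι]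
    {M : ℕ} (hM : 2 ≤ M) {L : ℝ} (hL : 0 ≤ L) (S : St V ι) (hP : ∀ ω, 0 ≤ S.P ω) (X : Finset V)
    (F : S.Ω → (ι → Fin M) → V → ℝ) (W : Finset V → ℝ)
    (hm : ∀ g, ∑ C, W C * g (C ∩ X) = Ex S (fun ω l => cutI L X g (F ω l)))
    (w : S.Ω → (ι → Fin M) → ℝ) (hw : W01 w) (i : ι) (g1 g2 : Finset V → ℝ) :
    |Ex S (fun ω l => w ω l * vv M (l i) * cutI L X g1 (F ω l)) -
      Ex S (fun ω l => w ω l * vv M (l i) * cutI L X g2 (F ω l))| ≤
      ∑ C, W C * |g1 (C ∩ X) - g2 (C ∩ X)| := by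
  rw [hm (fun A => |g1 A - g2 A|)]
  refine ex_abs hb S hP _ _ _ fun ω l => ?_
  have h1 : |w ω l * vv M (l i)| ≤ 1 := by
    rw [abs_mul, abs_of_nonneg (hw ω l).1]
    exact mul_le_one₀ (hw ω l).2 (abs_nonneg _) (hb.ex.vabs M (l i) hM)
  rw [← mul_sub, abs_mul]
  calc _ ≤ 1 * |cutI L X g1 (F ω l) - cutI L X g2 (F ω l)| :=
        mul_le_mul_of_nonneg_right h1 (abs_nonneg _)
    _ ≤ _ := by rw [one_mul]; exact cut_abs hb hL X g1 g2 _

theorem step {V : Type} [Fintype V] [LinearOrder V] (X X' : Finset V)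
    (Λ Λ' : (Finset V → ℝ) → ℝ) (g g' W : Finset V → ℝ) (Bd : ℝ) (h1 : |Λ g| ≤ Bd)
    (h2 : ∀ g1 g2, |Λ g1 - Λ g2| ≤ ∑ C, W C * |g1 (C ∩ X) - g2 (C ∩ X)|)
    (h3 : ∀ g1 g2, |Λ' g1 - Λ' g2| ≤ ∑ C, W C * |g1 (C ∩ X') - g2 (C ∩ X')|)
    (r1 : X ⊆ X' → ∀ g, Λ' (fun a => g (a ∩ X)) = Λ g)
    (r2 : X' ⊆ X → ∀ g, Λ (fun a => g (a ∩ X')) = Λ' g) (hn : X ⊆ X' ∨ X' ⊆ X) :
    |Λ' g'| ≤ Bd + ∑ C, W C * |g' (C ∩ X') - g (C ∩ X)| := by
  rcases hn with h | h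
  · have h4 := h3 g' (fun a => g (a ∩ X))
    have e : ∀ C : Finset V, C ∩ X' ∩ X = C ∩ X := fun C => by
      rw [inter_assoc, inter_eq_right.2 h]
    simp only [e, r1 h] at h4
    linarith [abs_sub_abs_le_abs_sub (Λ' g') (Λ g)]
  · have h4 := h2 (fun a => g' (a ∩ X')) g
    have e : ∀ C : Finset V, C ∩ X ∩ X' = C ∩ X' := fun C => by
      rw [inter_assoc, inter_eq_right.2 h]
    simp only [e, r2 h] at h4
    linarith [abs_sub_abs_le_abs_sub (Λ' g') (Λ g)]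

end TSBAux

open TSBAux in
theorem sb (hb : Base) : SBS := by
  intro V ι _ _ _ _ _ p B L X T A Φ Ψ S W g i b e hp hL hc hn hB heT
  obtain ⟨hbe, hib, hib1, hiA⟩ := hB
  have hP : ∀ σ, σ ≤ T → ∀ ω, 0 ≤ (S σ).P ω := fun σ hσ ω => ((hc.inv σ hσ).Ppos ω).le
  have main : ∀ σ, b + 1 ≤ σ → σ ≤ e → Ψ σ i = Φ b i ∧
      ∀ w : (S σ).Ω → (ι → Fin p.M) → ℝ, W01 w → Indep w i →
        |Ex (S σ) (fun ω l => w ω l * vv p.M (l i) *
          cutI L (X σ) (g σ) (Fr p p.k (S σ) (alv A σ) (Ψ σ) ω l))| ≤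
          ∑ τ ∈ Ico b σ, cost W X g τ := by
    have gen : ∀ σ, b ≤ σ → σ + 1 ≤ e → ∀ w : (S (σ + 1)).Ω → (ι → Fin p.M) → ℝ, W01 w →
        |Ex (S (σ + 1)) (fun ω l => w ω l * vv p.M (l i) * cutI L (X σ) (g σ)
          (Fr p p.k (S (σ + 1)) (alv A (σ + 1)) (Ψ (σ + 1)) ω l))| ≤ ∑ τ ∈ Ico b σ, cost W X g τ →
        (∀ g1 g2, |Ex (S (σ + 1)) (fun ω l => w ω l * vv p.M (l i) * cutI L (X σ) g1
          (Fr p p.k (S (σ + 1)) (alv A (σ + 1)) (Ψ (σ + 1)) ω l)) -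
          Ex (S (σ + 1)) (fun ω l => w ω l * vv p.M (l i) * cutI L (X σ) g2
          (Fr p p.k (S (σ + 1)) (alv A (σ + 1)) (Ψ (σ + 1)) ω l))| ≤
            ∑ C, W C * |g1 (C ∩ X σ) - g2 (C ∩ X σ)|) →
        |Ex (S (σ + 1)) (fun ω l => w ω l * vv p.M (l i) * cutI L (X (σ + 1)) (g (σ + 1))
          (Fr p p.k (S (σ + 1)) (alv A (σ + 1)) (Ψ (σ + 1)) ω l))| ≤
          ∑ τ ∈ Ico b (σ + 1), cost W X g τ := by
      intro σ hbσ hσe w hw h1 h2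
      rw [Finset.sum_Ico_succ_top hbσ]
      refine step (X σ) (X (σ + 1))
        (fun g => Ex (S (σ + 1)) (fun ω l => w ω l * vv p.M (l i) * cutI L (X σ) g
          (Fr p p.k (S (σ + 1)) (alv A (σ + 1)) (Ψ (σ + 1)) ω l)))
        (fun g => Ex (S (σ + 1)) (fun ω l => w ω l * vv p.M (l i) * cutI L (X (σ + 1)) g
          (Fr p p.k (S (σ + 1)) (alv A (σ + 1)) (Ψ (σ + 1)) ω l)))
        (g σ) (g (σ + 1)) W _ h1 h2 ?_ ?_ ?_ (hn σ (by omega))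
      · exact cmp hb hp.M2 hL _ (hP _ (by omega)) _ _ W (hc.marg _ (by omega)) w hw i
      · intro h g
        simp only [hb.ca.res V L _ _ g _ h]
      · intro h g
        simp only [hb.ca.res V L _ _ g _ h]
    intro σ hσ
    induction σ, hσ using Nat.le_induction with
    | base =>
      intro h
      refine ⟨by rw [hc.step b (by omega), if_neg hib], fun w hw hi => ?_⟩
      have h0 := (hc.rel b (by omega)).T2 i (mem_sdiff.2 ⟨hib1, hib⟩) w hi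
      refine gen b le_rfl h w hw ?_ fun g1 g2 => ?_
      · rw [h0]; simp
      · rw [h0, h0, sub_zero, abs_zero]
        exact sum_nonneg fun C _ => mul_nonneg (hc.W0 C) (abs_nonneg _)
    | succ σ hσ ih =>
      intro h
      obtain ⟨ih1, ih2⟩ := ih (by omega)
      have hA : i ∈ A σ := hiA σ (by omega) (by omega)
      refine ⟨by rw [hc.step σ (by omega), if_pos hA, ih1], fun w hw hi => ?_⟩
      obtain ⟨w0, hw0, hi0, h0⟩ := (hc.rel σ (by omega)).T1 i hA w hw hi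
      refine gen σ (by omega) h w hw ?_ fun g1 g2 => ?_
      · rw [h0]; exact ih2 w0 hw0 hi0
      · rw [h0, h0]
        exact cmp hb hp.M2 hL _ (hP _ (by omega)) _ _ W (hc.marg _ (by omega)) w0 hw0 i g1 g2
  obtain ⟨m1, m2⟩ := main e hbe le_rfl
  refine ⟨m1, ?_, m2⟩
  unfold alv
  by_cases h : e = b + 1
  · exact mem_union_right _ (h ▸ hib1)
  · exact mem_union_left _ (hiA _ (by omega) (by omega))

end Vale.Agent.P235
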