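import Vale.Agent.P235.Sts

namespace Vale.Agent.P235

open Finset
open scoped BigOperators

namespace TSSAux

theorem gap_le {V : Type} [DecidableEq V] {X J : Finset V} {F Fm ψ : V → ℝ} {a v h δ : ℝ}
    (hJ : J ⊆ X) (a0 : 0 ≤ a) (hv : |v| ≤ 1) (hh : 0 ≤ h)
    (hF : ∀ s, F s = Fm s + a * (v * ψ s))
    (hψ : ∀ s ∈ X, |ψ s - (if s ∈ J then h else 0)| ≤ δ) {s t : V} (hs : s ∈ J) (ht : t ∈ X)
    (ht' : t ∉ J) : |F s - F t - (Fm s - Fm t)| ≤ a * (h + 2 * δ) := by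
  have h1 := hψ s (hJ hs)
  have h2 := hψ t ht
  rw [if_pos hs, abs_le] at h1
  rw [if_neg ht', abs_le] at h2
  have h3 : |ψ s - ψ t| ≤ h + 2 * δ := abs_le.2 ⟨by linarith, by linarith⟩
  have e : F s - F t - (Fm s - Fm t) = a * (v * (ψ s - ψ t)) := by
    rw [hF, hF]
    ring
  rw [e, abs_mul, abs_mul, abs_of_nonneg a0]
  exact mul_le_mul_of_nonneg_left
    ((mul_le_of_le_one_left (abs_nonneg _) hv).trans h3) a0

theorem pt (hb : Base) {V : Type} [LinearOrder V] {L : ℝ} {X J : Finset V} {g : Finset V → ℝ}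
    {F Fm ψ : V → ℝ} {a v h δ D K n : ℝ} (hJ : J ⊆ X) (hg : U01 g) (a0 : 0 ≤ a) (hv : |v| ≤ 1)
    (hh : 0 ≤ h) (hδ : 0 ≤ δ) (hD : 0 < D) (hK : 0 ≤ K) (hL : K + D ≤ L) (hn : (X.card : ℝ) ≤ n)
    (hF : ∀ s, F s = Fm s + a * (v * ψ s)) (b1 : ∀ s, |F s| ≤ K) (b2 : ∀ s, |Fm s| ≤ K)
    (hψ : ∀ s ∈ X, |ψ s - (if s ∈ J then h else 0)| ≤ δ) (ha : 4 * a * (h + 2 * δ) ≤ D)
    (gap : ∀ s ∈ J, ∀ t ∈ X, t ∉ J → D / 2 ≤ |Fm s - Fm t|) :
    |cutI L X g F - (cutI L X g Fm + a * v * h * ∑ s ∈ J, cc X g Fm s)| ≤ n * a * δ ∧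
      a * h * |∑ s ∈ J, cc X g Fm s - ∑ s ∈ J, cc X g F s| ≤ 2 * (n * a * δ) := by
  have haδ : 0 ≤ a * δ := mul_nonneg a0 hδ
  have hah : a * h ≤ D / 4 := by linarith
  have hu : |a * v * h| ≤ D / 4 := by
    rw [mul_right_comm, abs_mul, abs_of_nonneg (mul_nonneg a0 hh)]
    exact (mul_le_of_le_one_right (mul_nonneg a0 hh) hv).trans hah
  have lip : ∀ c : ℝ, |c| ≤ D / 4 → |cutI L X g (fun s => F s + if s ∈ J then c else 0)
      - (cutI L X g Fm + (a * v * h + c) * ∑ s ∈ J, cc X g Fm s)| ≤ n * a * δ := by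
    intro c hc
    have h1 : |a * v * h + c| ≤ D / 2 := (abs_add_le _ _).trans (by linarith)
    rw [← hb.cb.aff V L X J g Fm _ hJ (fun s hs t ht ht' => h1.trans (gap s hs t ht ht'))
      fun s _ => by linarith [b2 s]]
    refine (hb.ca.lip V L X g _ _ (by linarith) hg).trans
      ((sum_le_card_nsmul _ _ (a * δ) fun s hs => ?_).trans ?_)
    · have e : (F s + if s ∈ J then c else 0) - (Fm s + if s ∈ J then a * v * h + c else 0)
          = a * (v * (ψ s - if s ∈ J then h else 0)) := by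
        rw [hF]
        split_ifs <;> ring
      rw [e, abs_mul, abs_mul, abs_of_nonneg a0]
      exact mul_le_mul_of_nonneg_left
        ((mul_le_of_le_one_left (abs_nonneg _) hv).trans (hψ s hs)) a0
    · rw [nsmul_eq_mul, mul_assoc]
      exact mul_le_mul_of_nonneg_right hn haδ
  have hq : |D / 4| = D / 4 := abs_of_pos (by linarith)
  have h1 := lip 0 (by rw [abs_zero]; linarith)
  simp only [ite_self, add_zero] at h1
  have h2 := lip (D / 4) hq.le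
  rw [hb.cb.aff V L X J g F _ hJ (fun s hs t ht ht' => by
    have h3 := gap_le hJ a0 hv hh hF hψ hs ht ht'
    have h4 := abs_sub_abs_le_abs_sub (Fm s - Fm t) (F s - F t)
    rw [abs_sub_comm] at h3
    linarith [gap s hs t ht ht']) fun s _ => by linarith [b1 s]] at h2
  refine ⟨h1, (mul_le_mul_of_nonneg_right hah (abs_nonneg _)).trans ?_⟩
  rw [← hq, ← abs_mul]
  rw [abs_le] at h1 h2 ⊢
  constructor <;> linarith [h1.1, h1.2, h2.1, h2.2]

theorem sig_le {V : Type} [LinearOrder V] {X J : Finset V} {g : Finset V → ℝ} (F : V → ℝ) {n : ℝ}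
    (hJ : J ⊆ X) (hg : U01 g) (hn : (X.card : ℝ) ≤ n) : |∑ s ∈ J, cc X g F s| ≤ n := by
  refine (abs_sum_le_sum_abs _ _).trans ((sum_le_card_nsmul _ _ 1 fun s _ => ?_).trans ?_)
  · have h1 := hg (up X F s)
    have h2 := hg ((up X F s).erase s)
    exact abs_le.2 ⟨by unfold cc; linarith, by unfold cc; linarith⟩
  · rw [nsmul_eq_mul, mul_one]
    exact (Nat.cast_le.2 (card_le_card hJ)).trans hn

variable {V ι : Type} [Fintype ι] [DecidableEq ι] {M : ℕ} {S : St V ι}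

theorem ex_abs (hb : Base) (hP : ∀ ω, 0 ≤ S.P ω) {f g c : S.Ω → (ι → Fin M) → ℝ}
    (h : ∀ ω l, |f ω l - g ω l| ≤ c ω l) : |Ex S f - Ex S g| ≤ Ex S c := by
  have h1 := hb.ex.mono V ι M S f (fun ω l => 1 * g ω l + 1 * c ω l) hP
    fun ω l => by linarith [(abs_le.1 (h ω l)).2]
  have h2 := hb.ex.mono V ι M S g (fun ω l => 1 * f ω l + 1 * c ω l) hP
    fun ω l => by linarith [(abs_le.1 (h ω l)).1]
  rw [hb.ex.lin] at h1 h2
  exact abs_le.2 ⟨by linarith, by linarith⟩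

theorem ex_const (hb : Base) (hP : ∑ ω, S.P ω = 1) (hM : 0 < M) (c : ℝ) :
    Ex S (fun _ (_ : ι → Fin M) => c) = c := by
  rw [hb.ex.om V ι M S (fun _ => c) hM, ← sum_mul, hP, one_mul]

theorem ex_mul (hb : Base) (c : ℝ) (f : S.Ω → (ι → Fin M) → ℝ) :
    Ex S (fun ω l => c * f ω l) = c * Ex S f := by
  have h := hb.ex.lin V ι M S f f c 0
  simpa only [zero_mul, add_zero] using h

end TSSAux

open TSSAux in
theorem ss (hb : Base) : SSS := by
  classical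
  intro V ι _ _ _ _ p B L X J S A ψ i g h δ D e hp hI hA hψ hB hX hi hJ hg hh hδ hD he hL hd hcl ha
  obtain ⟨n, hn⟩ : ∃ n : ℝ, n = (p.k : ℝ) + 1 := ⟨_, rfl⟩
  obtain ⟨F, hF⟩ : ∃ F, F = Fr p p.k S A ψ := ⟨_, rfl⟩
  obtain ⟨Fm, hFm⟩ : ∃ Fm, Fm = Fr p p.k S (A.erase i) ψ := ⟨_, rfl⟩
  have a0 := (hb.m0.a0 p hp).1.le
  have hM : 0 < p.M := by have := hp.M2; omega
  have hP : ∀ ω, 0 ≤ S.P ω := fun ω => (hI.Ppos ω).le
  have hXn : (X.card : ℝ) ≤ n := by rw [hn]; exact_mod_cast hX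
  have n0 : 0 ≤ n := (Nat.cast_nonneg _).trans hXn
  have b1 : ∀ ω l s, |F ω l s| ≤ n * B := by
    rw [hF, hn]
    exact hb.m0.bd V ι p p.k B S A A ψ hp hI hA hψ hB
  have b2 : ∀ ω l s, |Fm ω l s| ≤ n * B := by
    rw [hFm, hn]
    exact hb.m0.bd V ι p p.k B S A _ ψ hp hI (card_erase_le.trans hA) hψ hB
  have hsp : ∀ ω l, S.β ω i = 1 → ∀ s, F ω l s = Fm ω l s + p.a * (vv p.M (l i) * ψ i s) := by
    intro ω l hβ s
    rw [hF, hFm, hb.m0.split V ι p p.k S A ψ i hi, hβ, one_mul]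
  have hup : ∀ ω l j, Fm ω (Function.update l i j) = Fm ω l := by
    rw [hFm]
    exact hb.m0.upd V ι p p.k S _ ψ i (notMem_erase i A)
  have hv : ∀ l : ι → Fin p.M, |vv p.M (l i)| ≤ 1 := fun l => hb.ex.vabs _ _ hp.M2
  rw [← hF] at hcl
  rw [← hF, ← hn]
  obtain ⟨w, hw⟩ : ∃ w : S.Ω → (ι → Fin p.M) → ℝ, w = fun ω l =>
    if S.β ω i = 1 ∧ ∀ s ∈ J, ∀ t ∈ X, t ∉ J → D / 2 ≤ |Fm ω l s - Fm ω l t| then 1 else 0 :=
    ⟨_, rfl⟩
  have hwi : Indep w i := fun ω l j => by simp only [hw, hup]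
  have hw1 : ∀ ω l, w ω l = 0 ∨ (w ω l = 1 ∧
      |cutI L X g (F ω l) - (cutI L X g (Fm ω l)
        + p.a * vv p.M (l i) * h * ∑ s ∈ J, cc X g (Fm ω l) s)| ≤ n * p.a * δ ∧
      p.a * h * |∑ s ∈ J, cc X g (Fm ω l) s - ∑ s ∈ J, cc X g (F ω l) s|
        ≤ 2 * (n * p.a * δ)) := by
    intro ω l
    by_cases hc : S.β ω i = 1 ∧ ∀ s ∈ J, ∀ t ∈ X, t ∉ J → D / 2 ≤ |Fm ω l s - Fm ω l t|
    · exact Or.inr ⟨by rw [hw]; exact if_pos hc, pt hb hJ hg a0 (hv l) hh hδ hD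
        (mul_nonneg n0 hB) (by rw [hn]; linarith) hXn (hsp ω l hc.1) (b1 ω l) (b2 ω l) hd ha hc.2⟩
    · exact Or.inl (by rw [hw]; exact if_neg hc)
  have hE : 0 ≤ n * p.a * δ := by positivity
  have hah : 0 ≤ p.a * h := mul_nonneg a0 hh
  refine ⟨w, fun ω l => by rcases hw1 ω l with h1 | ⟨h1, -⟩ <;> rw [h1] <;> norm_num, hwi, ?_⟩
  have e1 := ex_abs hb hP (f := fun ω l => w ω l * vv p.M (l i) * cutI L X g (F ω l))
    (g := fun ω l => 1 * (w ω l * cutI L X g (Fm ω l) * vv p.M (l i))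
      + p.a * h * (w ω l * (∑ s ∈ J, cc X g (Fm ω l) s) * vv p.M (l i) ^ 2))
    (c := fun _ _ => n * p.a * δ) fun ω l => by
      rcases hw1 ω l with h1 | ⟨h1, h2, -⟩
      · simpa [h1] using hE
      · refine le_trans (le_of_eq ?_) ((mul_le_of_le_one_left (abs_nonneg _) (hv l)).trans h2)
        rw [h1, ← abs_mul]
        congr 1
        ring
  rw [ex_const hb hI.Psum hM, hb.ex.lin,
    hb.ex.indep V ι p.M S (fun ω l => w ω l * cutI L X g (Fm ω l)) i (vv p.M)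
      fun ω l j => by simp only [hup, hwi ω l j],
    hb.ex.indep V ι p.M S (fun ω l => w ω l * ∑ s ∈ J, cc X g (Fm ω l) s) i
      (fun j => vv p.M j ^ 2) fun ω l j => by simp only [hup, hwi ω l j],
    hb.ex.vmean _ hp.M2] at e1
  have e2 := ex_abs hb hP (f := fun ω l => p.a * h * (w ω l * ∑ s ∈ J, cc X g (Fm ω l) s))
    (g := fun ω l => p.a * h * ∑ s ∈ J, cc X g (F ω l) s)
    (c := fun ω l => 1 * (2 * (n * p.a * δ)) + p.a * h * n * (1 - w ω l)) fun ω l => by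
      rcases hw1 ω l with h1 | ⟨h1, -, h2⟩
      · have h3 := mul_le_mul_of_nonneg_left (sig_le (F ω l) hJ hg hXn) hah
        rw [h1, zero_mul, mul_zero, zero_sub, abs_neg, abs_mul, abs_of_nonneg hah]
        linarith
      · rw [h1, one_mul, ← mul_sub, abs_mul, abs_of_nonneg hah]
        linarith
  rw [ex_mul hb, ex_mul hb, hb.ex.lin, ex_const hb hI.Psum hM, hb.ex.sum] at e2
  have e3 := hb.ex.mono V ι p.M S (fun ω l => 1 - w ω l)
    (fun ω l => 1 * (1 - S.β ω i) + 1 * ∑ s ∈ J, ∑ t ∈ X \ J,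
      if |F ω l s - F ω l t| < D then (1 : ℝ) else 0) hP fun ω l => by
      have h0 : ∀ s t, (0 : ℝ) ≤ if |F ω l s - F ω l t| < D then (1 : ℝ) else 0 := fun s t => by
        split_ifs <;> norm_num
      have h1 : 0 ≤ ∑ s ∈ J, ∑ t ∈ X \ J, if |F ω l s - F ω l t| < D then (1 : ℝ) else 0 :=
        sum_nonneg fun s _ => sum_nonneg fun t _ => h0 s t
      simp only [hw]
      rcases hI.β01 ω i with hβ | hβ
      · split_ifs <;> linarith
      · split_ifs with hc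
        · linarith
        · simp only [hβ, true_and, not_forall, not_le] at hc
          obtain ⟨s, hs, t, ht, ht', hc⟩ := hc
          have h2 := gap_le hJ a0 (hv l) hh (hsp ω l hβ) hd hs ht ht'
          have h3 := abs_sub_abs_le_abs_sub (F ω l s - F ω l t) (Fm ω l s - Fm ω l t)
          have h4 := (single_le_sum (fun t _ => h0 s t) (mem_sdiff.2 ⟨ht, ht'⟩)).trans
            (single_le_sum (f := fun s => ∑ t ∈ X \ J,
              if |F ω l s - F ω l t| < D then (1 : ℝ) else 0)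
              (fun s _ => sum_nonneg fun t _ => h0 s t) hs)
          rw [if_pos (by linarith)] at h4
          linarith
  have e4 : Ex S (fun ω l => ∑ s ∈ J, ∑ t ∈ X \ J,
      if |F ω l s - F ω l t| < D then (1 : ℝ) else 0) ≤ n ^ 2 * e := by
    rw [hb.ex.sum]
    refine (sum_le_card_nsmul _ _ (n * e) fun s hs => ?_).trans ?_
    · rw [hb.ex.sum]
      refine (sum_le_card_nsmul _ _ e fun t ht =>
        hcl s hs t (mem_sdiff.1 ht).1 (mem_sdiff.1 ht).2).trans ?_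
      rw [nsmul_eq_mul]
      exact mul_le_mul_of_nonneg_right
        ((Nat.cast_le.2 (card_le_card sdiff_subset)).trans hXn) he
    · rw [nsmul_eq_mul, sq, mul_assoc]
      exact mul_le_mul_of_nonneg_right ((Nat.cast_le.2 (card_le_card hJ)).trans hXn)
        (mul_nonneg n0 he)
  have e5 : ∑ ω, S.P ω * (1 - S.β ω i) ≤ p.eb := by
    simp only [mul_sub, mul_one, sum_sub_distrib, hI.Psum]
    linarith [hI.fl i hi]
  rw [hb.ex.lin, hb.ex.om V ι p.M S (fun ω => 1 - S.β ω i) hM] at e3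
  have e6 : Ex S (fun ω l => 1 - w ω l) ≤ p.eb + n ^ 2 * e := by linarith
  have m0 := (hb.ex.m2pos _ hp.M2).le
  have m1 := hb.ex.m2le _ hp.M2
  change |_ - (1 * (_ * 0) + p.a * h * (_ * m2 p.M))| ≤ _ at e1
  generalize Ex S (fun ω l => w ω l * vv p.M (l i) * cutI L X g (F ω l)) = x1 at e1 ⊢
  generalize Ex S (fun ω l => w ω l * ∑ s ∈ J, cc X g (Fm ω l) s) = x2 at e1 e2
  generalize (∑ s ∈ J, Ex S fun ω l => cc X g (F ω l) s) = x3 at e2 ⊢
  have f1 := e2.trans (add_le_add le_rfl (mul_le_mul_of_nonneg_left e6 (mul_nonneg hah n0)))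
  have f2 := mul_le_mul_of_nonneg_left f1 m0
  have f3 := mul_le_of_le_one_left hE m1
  have f4 : p.a * h * m2 p.M * |x3| = |p.a * h * m2 p.M * x3| := by
    rw [abs_mul _ x3, abs_of_nonneg (mul_nonneg hah m0)]
  rw [← abs_of_nonneg m0, ← abs_mul, abs_of_nonneg m0, abs_le] at f2
  rw [abs_le] at e1
  rw [f4, abs_le]
  constructor <;> linarith [f2.1, f2.2, e1.1, e1.2, le_abs_self x1, neg_abs_le x1]

end Vale.Agent.P235
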