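import Vale.Agent.P235.Sts

namespace Vale.Agent.P235

open Finset
open scoped BigOperators

namespace TTF1Aux

variable {V : Type} [LinearOrder V] {G : SimpleGraph V} {S : V → Finset V} {k : ℕ}

theorem parmem (v : V) (h : (S v).Nonempty) : par S v ∈ S v := by
  unfold par
  rw [dif_pos h]
  exact Finset.max'_mem _ _

theorem parmax (v : V) (h : (S v).Nonempty) (u : V) (hu : u ∈ S v) : u ≤ par S v := by
  unfold par
  rw [dif_pos h]
  exact Finset.le_max' _ _ hu

theorem pareq (v : V) (h : ¬ (S v).Nonempty) : par S v = v := by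
  unfold par
  rw [dif_neg h]

theorem parlt (he : Elim G S k) (v : V) (h : (S v).Nonempty) : par S v < v :=
  he.lt v _ (parmem v h)

theorem parle (he : Elim G S k) (v : V) : par S v ≤ v := by
  by_cases h : (S v).Nonempty
  · exact (parlt he v h).le
  · exact (pareq v h).le

theorem sub (he : Elim G S k) (v : V) (h : (S v).Nonempty) :
    S v ⊆ insert (par S v) (S (par S v)) := by
  intro u hu
  rcases (parmax v h u hu).eq_or_lt with h1 | h1
  · exact Finset.mem_insert.2 (Or.inl h1)
  · exact Finset.mem_insert.2 (Or.inr (he.cl v u hu _ (parmem v h) h1))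

theorem drefl (v : V) : Desc S v v := ⟨0, rfl⟩

theorem dtrans (u v x : V) (h1 : Desc S u v) (h2 : Desc S v x) : Desc S u x := by
  obtain ⟨i, hi⟩ := h1
  obtain ⟨j, hj⟩ := h2
  exact ⟨i + j, by rw [Function.iterate_add_apply, hj, hi]⟩

theorem dpar (v : V) : Desc S (par S v) v := ⟨1, rfl⟩

theorem dle (he : Elim G S k) (v x : V) (h : Desc S v x) : v ≤ x := by
  obtain ⟨i, hi⟩ := h
  induction i generalizing x with
  | zero => exact le_of_eq hi.symm
  | succ i ih =>
    rw [Function.iterate_succ_apply] at hi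
    exact (ih _ hi).trans (parle he x)

theorem anc [Fintype V] (he : Elim G S k) (v : V) : ∀ u ∈ S v, Desc S u v := by
  induction v using WellFoundedLT.induction with
  | ind v ih =>
    intro u hu
    have hne : (S v).Nonempty := ⟨u, hu⟩
    rcases Finset.mem_insert.1 (sub he v hne hu) with h1 | h1
    · rw [h1]; exact dpar v
    · exact dtrans _ _ _ (ih _ (parlt he v hne) u h1) (dpar v)

theorem out (he : Elim G S k) (v x : V) (h : Desc S v x) :
    ∀ u ∈ S x, Desc S v u ∨ u ∈ S v := by
  obtain ⟨i, hi⟩ := h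
  induction i generalizing x with
  | zero =>
    intro u hu
    have : x = v := hi
    right; rw [← this]; exact hu
  | succ i ih =>
    intro u hu
    rw [Function.iterate_succ_apply] at hi
    have hne : (S x).Nonempty := ⟨u, hu⟩
    rcases Finset.mem_insert.1 (sub he x hne hu) with h1 | h1
    · left; rw [h1]; exact ⟨i, hi⟩
    · exact ih _ hi u h1

theorem exroot [Fintype V] (hc : G.Connected) (he : Elim G S k) : ∃ r, ∀ x, Desc S r x := by
  have : Nonempty V := hc.nonempty
  obtain ⟨r, -, hr⟩ := Finset.exists_min_image (Finset.univ : Finset V) id Finset.univ_nonempty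
  have hr' : ∀ u, u ∉ S r := fun u hu =>
    absurd (hr u (Finset.mem_univ _)) (not_le.2 (he.lt r u hu))
  have step : ∀ x y, G.Adj x y → Desc S r x → Desc S r y := by
    intro x y hxy hx
    rcases lt_or_gt_of_ne hxy.ne with h | h
    · exact dtrans _ _ _ hx (anc he y x (he.adj x y hxy h))
    · rcases out he r x hx y (he.adj y x hxy.symm h) with h1 | h1
      · exact h1
      · exact absurd h1 (hr' y)
  have walk : ∀ x y (p : G.Walk x y), Desc S r x → Desc S r y := by
    intro x y p
    induction p with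
    | nil => exact id
    | cons h _ ih => exact fun hx => ih (step _ _ h hx)
  refine ⟨r, fun x => ?_⟩
  obtain ⟨p⟩ := hc.preconnected r x
  exact walk _ _ p (drefl r)

theorem child (w x : V) (h : Desc S w x) :
    x = w ∨ ∃ v, (S v).Nonempty ∧ par S v = w ∧ Desc S v x := by
  obtain ⟨i, hi⟩ := h
  induction i generalizing x with
  | zero => exact Or.inl hi
  | succ i ih =>
    rw [Function.iterate_succ_apply] at hi
    rcases ih _ hi with h1 | ⟨v, h1, h2, h3⟩
    · by_cases hx : (S x).Nonempty
      · exact Or.inr ⟨x, hx, h1, drefl x⟩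
      · left; rw [← h1, pareq x hx]
    · exact Or.inr ⟨v, h1, h2, dtrans _ _ _ h3 (dpar x)⟩

theorem lca [Fintype V] (hc : G.Connected) (he : Elim G S k) (x y : V) : ∃ w,
    (x = w ∨ ∃ v, (S v).Nonempty ∧ par S v = w ∧ Desc S v x ∧ ¬ Desc S v y) ∧
    (y = w ∨ ∃ v, (S v).Nonempty ∧ par S v = w ∧ Desc S v y ∧ ¬ Desc S v x) := by
  classical
  obtain ⟨r, hr⟩ := exroot hc he
  obtain ⟨w, hw, hmax⟩ := Finset.exists_max_image
    ((Finset.univ : Finset V).filter (fun w => Desc S w x ∧ Desc S w y)) id
    ⟨r, Finset.mem_filter.2 ⟨Finset.mem_univ _, hr x, hr y⟩⟩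
  obtain ⟨-, hwx, hwy⟩ := Finset.mem_filter.1 hw
  have key : ∀ v, (S v).Nonempty → par S v = w → Desc S v x → Desc S v y → False := by
    intro v h1 h2 h3 h4
    have h5 : v ≤ w := hmax v (Finset.mem_filter.2 ⟨Finset.mem_univ _, h3, h4⟩)
    have h6 := parlt he v h1
    rw [h2] at h6
    exact absurd h5 (not_le.2 h6)
  refine ⟨w, ?_, ?_⟩
  · rcases child w x hwx with h | ⟨v, h1, h2, h3⟩
    · exact Or.inl h
    · exact Or.inr ⟨v, h1, h2, h3, fun h4 => key v h1 h2 h3 h4⟩
  · rcases child w y hwy with h | ⟨v, h1, h2, h3⟩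
    · exact Or.inl h
    · exact Or.inr ⟨v, h1, h2, h3, fun h4 => key v h1 h2 h4 h3⟩

theorem exdep [Fintype V] (he : Elim G S k) : ∃ dep, Tr S dep := by
  classical
  let F : (v : V) → ((u : V) → u < v → ℕ) → ℕ := fun v ih =>
    if h : (S v).Nonempty then ih (par S v) (parlt he v h) + 1 else 0
  let dep : V → ℕ := WellFounded.fix (wellFounded_lt (α := V)) F
  have hd : ∀ v, dep v = F v (fun u _ => dep u) := fun v =>
    WellFounded.fix_eq (wellFounded_lt (α := V)) F v
  refine ⟨dep, fun v h => ?_, fun v h => ?_⟩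
  · rw [hd v]; simp only [F, dif_neg h]
  · rw [hd v]; simp only [F, dif_pos h]

theorem npar0 (v : V) : npar S (v, 0) = (par S v, 1) := by simp [npar]

theorem npar1 (v : V) : npar S (v, 1) = (v, 0) := by simp [npar]

theorem npar2 (v : V) : npar S (v, 2) = (v, 1) := by
  have h1 : (2 : Fin 3) ≠ 0 := by decide
  have h2 : (2 : Fin 3) ≠ 1 := by decide
  simp [npar, h1, h2]

theorem fin3 (a : Fin 3) : a = 0 ∨ a = 1 ∨ a = 2 := by
  fin_cases a <;> simp

theorem npar_dep {dep : V → ℕ} (ht : Tr S dep) (t : Nd V) (h : ndep dep t ≠ 0) :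
    ndep dep (npar S t) + 1 = ndep dep t := by
  obtain ⟨v, a⟩ := t
  rcases fin3 a with rfl | rfl | rfl
  · rw [npar0]
    have hv : (S v).Nonempty := by
      by_contra hn
      apply h
      simp [ndep, ht.z v hn]
    simp only [ndep, ht.s v hv, Fin.val_zero, Fin.val_one]
    omega
  · rw [npar1]; simp [ndep]
  · rw [npar2]; simp [ndep]

theorem iter_dep {dep : V → ℕ} (ht : Tr S dep) (t : Nd V) (i : ℕ) (hi : i ≤ ndep dep t) :
    ndep dep ((npar S)^[i] t) + i = ndep dep t := by
  induction i with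
  | zero => rfl
  | succ i ih =>
    have h1 := ih (by omega)
    rw [Function.iterate_succ_apply']
    have h2 := npar_dep ht ((npar S)^[i] t) (by omega)
    omega

theorem root {dep : V → ℕ} (ht : Tr S dep) (t : Nd V) (h : ndep dep t = 0) : nX S t = ∅ := by
  obtain ⟨v, a⟩ := t
  have h1 : dep v = 0 := by simp only [ndep] at h; omega
  have h2 : a = 0 := by
    apply Fin.ext
    simp only [ndep] at h
    simp only [Fin.val_zero]
    omega
  subst h2
  have h3 : ¬ (S v).Nonempty := fun hn => by
    have := ht.s v hn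
    omega
  simpa [nX] using h3

theorem ch_desc {dep : V → ℕ} (ht : Tr S dep) (x v : V) (h : Desc S v x) :
    dep v ≤ dep x ∧ ch S dep (x, 2) (2 * dep v) = (v, 0) := by
  obtain ⟨i, hi⟩ := h
  have hn : ∀ x, ndep dep (x, (2 : Fin 3)) = 2 * dep x + 2 := fun x => rfl
  induction i generalizing x with
  | zero =>
    have : x = v := hi
    subst this
    refine ⟨le_rfl, ?_⟩
    unfold ch
    rw [hn, show 2 * dep x + 2 - 2 * dep x = 2 by omega]
    show npar S (npar S (x, 2)) = _
    rw [npar2, npar1]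
  | succ i ih =>
    rw [Function.iterate_succ_apply] at hi
    obtain ⟨h1, h2⟩ := ih _ hi
    by_cases hx : (S x).Nonempty
    · have h3 := ht.s x hx
      refine ⟨by omega, ?_⟩
      unfold ch at h2 ⊢
      rw [hn] at h2 ⊢
      obtain ⟨m, hm⟩ : ∃ m, 2 * dep (par S x) - 2 * dep v = m := ⟨_, rfl⟩
      rw [show 2 * dep (par S x) + 2 - 2 * dep v = (m + 1) + 1 by omega,
        Function.iterate_succ_apply, npar2] at h2
      rw [show 2 * dep x + 2 - 2 * dep v = (m + 1) + 1 + 1 + 1 by omega,
        Function.iterate_succ_apply, npar2, Function.iterate_succ_apply, npar1,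
        Function.iterate_succ_apply, npar0]
      exact h2
    · rw [pareq x hx] at h1 h2
      exact ⟨h1, h2⟩

theorem iter_anc (t : Nd V) (i : ℕ) : Desc S ((npar S)^[i] t).1 t.1 := by
  induction i with
  | zero => exact drefl _
  | succ i ih =>
    rw [Function.iterate_succ_apply']
    refine dtrans _ _ _ ?_ ih
    obtain ⟨⟨v, a⟩, hs⟩ : ∃ s, s = (npar S)^[i] t := ⟨_, rfl⟩
    rw [← hs]
    rcases fin3 a with rfl | rfl | rfl
    · rw [npar0]; exact dpar v
    · rw [npar1]; exact drefl v
    · rw [npar2]; exact drefl v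

end TTF1Aux

open TTF1Aux in
theorem tf1 : TF1S := by
  intro V _ _ G S k hc he
  obtain ⟨dep, ht⟩ := exdep he
  refine ⟨dep, ht, he.lt, parmem, sub he, drefl, dtrans, dle he, anc he, out he, lca hc he,
    ?_, ?_, ?_, npar_dep ht, root ht, ch_desc ht, ?_⟩
  · intro t
    unfold ch
    rw [Nat.sub_self]
    rfl
  · intro t σ hσ
    unfold ch
    rw [show ndep dep t - σ = (ndep dep t - (σ + 1)) + 1 by omega, Function.iterate_succ_apply']
  · intro t σ hσ
    unfold ch
    have := iter_dep ht t (ndep dep t - σ) (Nat.sub_le _ _)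
    omega
  · intro t σ
    exact iter_anc t _

end Vale.Agent.P235
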