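import Vale.Agent.P235.Sts

namespace Vale.Agent.P235

open Finset
open scoped BigOperators

namespace TTF2Aux

variable {V : Type}

theorem wlen_cons {G : SimpleGraph V} (l : Sym2 V → ℝ) {u v w : V} (h : G.Adj u v)
    (p : G.Walk v w) : wlen l (SimpleGraph.Walk.cons h p) = l s(u, v) + wlen l p := by
  simp [wlen]

theorem edge_le [MetricSpace V] {G : SimpleGraph V} {l : Sym2 V → ℝ} (hg : Geo G l) {u v : V}
    (h : G.Adj u v) : dist u v ≤ l s(u, v) := by
  have := hg.le u v (SimpleGraph.Walk.cons h SimpleGraph.Walk.nil)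
  simpa [wlen] using this

theorem sep_walk [LinearOrder V] [MetricSpace V] {G : SimpleGraph V} {l : Sym2 V → ℝ}
    {S : V → Finset V} {k : ℕ} {dep : V → ℕ} (hg : Geo G l) (he : Elim G S k)
    (ht : TreeF S dep) (v : V) {y w : V} (p : G.Walk y w) (hy : Desc S v y)
    (hw : ¬ Desc S v w) : ∃ z ∈ S v, dist y z + dist z w ≤ wlen l p := by
  induction p with
  | nil => exact absurd hy hw
  | @cons y y' w h p ih =>
    have hle := edge_le hg h
    rw [wlen_cons]
    by_cases hd : Desc S v y'
    · obtain ⟨z, hz, hzz⟩ := ih hd hw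
      refine ⟨z, hz, ?_⟩
      have := dist_triangle y y' z
      linarith
    · rcases lt_or_gt_of_ne h.ne with hlt | hlt
      · exact absurd (ht.trans _ _ _ hy (ht.anc _ _ (he.adj _ _ h hlt))) hd
      · rcases ht.out v y hy y' (he.adj _ _ h.symm hlt) with h1 | h1
        · exact absurd h1 hd
        · refine ⟨y', h1, ?_⟩
          have := hg.le _ _ p
          linarith

theorem sep_dist [LinearOrder V] [MetricSpace V] {G : SimpleGraph V} {l : Sym2 V → ℝ}
    {S : V → Finset V} {k : ℕ} {dep : V → ℕ} (hg : Geo G l) (he : Elim G S k)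
    (ht : TreeF S dep) (v : V) {y w : V} (hy : Desc S v y)
    (hw : ¬ Desc S v w) : ∃ z ∈ S v, dist y w = dist y z + dist z w := by
  obtain ⟨p, hp⟩ := hg.ex y w
  obtain ⟨z, hz, hzz⟩ := sep_walk hg he ht v p hy hw
  exact ⟨z, hz, le_antisymm (dist_triangle _ _ _) (hp ▸ hzz)⟩

theorem nX_sub [LinearOrder V] (S : V → Finset V) (t : Nd V) :
    nX S t ⊆ insert t.1 (S t.1) := by
  unfold nX
  split_ifs
  · exact subset_insert _ _
  · exact Subset.rfl
  · exact singleton_subset_iff.2 (mem_insert_self _ _)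

theorem npar_ne [LinearOrder V] (S : V → Finset V) (t : Nd V) : (npar S t).2 ≠ 2 := by
  unfold npar
  split_ifs <;> simp

theorem sub_nX [LinearOrder V] (S : V → Finset V) (t : Nd V) (h : t.2 ≠ 2) :
    S t.1 ⊆ nX S t := by
  unfold nX
  split_ifs with h0 h1
  · exact Subset.rfl
  · exact subset_insert _ _
  · exfalso
    have := t.2.isLt
    simp only [Fin.ext_iff, ne_eq, Fin.val_zero, Fin.val_one, Fin.val_two] at h h0 h1
    omega

theorem nest [LinearOrder V] {S : V → Finset V} {dep : V → ℕ} (ht : TreeF S dep) (s : Nd V) :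
    nX S (npar S s) ⊆ nX S s ∨ nX S s ⊆ nX S (npar S s) := by
  obtain ⟨v, i⟩ := s
  by_cases h0 : i = 0
  · subst h0
    right
    rcases (S v).eq_empty_or_nonempty with h | h
    · simp [nX, h]
    · simpa [nX, npar] using ht.sub v h
  · by_cases h1 : i = 1
    · subst h1
      left
      simp [nX, npar]
    · right
      simp [nX, npar, h0, h1]

theorem ch_ch [LinearOrder V] {S : V → Finset V} {dep : V → ℕ} (ht : TreeF S dep) (t : Nd V)
    {b c : ℕ} (hbc : b ≤ c) (hc : c ≤ ndep dep t) :
    ch S dep (ch S dep t c) b = ch S dep t b := by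
  have h1 := ht.ch_dep t c hc
  have e : ndep dep t - b = (c - b) + (ndep dep t - c) := by omega
  conv_lhs => rw [ch, h1]
  rw [ch, ch, e, Function.iterate_add_apply]

end TTF2Aux

open TTF2Aux in
theorem tf2 : TF2S := by
  intro V _ _ _ G l S k dep hg he ht t
  refine ⟨ht.root _ (ht.ch_dep t 0 (Nat.zero_le _)), fun σ _ => ?_, fun σ hσ => ?_, ?_⟩
  · refine (card_le_card (nX_sub S _)).trans ((card_insert_le _ _).trans ?_)
    exact Nat.succ_le_succ (he.card _)
  · have := nest ht (ch S dep t (σ + 1))
    rwa [ht.ch_par t σ hσ] at this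
  · intro a b c hab hbc hc w hw y hy
    rcases hab.eq_or_lt with rfl | hab'
    · exact ⟨w, hw, by simp⟩
    rcases hbc.eq_or_lt with rfl | hbc'
    · exact ⟨y, hy, by simp⟩
    have hi : (ch S dep t b).2 ≠ 2 := by
      rw [← ht.ch_par t b (by omega)]
      exact npar_ne S _
    have hsub := sub_nX S _ hi
    have d1 : Desc S (ch S dep t b).1 (ch S dep t c).1 := by
      rw [← ch_ch ht t hbc hc]
      exact ht.ch_anc _ _
    have d2 : Desc S (ch S dep t a).1 (ch S dep t b).1 := by
      rw [← ch_ch ht t hab (hbc.trans hc)]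
      exact ht.ch_anc _ _
    have hy' : Desc S (ch S dep t b).1 y ∨ y ∈ S (ch S dep t b).1 := by
      rcases mem_insert.1 (nX_sub S _ hy) with h | h
      · exact Or.inl (h ▸ d1)
      · exact ht.out _ _ d1 y h
    have hw' : w ≤ (ch S dep t a).1 := by
      rcases mem_insert.1 (nX_sub S _ hw) with h | h
      · exact h.le
      · exact (ht.lt _ _ h).le
    rcases hy' with hy' | hy'
    · by_cases hd : Desc S (ch S dep t b).1 w
      · have e1 := ht.le _ _ hd
        have e2 := ht.le _ _ d2
        have e3 : (ch S dep t a).1 = (ch S dep t b).1 := le_antisymm e2 (e1.trans hw')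
        have e4 : w = (ch S dep t b).1 := le_antisymm (hw'.trans e2) e1
        have f1 := ht.ch_dep t a (by omega)
        have f2 := ht.ch_dep t b (by omega)
        refine ⟨w, ?_, by simp⟩
        have hi1 : (ch S dep t b).2 = 1 := by
          have := (ch S dep t b).2.isLt
          simp only [ndep, e3] at f1 f2
          simp only [Fin.ext_iff, ne_eq, Fin.val_one, Fin.val_two] at hi ⊢
          omega
        show w ∈ nX S (ch S dep t b)
        rw [nX, if_neg (by rw [hi1]; exact one_ne_zero), if_pos hi1, ← e4]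
        exact mem_insert_self _ _
      · obtain ⟨z, hz, hzz⟩ := sep_dist hg he ht _ hy' hd
        exact ⟨z, hsub hz, hzz⟩
    · exact ⟨y, hsub hy', by simp⟩

end Vale.Agent.P235
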