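import Vale.Agent.P235.Sts

namespace Vale.Agent.P235

open Finset
open scoped BigOperators

namespace TTMAux

/-- the recursion along a rooted forest -/
noncomputable def trF {τ : Type} {σ : Type*} {pa : τ → τ} {dp : τ → ℕ}
    (hdp : ∀ t, dp t ≠ 0 → dp (pa t) + 1 = dp t) {I : τ → σ → Prop}
    (g0 : ∀ t, dp t = 0 → {s // I t s}) (gs : ∀ t, dp t ≠ 0 → {s // I (pa t) s} → {s // I t s}) :
    ∀ n : ℕ, ∀ t, dp t = n → {s // I t s}
  | 0, t, h => g0 t h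
  | n + 1, t, h => gs t (by omega)
      (trF hdp g0 gs n (pa t) (by have := hdp t (by omega); omega))

theorem tree_rec {τ : Type} {σ : Type*} (pa : τ → τ) (dp : τ → ℕ)
    (hdp : ∀ t, dp t ≠ 0 → dp (pa t) + 1 = dp t) (I : τ → σ → Prop) (R : τ → σ → σ → Prop)
    (h0 : ∀ t, dp t = 0 → ∃ s, I t s)
    (hs : ∀ t, dp t ≠ 0 → ∀ s, I (pa t) s → ∃ s', I t s' ∧ R t s s') :
    ∃ f : τ → σ, (∀ t, I t (f t)) ∧ ∀ t, dp t ≠ 0 → R t (f (pa t)) (f t) := by
  choose g0 hg0 using h0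
  choose gs hgs hR using hs
  let F := trF (I := I) hdp (fun t h => ⟨g0 t h, hg0 t h⟩)
    (fun t h s => ⟨gs t h s.1 s.2, hgs t h s.1 s.2⟩)
  refine ⟨fun t => (F (dp t) t rfl).1, fun t => (F (dp t) t rfl).2, fun t ht => ?_⟩
  have key : ∀ n (h : dp t = n), F (dp t) t rfl = F n t h := by
    intro n h
    subst h
    rfl
  show R t (F (dp (pa t)) (pa t) rfl).1 (F (dp t) t rfl).1
  rw [key _ (hdp t ht).symm]
  exact hR t ht _ (F (dp (pa t)) (pa t) rfl).2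

section
variable {V ι : Type} [Fintype ι] [DecidableEq ι] {M : ℕ} {L : ℝ} {X : Finset V}

theorem rel_refl (S : St V ι) (F : S.Ω → (ι → Fin M) → V → ℝ) (K : Finset ι) :
    Rel L X S F S F K ∅ :=
  ⟨fun _ => rfl, fun _ _ w h1 h2 => ⟨w, h1, h2, fun _ => rfl⟩,
    fun _ hi => absurd hi (notMem_empty _)⟩

theorem rel_trans {S S' S'' : St V ι} {F : S.Ω → (ι → Fin M) → V → ℝ}
    {F' : S'.Ω → (ι → Fin M) → V → ℝ} {F'' : S''.Ω → (ι → Fin M) → V → ℝ} {K K' N : Finset ι}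
    (h : Rel L X S F S' F' K ∅) (h' : Rel L X S' F' S'' F'' K' N) (hK : K' ⊆ K) :
    Rel L X S F S'' F'' K' N := by
  refine ⟨fun g => (h'.T0 g).trans (h.T0 g), fun i hi w'' a1 a2 => ?_, h'.T2⟩
  obtain ⟨w', b1, b2, b3⟩ := h'.T1 i hi w'' a1 a2
  obtain ⟨w, c1, c2, c3⟩ := h.T1 i (hK hi) w' b1 b2
  exact ⟨w, c1, c2, fun g => (b3 g).trans (c3 g)⟩

end

/-- the initial state -/
def root (V ι : Type) : St V ι :=
  ⟨Unit, inferInstance, fun _ => 1, fun _ _ => 0, fun _ _ => 0, fun _ _ => 0⟩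

theorem lb_zero {V : Type} [MetricSpace V] {B : ℝ} (hB : 0 ≤ B) : LB B (fun _ : V => (0 : ℝ)) :=
  ⟨fun s t => by simp, fun s => by simpa using hB⟩

theorem sum_root {V ι : Type} (f : (root V ι).Ω → ℝ) : ∑ ω, f ω = f () :=
  Fintype.sum_unique (ι := Unit) f

theorem root_inv {V ι : Type} [MetricSpace V] (p : MP) (r : ℕ) {B : ℝ} (hB : 0 ≤ B) :
    Inv p r B (root V ι) ∅ := by
  refine ⟨fun _ => one_pos, sum_root _, fun _ _ => Or.inl rfl, fun i _ => ?_,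
    fun _ _ => lb_zero hB, fun _ hi => absurd hi (notMem_empty _), fun i _ c _ h hh => ?_⟩
  · rw [sum_root]
    exact mul_zero _
  · rw [sum_root, sum_root, sum_root]
    have e1 : (root V ι).P () = 1 := rfl
    have e2 : ∀ j, (root V ι).U () j = 0 := fun _ => rfl
    simp only [e1, e2, mul_zero, sum_const_zero, add_zero, sum_empty, zero_mul, abs_zero, one_mul]
    nlinarith [(hh ()).1, (hh ()).2]

section
variable {V ι : Type} [LinearOrder V] [MetricSpace V] [Fintype ι] [DecidableEq ι] {p : MP}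
  {B L : ℝ} {X : Finset V}

theorem retire (h1 : M1S) (h2 : M2S) (hp : p.OK) (hB : 0 ≤ B) (hL : ((p.k : ℝ) + 2) * B ≤ L)
    (hX : X.card ≤ p.k + 1) {S : St V ι} {A0 : Finset ι} {ψ : ι → V → ℝ}
    (hS : Inv p p.k B S A0) (hA : A0.card ≤ p.N) (hψ : ∀ i, LB B (ψ i)) (D : Finset ι) :
    D ⊆ A0 → ∃ S' : St V ι, Inv p p.k B S' (A0 \ D) ∧
      Rel L X S (Fr p p.k S A0 ψ) S' (Fr p p.k S' (A0 \ D) ψ) (A0 \ D) ∅ := by
  induction D using Finset.induction_on with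
  | empty =>
    intro _
    rw [sdiff_empty]
    exact ⟨S, hS, rel_refl _ _ _⟩
  | insert i D hi ih =>
    intro hD
    obtain ⟨S1, a1, a2⟩ := ih ((subset_insert i D).trans hD)
    have hc : (A0 \ D).card ≤ p.N := (card_le_card sdiff_subset).trans hA
    obtain ⟨S2, b1, b2⟩ := h1 V ι p B L X S1 (A0 \ D) ψ i hp a1 hc
      (mem_sdiff.2 ⟨hD (mem_insert_self i D), hi⟩) (hψ i)
    obtain ⟨S3, c1, c2⟩ := h2 V ι p B L X S2 ((A0 \ D).erase i) ψ hp b1
      ((card_le_card (erase_subset _ _)).trans hc) hψ hX hB hL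
    rw [sdiff_insert]
    exact ⟨S3, c1, rel_trans (rel_trans a2 b2 (erase_subset _ _)) c2 Subset.rfl⟩

theorem step (h1 : M1S) (h2 : M2S) (h3 : M3S) (h4 : M4S) (hp : p.OK) (hB : 0 ≤ B)
    (hL : ((p.k : ℝ) + 2) * B ≤ L) (hX : X.card ≤ p.k + 1) {S : St V ι} {A0 K A' : Finset ι}
    {ψ ψ' : ι → V → ℝ} (hS : Inv p p.k B S A0) (hA : A0.card ≤ p.N) (hK : K ⊆ A0)
    (hKA : (K ∪ A').card ≤ p.N) (hψ : ∀ i, LB B (ψ i)) (e1 : ∀ i ∈ K, ψ' i = ψ i)
    (e2 : ∀ i ∈ A' \ K, ∀ s ∈ X, ψ' i s = 0) :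
    ∃ S' : St V ι, Inv p p.k B S' (K ∪ A') ∧
      Rel L X S (Fr p p.k S A0 ψ) S' (Fr p p.k S' (K ∪ A') ψ') K (A' \ K) := by
  obtain ⟨S1, a1, a2⟩ := retire (X := X) h1 h2 hp hB hL hX hS hA hψ (A0 \ K) sdiff_subset
  rw [Finset.sdiff_sdiff_eq_self hK] at a1 a2
  obtain ⟨S2, b1, b2, b3⟩ := h3 V ι p B L X S1 K ψ hp a1 ((card_le_card hK).trans hA) hψ hX hB hL
  obtain ⟨S3, c1, c2⟩ := h4 V ι p B L X S2 K (A' \ K) ψ ψ' hp b1 b2 disjoint_sdiff
    (by rw [union_sdiff_self_eq_union]; exact hKA) e1 e2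
  rw [union_sdiff_self_eq_union] at c1 c2
  exact ⟨S3, c1, rel_trans (rel_trans a2 b3 Subset.rfl) c2 Subset.rfl⟩

end

end TTMAux

open TTMAux in
theorem tm (h1 : M1S) (h2 : M2S) (h3 : M3S) (h4 : M4S) : TMS := by
  intro V ι τ _ _ _ _ p B L pa dp X A Φ hp hB hL hdp hA0 hX hA hΦ hΦ0
  have hU : ∀ t t', (A t ∪ A t').card ≤ p.N := fun t t' => by
    have := card_union_le (A t) (A t')
    have := hA t
    have := hA t'
    omega
  have hcard : ∀ t, (talv pa dp A t).card ≤ p.N := fun t => by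
    unfold talv
    by_cases h : dp t = 0
    · rw [if_pos h, card_empty]
      exact Nat.zero_le _
    · rw [if_neg h]
      exact hU _ _
  have hsub : ∀ t, A t ⊆ talv pa dp A t := fun t => by
    unfold talv
    by_cases h : dp t = 0
    · rw [if_pos h, hA0 t h]
    · rw [if_neg h]
      exact subset_union_right
  obtain ⟨f, f1, f2⟩ := tree_rec (σ := St V ι × (ι → V → ℝ)) pa dp hdp
    (fun t s => Inv p p.k B s.1 (talv pa dp A t) ∧ ∀ i, LB B (s.2 i))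
    (fun t s s' => (∀ i, s'.2 i = if i ∈ A (pa t) then s.2 i else Φ (pa t) i) ∧
      Rel L (X (pa t)) s.1 (Fr p p.k s.1 (talv pa dp A (pa t)) s.2) s'.1
        (Fr p p.k s'.1 (talv pa dp A t) s'.2) (A (pa t)) (A t \ A (pa t)))
    (fun t ht => ⟨(root V ι, fun _ _ => 0), by
      have e : talv pa dp A t = ∅ := if_pos ht
      rw [e]
      exact root_inv p p.k hB, fun _ => lb_zero hB⟩)
    (fun t ht s hs => by
      have e : talv pa dp A t = A (pa t) ∪ A t := if_neg ht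
      obtain ⟨S', a1, a2⟩ := step (X := X (pa t)) (A' := A t)
        (ψ' := fun i => if i ∈ A (pa t) then s.2 i else Φ (pa t) i) h1 h2 h3 h4 hp hB hL (hX _)
        hs.1 (hcard _) (hsub _) (hU _ _) hs.2 (fun i hi => if_pos hi) (fun i hi x hx => by
          rw [if_neg (mem_sdiff.1 hi).2]
          exact hΦ0 _ i x hx)
      rw [e]
      refine ⟨(S', fun i => if i ∈ A (pa t) then s.2 i else Φ (pa t) i), ⟨a1, fun i => ?_⟩,
        fun _ => rfl, a2⟩
      show LB B (if i ∈ A (pa t) then s.2 i else Φ (pa t) i)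
      by_cases hi : i ∈ A (pa t)
      · rw [if_pos hi]
        exact hs.2 i
      · rw [if_neg hi]
        exact hΦ _ i)
  exact ⟨fun t => (f t).1, fun t => (f t).2, fun t => (f1 t).1, fun t => (f1 t).2,
    fun t ht => (f2 t ht).1, fun t ht => (f2 t ht).2⟩

end Vale.Agent.P235
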