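import Vale.Agent.P235.Main
import Vale.Agent.P235.TGEO1
import Vale.Agent.P235.TMK
import Vale.Agent.P235.TBN
import Vale.Agent.P235.TSS
import Vale.Agent.P235.TM2
import Vale.Agent.P235.TGEO2a
import Vale.Agent.P235.TGEO2b
import Vale.Agent.P235.TGEO2
import Vale.Agent.P235.TPAD1
import Vale.Agent.P235.TPAD2
import Vale.Agent.P235.TPK1
import Vale.Agent.P235.TPK2
import Vale.Agent.P235.TPK3
import Vale.Agent.P235.TGEO3
import Vale.Agent.P235.TTM
import Vale.Agent.P235.TM1
import Vale.Agent.P235.TM3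
import Vale.Agent.P235.TM4
import Vale.Agent.P235.TEL
import Vale.Agent.P235.TTF1
import Vale.Agent.P235.TTF2
import Vale.Agent.P235.TSB
import Vale.Agent.P235.TCutA
import Vale.Agent.P235.TCutB
import Vale.Agent.P235.TCNT
import Vale.Agent.P235.TExM0
import Vale.Agent.P235.TSAP
import Vale.Agent.P235.TACG
import Vale.Agent.P235.TCOV
import Vale.Agent.P235.TGM
import Vale.Agent.P235.TFIN

namespace Vale.Agent.P235

theorem base : Base := ⟨cutA, (cutB cutA).1, (cutB cutA).2, exF, m0F, psiF⟩

theorem target : Target :=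
  target_of gm el tf1 pad1 pad2 cnt2 (geo3 geo1 (geo2 (geo2a base) (geo2b base)) cov)
    (pk1 base (tm (m1s base) (m2s base) (m3s base) (m4s base)) bn cnt1)
    (pk2 base (sa base) (sp base) (ss base) (sh base) (sb base) acg) (pk3 mk) pk4 fin emb
    (cons base) tf2

end Vale.Agent.P235
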