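import Vale.Agent.P235.Sts

namespace Vale.Agent.P235

open Finset
open scoped BigOperators

namespace MainAux

theorem dw_symm {V : Type} [Fintype V] [DecidableEq V] (W : Finset V → ℝ) (x y : V) :
    DW W x y = DW W y x := by
  unfold DW
  exact sum_congr rfl (fun C _ => by rw [abs_sub_comm])

theorem dw_nonneg {V : Type} [Fintype V] [DecidableEq V] (W : Finset V → ℝ) (h : ∀ C, 0 ≤ W C)
    (x y : V) : 0 ≤ DW W x y :=
  sum_nonneg (fun C _ => mul_nonneg (h C) (abs_nonneg _))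

theorem dw_tri {V : Type} [Fintype V] [DecidableEq V] (W : Finset V → ℝ) (h : ∀ C, 0 ≤ W C)
    (x y z : V) : DW W x z ≤ DW W x y + DW W y z := by
  unfold DW
  rw [← sum_add_distrib]
  refine sum_le_sum (fun C _ => ?_)
  rw [← mul_add]
  exact mul_le_mul_of_nonneg_left (abs_sub_le _ _ _) (h C)

theorem cost_nonneg {V : Type} [Fintype V] [DecidableEq V] (W : Finset V → ℝ) (h : ∀ C, 0 ≤ W C)
    (X : ℕ → Finset V) (g : ℕ → Finset V → ℝ) (σ : ℕ) : 0 ≤ cost W X g σ :=
  sum_nonneg (fun C _ => mul_nonneg (h C) (abs_nonneg _))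

theorem small {q : GP} {c : NP} (hc : c.OK q) : q.ζ < 1 ∧ 0 < q.η ∧ q.η ≤ 1 := by
  have h1 := hc.ζ1
  have h2 := hc.ζ0
  have h3 := hc.Δ3
  have h4 : c.θ * c.m ≤ 1 := mul_le_one₀ hc.θ1 hc.m0.le hc.m1
  have h5 : (1 : ℝ) ≤ ((q.k : ℝ) + 1) ^ 2 := one_le_pow₀ (by
    have : (0 : ℝ) ≤ q.k := Nat.cast_nonneg _
    linarith)
  have h6 : 1000 * q.ζ ≤ 1000 * ((q.k : ℝ) + 1) ^ 2 * (q.Δ + 1) * q.ζ := by
    have : (1 : ℝ) ≤ ((q.k : ℝ) + 1) ^ 2 * (q.Δ + 1) := by nlinarith
    nlinarith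
  have h7 : q.ζ < 1 := by linarith
  refine ⟨h7, pow_pos h2 2, ?_⟩
  unfold GP.η
  nlinarith

theorem scl_pos {q : GP} (h : 0 < q.η) (j : Sc) : 0 < q.scl j := by
  unfold GP.scl
  split_ifs
  · exact zpow_pos h _
  · exact zpow_pos (by norm_num) _

end MainAux

open MainAux

theorem core (hpad1 : PAD1S) (hpad2 : PAD2S) (hc2 : CNT2S) (hg3 : GEO3S) (h1 : PK1S)
    (h2 : PK2S) (h3 : PK3S) (h4 : PK4S) (hfin : FINS) (hemb : EMBS) (hcons : CONS)
    (htf2 : TF2S) (k : ℕ) : ∃ C : ℝ, ∀ (V : Type) [Fintype V] [LinearOrder V] [MetricSpace V]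
      (G : SimpleGraph V) (l : Sym2 V → ℝ) (S : V → Finset V) (dep : V → ℕ), Geo G l →
      Elim G S k → TreeF S dep → EmbedsL1 (fun x y : V => dist x y) C := by
  classical
  obtain ⟨p, q, c, m, hp, hc, hl, hpk, hm, hΔ, hN, hep⟩ := hcons k
  obtain ⟨C3, hC3, h3⟩ := h3 k
  subst hpk
  obtain ⟨hζ1, hη0, hη1⟩ := small hc
  set K : ℝ := (p.k : ℝ) + 1 with hK
  set c1 : ℝ := c.θ / 4 with hc1
  set c2 : ℝ := c.a * q.η ^ 5 * c.m / (16 * (q.Δ + 12)) / C3 with hc2'
  have hc1p : 0 < c1 := by have := hc.θ0; positivity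
  have hc2p : 0 < c2 := by
    have := hc.a0; have := hc.m0; have := hc.Δ3
    have : 0 < q.Δ + 12 := by linarith
    positivity
  have hK0 : 0 ≤ K := by positivity
  set C0 : ℝ := 2 / c2 + (1 + 2 * K / c2) / c1 with hC0
  have hC0p : 0 ≤ C0 := by positivity
  refine ⟨C0 * K, ?_⟩
  intro V _ _ _ G l S dep hG hE hT
  have hch := htf2 V G l S p.k dep hG hE hT
  obtain ⟨Dm, hDm0, hDm⟩ : ∃ Dm : ℝ, 0 ≤ Dm ∧ ∀ s t : V, dist s t ≤ Dm := by
    refine ⟨∑ a : V × V, dist a.1 a.2, sum_nonneg (fun _ _ => dist_nonneg), fun s t => ?_⟩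
    exact single_le_sum (f := fun a : V × V => dist a.1 a.2) (fun _ _ => dist_nonneg)
      (mem_univ (s, t))
  set B : ℝ := Dm / q.η ^ 3 with hB
  set Rm : ℝ := Dm / q.η ^ (2 * q.k + 4) with hRm
  have hB0 : 0 ≤ B := by positivity
  have hRm0 : 0 ≤ Rm := by positivity
  have hBd : ∀ s t : V, dist s t ≤ q.η ^ 3 * B := fun s t => by
    rw [hB, mul_div_cancel₀ _ (by positivity)]; exact hDm s t
  have hRd : ∀ s t : V, dist s t ≤ q.η ^ (2 * q.k + 4) * Rm := fun s t => by
    rw [hRm, mul_div_cancel₀ _ (by positivity)]; exact hDm s t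
  set L : ℝ := ((p.k : ℝ) + 2) * B + Rm with hL
  let Z := Fin (p.k + 2) → Fin m
  have : Nonempty (Fin m) := ⟨⟨0, hm⟩⟩
  have hZ : 0 < Fintype.card Z := Fintype.card_pos
  have hZ' : (0 : ℝ) < Fintype.card Z := by exact_mod_cast hZ
  let cl : Z → Sc → V → Finset V := fun z j => fcell G l S p.k (q.scl j) m (zext z)
  have hparts : ∀ z, Parts q (cl z) := fun z j => by
    have := hpad1 V G l S p.k dep m (q.scl j) (zext z) hm (scl_pos hη0 j) hG hE hT
    rw [hΔ]; exact this
  have hm' : (0 : ℝ) < m := by exact_mod_cast hm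
  have hpad : ∀ t : Nd V, ∀ e, e ≤ ndep dep t →
      2 * (univ.filter (fun z => ¬ Pad q (cl z) (fun σ => nX S (ch S dep t σ)) e)).card ≤
        Fintype.card Z := by
    intro t e he
    have h := hc2 V Z q cl (4 * ((p.k : ℝ) + 1) / m) (fun σ => nX S (ch S dep t σ)) e
      (by have := hc.Δ3; linarith) hc.ζ0 hζ1 (by positivity) (fun j x => by
        have := hpad2 V G l S p.k m (q.scl j) x hm (scl_pos hη0 j) hG hE
        rw [div_mul_eq_mul_div, le_div_iff₀ hm']
        convert this using 4) (by rw [hl.k]; exact (hch t).card e he)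
      (by rw [hl.k]; exact (hch t).card (e - 1) (by omega))
    rw [hl.k] at h
    have h' : (2 : ℝ) * (univ.filter (fun z => ¬ Pad q (cl z)
        (fun σ => nX S (ch S dep t σ)) e)).card ≤ Fintype.card Z := by
      have := mul_le_mul_of_nonneg_right hep hZ'.le
      refine le_trans ?_ (this.trans (by rw [one_mul]))
      have h'' : ((univ.filter (fun z => ¬ Pad q (cl z)
        (fun σ => nX S (ch S dep t σ)) e)).card : ℝ) ≤ ((p.k : ℝ) + 1) ^ 3 * (4 * p.k + 20) *
          (4 * ((p.k : ℝ) + 1) / m) * Fintype.card Z := by convert h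
      linarith
    exact_mod_cast h'
  have hW := fun z : Z => h1 V S dep p q m (cl z) B L hp hl.k hΔ hc.ζ0 hζ1 hN hT hE.card hch hB0
    hBd (by rw [hL]; linarith)
  choose W hW0 hCI ι fι dι sc ce hst using hW
  choose A Φ Ψ St' hcs hidx using hst
  have hP2 := fun (z : Z) (t : Nd V) =>
    @h2 V (ι z) _ _ _ (fι z) (dι z) p q c B L Rm (cl z) _ _ (A z t) (Φ z t) (Ψ z t) (St' z t)
      (W z) (sc z) (ce z) hp hc hl hB0 hRm0 le_rfl (hch t) (hparts z) (hcs z t) (hidx z t)
  have hX1 : ∀ v : V, nX S (ch S dep (v, 1) (ndep dep (v, 1))) = insert v (S v) := fun v => by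
    rw [hT.ch_top]; simp [nX]
  have hup : ∀ z x y, DW (W z) x y ≤ K * dist x y := fun z =>
    h4 V G l S p.k (W z) K hG hE (hW0 z) hK0 (fun v s hs t ht => by
      have := (hP2 z (v, 1)).1
      simp only [hX1] at this
      exact this s hs t ht)
  let D : V → V → ℝ := fun x y => (∑ z, DW (W z) x y) / Fintype.card Z
  have hfinal := hfin V S dep D K c1 c2 hT hc1p hc2p hK0
    (fun x y => by simp only [D, dw_symm _ x y])
    (fun x y w => by
      simp only [D]
      rw [← add_div, ← sum_add_distrib]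
      exact div_le_div_of_nonneg_right (sum_le_sum (fun z _ => dw_tri _ (hW0 z) _ _ _)) hZ'.le)
    (fun x y => div_nonneg (sum_nonneg (fun z _ => dw_nonneg _ (hW0 z) _ _)) hZ'.le)
    (fun x y => by
      simp only [D]
      rw [div_le_iff₀ hZ']
      calc ∑ z, DW (W z) x y ≤ ∑ _z : Z, K * dist x y := sum_le_sum (fun z _ => hup z x y)
        _ = _ := by rw [sum_const, card_univ, nsmul_eq_mul, mul_comm])
    (fun v s hs t ht => by
      simp only [D]
      rw [le_div_iff₀ hZ']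
      have hp' := hpad (v, 1) _ le_rfl
      set Bad := univ.filter (fun z => ¬ Pad q (cl z) (fun σ => nX S (ch S dep (v, 1) σ))
        (ndep dep (v, 1))) with hBad
      have e1 : ∑ z ∈ Badᶜ, c.θ / 2 * dist s t ≤ ∑ z ∈ Badᶜ, DW (W z) s t := by
        refine sum_le_sum (fun z hz => ?_)
        have hz' : Pad q (cl z) (fun σ => nX S (ch S dep (v, 1) σ)) (ndep dep (v, 1)) := by
          simpa [hBad] using hz
        have := (hP2 z (v, 1)).2.1 hz'.1
        simp only [hX1] at this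
        exact this s hs t ht
      have e2 : ∑ z ∈ Badᶜ, DW (W z) s t ≤ ∑ z, DW (W z) s t :=
        sum_le_sum_of_subset_of_nonneg (subset_univ _) (fun z _ _ => dw_nonneg _ (hW0 z) _ _)
      rw [sum_const, nsmul_eq_mul] at e1
      have e3 : (Fintype.card Z : ℝ) ≤ 2 * (Badᶜ).card := by
        have := Finset.card_compl Bad
        have h5 : Bad.card ≤ Fintype.card Z := card_le_univ _
        have : Fintype.card Z ≤ 2 * (Badᶜ).card := by omega
        exact_mod_cast this
      have e4 : 0 ≤ c.θ * dist s t := mul_nonneg hc.θ0.le dist_nonneg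
      rw [hc1]
      nlinarith)
    (fun v x y hv hx hy => by
      simp only [D]
      rw [le_div_iff₀ hZ']
      have hg := fun z => h3 V S dep (W z) v x y hT hE.card (hW0 z) (hCI z) hx hy
      choose g hg01 hgT hgc using hg
      have hXT : nX S (ch S dep (x, 2) (ndep dep (x, 2))) = {x} := by
        rw [hT.ch_top]; simp [nX]
      have hu := fun z => (hP2 z (x, 2)).2.2 x (2 * dep v) (g z) hXT (hg01 z) (hgT z) (hup z)
      choose u hu1 hu2 using hu
      have hX0 : nX S (ch S dep (x, 2) (2 * dep v)) = S v := by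
        rw [(hT.ch_desc x v hx).2]; simp [nX]
      have hge := hg3 V Z q c Rm cl (fun σ => nX S (ch S dep (x, 2) σ)) (2 * dep v)
        (ndep dep (x, 2)) x (fun z => cost (W z) (fun σ => nX S (ch S dep (x, 2) σ)) (g z)) u hc
        (by rw [hl.k]; exact hch _) hXT (by simpa only [hX0] using hv)
        (by have := (hT.ch_desc x v hx).1; unfold ndep; simp only; omega) hparts
        (fun e he => by convert hpad (x, 2) e he) (fun z σ => cost_nonneg _ (hW0 z) _ _ _) hRd
        hu1 hu2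
      have e1 : al (fun σ => nX S (ch S dep (x, 2) σ)) x (2 * dep v) =
          Metric.infDist x (S v : Set V) := by
        unfold al; simp only [hX0]
      rw [e1] at hge
      have e2 : ∑ z, ∑ σ ∈ Ico (2 * dep v) (ndep dep (x, 2)),
          cost (W z) (fun σ => nX S (ch S dep (x, 2) σ)) (g z) σ ≤ C3 * ∑ z, DW (W z) x y := by
        rw [mul_sum]; exact sum_le_sum (fun z _ => hgc z)
      have e3 := hge.trans e2
      rw [hc2', div_mul_eq_mul_div, div_mul_eq_mul_div, div_le_iff₀ hC3]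
      linarith)
  refine hemb V Z _ W (C0 / Fintype.card Z) (C0 * K) (by positivity) hW0 (fun x y => ?_)
    (fun x y => ?_)
  · have := hfinal x y
    simp only [D] at this
    rw [div_mul_eq_mul_div, mul_div_assoc]
    exact this
  · rw [div_mul_eq_mul_div, mul_div_assoc, mul_assoc]
    refine mul_le_mul_of_nonneg_left ?_ hC0p
    rw [div_le_iff₀ hZ']
    calc ∑ z, DW (W z) x y ≤ ∑ _z : Z, K * dist x y := sum_le_sum (fun z _ => hup z x y)
      _ = _ := by rw [sum_const, card_univ, nsmul_eq_mul, mul_comm]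

theorem target_of (hgm : GMS) (hel : ELS) (htf1 : TF1S) (hpad1 : PAD1S) (hpad2 : PAD2S)
    (hc2 : CNT2S) (hg3 : GEO3S) (h1 : PK1S) (h2 : PK2S) (h3 : PK3S) (h4 : PK4S) (hfin : FINS)
    (hemb : EMBS) (hcons : CONS) (htf2 : TF2S) : Target := by
  intro k
  obtain ⟨C, hC⟩ := core hpad1 hpad2 hc2 hg3 h1 h2 h3 h4 hfin hemb hcons htf2 k
  refine ⟨C, fun V _ G hG htw l hl => ?_⟩
  obtain ⟨mt, hd, hgeo⟩ := hgm V G l hG hl
  obtain ⟨o, S, hE⟩ := hel V G k htw
  obtain ⟨dep, hT⟩ := @htf1 V _ o G S k hG hE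
  have := @hC V _ o mt G l S dep hgeo hE hT
  have e : (fun x y : V => @dist V mt.toDist x y) = gdist G l := by
    funext x y; exact hd x y
  rw [e] at this
  exact this

end Vale.Agent.P235
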