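import Vale.Agent.P235.Defs

namespace Vale.Agent.P235

open Finset
open scoped BigOperators

noncomputable section

/-! ## Graph side -/

structure Geo {V : Type} [MetricSpace V] (G : SimpleGraph V) (l : Sym2 V → ℝ) : Prop where
  pos : ∀ u v, G.Adj u v → 0 < l s(u, v)
  le : ∀ u v (p : G.Walk u v), dist u v ≤ wlen l p
  ex : ∀ u v, ∃ p : G.Walk u v, wlen l p = dist u v

structure Elim {V : Type} [LinearOrder V] (G : SimpleGraph V) (S : V → Finset V) (k : ℕ) :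
    Prop where
  lt : ∀ v, ∀ u ∈ S v, u < v
  card : ∀ v, (S v).card ≤ k
  adj : ∀ u w, G.Adj u w → u < w → u ∈ S w
  cl : ∀ v, ∀ u ∈ S v, ∀ u' ∈ S v, u < u' → u ∈ S u'

def par {V : Type} [LinearOrder V] (S : V → Finset V) (v : V) : V :=
  if h : (S v).Nonempty then (S v).max' h else v

/-- `x` is a descendant of `v` (possibly `x = v`). -/
def Desc {V : Type} [LinearOrder V] (S : V → Finset V) (v x : V) : Prop :=
  ∃ i : ℕ, (par S)^[i] x = v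

open Classical in
def desc {V : Type} [Fintype V] [LinearOrder V] (S : V → Finset V) (v : V) : Finset V :=
  univ.filter (fun x => Desc S v x)

structure Tr {V : Type} [LinearOrder V] (S : V → Finset V) (dep : V → ℕ) : Prop where
  z : ∀ v, ¬ (S v).Nonempty → dep v = 0
  s : ∀ v, (S v).Nonempty → dep v = dep (par S v) + 1

abbrev Nd (V : Type) := V × Fin 3

def nX {V : Type} [LinearOrder V] (S : V → Finset V) (t : Nd V) : Finset V :=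
  if t.2 = 0 then S t.1 else if t.2 = 1 then insert t.1 (S t.1) else {t.1}

def npar {V : Type} [LinearOrder V] (S : V → Finset V) (t : Nd V) : Nd V :=
  if t.2 = 0 then (par S t.1, 1) else if t.2 = 1 then (t.1, 0) else (t.1, 1)

def ndep {V : Type} (dep : V → ℕ) (t : Nd V) : ℕ := 2 * dep t.1 + t.2.val

/-- The ancestor of the node `t` at depth `σ`. -/
def ch {V : Type} [LinearOrder V] (S : V → Finset V) (dep : V → ℕ) (t : Nd V) (σ : ℕ) : Nd V :=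
  (npar S)^[ndep dep t - σ] t

structure Chain {V : Type} [MetricSpace V] (X : ℕ → Finset V) (T n : ℕ) : Prop where
  zero : X 0 = ∅
  card : ∀ σ, σ ≤ T → (X σ).card ≤ n
  nest : ∀ σ, σ < T → X σ ⊆ X (σ + 1) ∨ X (σ + 1) ⊆ X σ
  sep : ∀ a b c, a ≤ b → b ≤ c → c ≤ T → ∀ w ∈ X a, ∀ y ∈ X c,
    ∃ z ∈ X b, dist y w = dist y z + dist z w

structure Part {V : Type} [MetricSpace V] (D : ℝ) (c : V → Finset V) : Prop where
  mem : ∀ x, x ∈ c x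
  eq : ∀ x y, y ∈ c x → c y = c x
  diam : ∀ x y, y ∈ c x → dist x y ≤ D

def padded {V : Type} [MetricSpace V] (c : V → Finset V) (r : ℝ) (x : V) : Prop :=
  ∀ y, dist x y ≤ r → y ∈ c x

/-! ## Cut functional -/

def ind {V : Type} [DecidableEq V] (s : V) (A : Finset V) : ℝ := if s ∈ A then 1 else 0

def cutI {V : Type} (L : ℝ) (X : Finset V) (g : Finset V → ℝ) (F : V → ℝ) : ℝ :=
  ∫ y in (-L)..L, g (X.filter (fun s => y < F s))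

def up {V : Type} [LinearOrder V] (X : Finset V) (F : V → ℝ) (s : V) : Finset V :=
  X.filter (fun t => F s < F t ∨ (F s = F t ∧ s ≤ t))

def cc {V : Type} [LinearOrder V] (X : Finset V) (g : Finset V → ℝ) (F : V → ℝ) (s : V) : ℝ :=
  g (up X F s) - g ((up X F s).erase s)

def U01 {α : Type} (g : α → ℝ) : Prop := ∀ a, 0 ≤ g a ∧ g a ≤ 1

/-! ## The state machine -/

structure MP where
  k : ℕ
  N : ℕ
  M : ℕ
  eb : ℝ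
  κ : ℝ
  lam : ℝ

def MP.G (p : MP) : ℕ := 2 ^ ((p.k + 1) ^ 2 * p.M ^ p.N + p.N)

def MP.a (p : MP) : ℝ := p.lam ^ p.k * p.κ

structure MP.OK (p : MP) : Prop where
  M2 : 2 ≤ p.M
  eb0 : 0 < p.eb
  eb1 : p.eb ≤ 1
  κ0 : 0 < p.κ
  κk : ((p.k : ℝ) + 1) * p.κ ≤ 1 / 2
  κN : p.κ * p.N ≤ p.eb / p.G / 4
  lam0 : 0 < p.lam
  lamle : p.lam ≤ 1 / (16 * ((p.k : ℝ) + 1))
  lam1 : p.lam * (2 / p.κ) ^ p.k ≤ 1 / (16 * ((p.k : ℝ) + 1))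

def vv (M : ℕ) (j : Fin M) : ℝ := 2 * (j.val : ℝ) / ((M : ℝ) - 1) - 1

def m2 (M : ℕ) : ℝ := 𝔼 j : Fin M, vv M j ^ 2

structure St (V ι : Type) where
  Ω : Type
  fin : Fintype Ω
  P : Ω → ℝ
  U : Ω → ℕ → ℝ
  β : Ω → ι → ℝ
  ξ : ℕ → V → ℝ

attribute [instance] St.fin

def Ex {V ι : Type} [Fintype ι] [DecidableEq ι] {M : ℕ} (S : St V ι)
    (f : S.Ω → (ι → Fin M) → ℝ) : ℝ :=
  ∑ ω, S.P ω * 𝔼 l : ι → Fin M, f ω l

def Fr {V ι : Type} (p : MP) (r : ℕ) (S : St V ι) (A : Finset ι) (ψ : ι → V → ℝ)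
    (ω : S.Ω) (l : ι → Fin p.M) (s : V) : ℝ :=
  ∑ i ∈ range r, p.lam ^ i * S.U ω i * S.ξ i s + p.a * ∑ i ∈ A, S.β ω i * vv p.M (l i) * ψ i s

def LB {V : Type} [MetricSpace V] (B : ℝ) (f : V → ℝ) : Prop :=
  (∀ s t, |f s - f t| ≤ dist s t) ∧ ∀ s, |f s| ≤ B

structure Inv {V ι : Type} [MetricSpace V] (p : MP) (r : ℕ) (B : ℝ) (S : St V ι)
    (A : Finset ι) : Prop where
  Ppos : ∀ ω, 0 < S.P ω
  Psum : ∑ ω, S.P ω = 1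
  β01 : ∀ ω i, S.β ω i = 0 ∨ S.β ω i = 1
  U0 : ∀ i, i < r → ∑ ω, S.P ω * S.U ω i = 0
  lb : ∀ i, i < r → LB B (S.ξ i)
  fl : ∀ i ∈ A, 1 - p.eb ≤ ∑ ω, S.P ω * S.β ω i
  Q : ∀ i, i < r → ∀ c : ℕ → ℝ, (∀ j, |c j| ≤ p.κ) → ∀ h : S.Ω → ℝ, U01 h →
    |∑ ω, S.P ω * h ω * (S.U ω i + ∑ j ∈ Ioo i r, c j * S.U ω j)| +
      p.κ * ∑ ω, S.P ω * (∑ i' ∈ A, S.β ω i') * min (h ω) (1 - h ω) ≤
        (∑ ω, S.P ω * h ω) - (∑ ω, S.P ω * h ω) ^ 2 / 2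

def Indep {Ω ι : Type} [DecidableEq ι] {M : ℕ} (w : Ω → (ι → Fin M) → ℝ) (i : ι) : Prop :=
  ∀ ω l j, w ω (Function.update l i j) = w ω l

def W01 {Ω L : Type} (w : Ω → L → ℝ) : Prop := ∀ ω l, 0 ≤ w ω l ∧ w ω l ≤ 1

structure Rel {V ι : Type} [Fintype ι] [DecidableEq ι] {M : ℕ} (L : ℝ) (X : Finset V)
    (S : St V ι) (F : S.Ω → (ι → Fin M) → V → ℝ)
    (S' : St V ι) (F' : S'.Ω → (ι → Fin M) → V → ℝ) (keep new : Finset ι) : Prop where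
  T0 : ∀ g, Ex S' (fun ω l => cutI L X g (F' ω l)) = Ex S (fun ω l => cutI L X g (F ω l))
  T1 : ∀ i ∈ keep, ∀ w' : S'.Ω → (ι → Fin M) → ℝ, W01 w' → Indep w' i →
    ∃ w : S.Ω → (ι → Fin M) → ℝ, W01 w ∧ Indep w i ∧ ∀ g,
      Ex S' (fun ω l => w' ω l * vv M (l i) * cutI L X g (F' ω l)) =
        Ex S (fun ω l => w ω l * vv M (l i) * cutI L X g (F ω l))
  T2 : ∀ i ∈ new, ∀ w' : S'.Ω → (ι → Fin M) → ℝ, Indep w' i → ∀ g,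
    Ex S' (fun ω l => w' ω l * vv M (l i) * cutI L X g (F' ω l)) = 0

/-- probability that `|F s - F t| < d` -/
def pcl {V ι : Type} [Fintype ι] [DecidableEq ι] {M : ℕ} (S : St V ι)
    (F : S.Ω → (ι → Fin M) → V → ℝ) (s t : V) (d : ℝ) : ℝ :=
  Ex S (fun ω l => if |F ω l s - F ω l t| < d then 1 else 0)

def alv {ι : Type} [DecidableEq ι] (A : ℕ → Finset ι) (σ : ℕ) : Finset ι := A (σ - 1) ∪ A σ

def Born {ι : Type} (A : ℕ → Finset ι) (i : ι) (b e : ℕ) : Prop :=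
  b < e ∧ i ∉ A b ∧ i ∈ A (b + 1) ∧ ∀ σ, b < σ → σ < e → i ∈ A σ

structure ChSt {V ι : Type} [Fintype V] [LinearOrder V] [MetricSpace V] [Fintype ι]
    [DecidableEq ι] (p : MP) (B L : ℝ) (X : ℕ → Finset V) (T : ℕ) (A : ℕ → Finset ι)
    (Φ Ψ : ℕ → ι → V → ℝ) (S : ℕ → St V ι) (W : Finset V → ℝ) : Prop where
  inv : ∀ σ, σ ≤ T → Inv p p.k B (S σ) (alv A σ)
  card : ∀ σ, σ ≤ T → (alv A σ).card ≤ p.N
  lb : ∀ σ, σ ≤ T → ∀ i, LB B (Ψ σ i)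
  step : ∀ σ, σ < T → ∀ i, Ψ (σ + 1) i = if i ∈ A σ then Ψ σ i else Φ σ i
  rel : ∀ σ, σ < T → Rel L (X σ) (S σ) (Fr p p.k (S σ) (alv A σ) (Ψ σ))
    (S (σ + 1)) (Fr p p.k (S (σ + 1)) (alv A (σ + 1)) (Ψ (σ + 1))) (A σ) (A (σ + 1) \ A σ)
  W0 : ∀ C, 0 ≤ W C
  marg : ∀ σ, σ ≤ T → ∀ g, ∑ C, W C * g (C ∩ X σ) =
    Ex (S σ) (fun ω l => cutI L (X σ) g (Fr p p.k (S σ) (alv A σ) (Ψ σ) ω l))

def cost {V : Type} [Fintype V] [DecidableEq V] (W : Finset V → ℝ) (X : ℕ → Finset V)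
    (g : ℕ → Finset V → ℝ) (σ : ℕ) : ℝ :=
  ∑ C, W C * |g (σ + 1) (C ∩ X (σ + 1)) - g σ (C ∩ X σ)|

def DW {V : Type} [Fintype V] [DecidableEq V] (W : Finset V → ℝ) (x y : V) : ℝ :=
  ∑ C, W C * |ind x C - ind y C|

/-! ## Scales -/

abbrev Sc := Bool × ℤ

structure GP where
  k : ℕ
  Δ : ℝ
  ζ : ℝ

def GP.η (q : GP) : ℝ := q.ζ ^ 2

def GP.scl (q : GP) (j : Sc) : ℝ := if j.1 = true then q.η ^ j.2 else 2 ^ j.2

def GP.lo (q : GP) (j : Sc) : ℝ := if j.1 = true then q.η ^ 3 * q.η ^ j.2 else 2 ^ j.2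

def GP.hi (q : GP) (j : Sc) : ℝ :=
  if j.1 = true then q.η ^ j.2 / q.η ^ (2 * q.k + 4) else (2 * q.Δ + 2) * 2 ^ j.2

def GP.cap (q : GP) (j : Sc) : ℝ := if j.1 = true then q.ζ * q.η ^ j.2 else 2 ^ j.2

def act {V : Type} [MetricSpace V] (q : GP) (Y : Finset V) (j : Sc) : Prop :=
  ∃ s ∈ Y, ∃ t ∈ Y, q.lo j < dist s t ∧ dist s t ≤ q.hi j

def ActG {V : Type} [MetricSpace V] (q : GP) (cl : Sc → V → Finset V) (Y : Finset V) (j : Sc)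
    (P : Finset V) : Prop :=
  act q Y j ∧ ∃ s ∈ Y, cl j s = P

def BornG {V : Type} [MetricSpace V] (q : GP) (cl : Sc → V → Finset V) (X : ℕ → Finset V)
    (j : Sc) (P : Finset V) (b e : ℕ) : Prop :=
  b < e ∧ ¬ ActG q cl (X b) j P ∧ ActG q cl (X (b + 1)) j P ∧
    ∀ σ, b < σ → σ < e → ActG q cl (X σ) j P

/-- `min (cap, dist (s, Z ∪ Pᶜ))` -/
def psi {V : Type} [Fintype V] [DecidableEq V] [MetricSpace V] (Z P : Finset V) (c : ℝ) (s : V) :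
    ℝ :=
  (Z ∪ Pᶜ).fold min c (fun z => dist s z)

def Parts {V : Type} [MetricSpace V] (q : GP) (cl : Sc → V → Finset V) : Prop :=
  ∀ j, Part (q.Δ * q.scl j) (cl j)

def ACpad {V : Type} [MetricSpace V] (q : GP) (cl : Sc → V → Finset V) (Y : Finset V) : Prop :=
  ∀ s ∈ Y, ∀ t ∈ Y, ∀ j : ℤ, q.Δ * 2 ^ j < dist s t → dist s t ≤ 2 * q.Δ * 2 ^ j →
    padded (cl (false, j)) (2 ^ j) s

def Pad {V : Type} [MetricSpace V] (q : GP) (cl : Sc → V → Finset V) (X : ℕ → Finset V)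
    (e : ℕ) : Prop :=
  ACpad q cl (X e) ∧ ∀ j : ℤ, (act q (X (e - 1)) (true, j) ∨ act q (X e) (true, j)) →
    ∀ s ∈ X e, padded (cl (true, j)) (q.η ^ j) s

/-- numeric constants of the lower bound -/
structure NP where
  a : ℝ
  θ : ℝ
  m : ℝ
  ε : ℝ

structure NP.OK (c : NP) (q : GP) : Prop where
  a0 : 0 < c.a
  a1 : c.a ≤ 1
  θ0 : 0 < c.θ
  θ1 : c.θ ≤ 1
  m0 : 0 < c.m
  m1 : c.m ≤ 1
  ε0 : 0 ≤ c.ε
  ε1 : 16 * ((q.k : ℝ) + 1) * c.ε ≤ 1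
  Δ3 : 3 ≤ q.Δ
  ζ0 : 0 < q.ζ
  ζ1 : 1000 * ((q.k : ℝ) + 1) ^ 2 * (q.Δ + 1) * q.ζ ≤ c.θ * c.m

def SLh {V : Type} [Fintype V] [DecidableEq V] [MetricSpace V] (q : GP) (c : NP) (Rm : ℝ)
    (cl : Sc → V → Finset V) (X : ℕ → Finset V) (t0 T : ℕ) (co : ℕ → ℝ) (u : ℕ → V → ℝ) : Prop :=
  ∀ e, e ≤ T → ACpad q cl (X e) → ∀ (j : ℤ) (P : Finset V) (b : ℕ), t0 ≤ b →
    BornG q cl X (true, j) P b e → ∀ J, J ⊆ X e → ∀ h δ D : ℝ, 0 ≤ h → 0 < D → D ≤ Rm →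
      (∀ s ∈ X e, |psi (X b ∩ P) P (q.cap (true, j)) s - (if s ∈ J then h else 0)| ≤ δ) →
      (∀ s ∈ J, ∀ t ∈ X e, t ∉ J → D ≤ dist s t) → 4 * c.a * (h + 2 * δ) ≤ c.θ * D →
      c.a * h * c.m * |∑ s ∈ J, u e s| ≤
        ∑ σ ∈ Ico b e, co σ + 5 * ((q.k : ℝ) + 1) * c.a * δ + c.a * h * c.m * c.ε

def Hh {V : Type} [DecidableEq V] [MetricSpace V] (q : GP) (c : NP) (Rm : ℝ)
    (cl : Sc → V → Finset V) (X : ℕ → Finset V) (t0 T : ℕ) (x : V) (co : ℕ → ℝ)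
    (u : ℕ → V → ℝ) : Prop :=
  ∀ e, t0 ≤ e → e ≤ T → ACpad q cl (X e) → ∀ y ∈ X e, ∀ r R : ℝ, 0 ≤ r → 0 < R → R ≤ Rm →
    (∀ s ∈ X e, dist s y ≤ r ∨ R ≤ dist s y) → ((q.k : ℝ) + 1) * r ≤ c.θ * R →
    (1 - ∑ s ∈ (X e).filter (fun s => dist s y ≤ r), u e s - c.ε) *
        (c.θ * R - ((q.k : ℝ) + 1) * r) ≤
      ∑ σ ∈ Ico t0 T, co σ + ((q.k : ℝ) + 1) * dist x y

def al {V : Type} [MetricSpace V] (X : ℕ → Finset V) (x : V) (σ : ℕ) : ℝ :=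
  Metric.infDist x (X σ : Set V)

/-- `β = η^4 α` -/
def bet {V : Type} [MetricSpace V] (q : GP) (X : ℕ → Finset V) (x : V) (t0 : ℕ) : ℝ :=
  q.η ^ 4 * al X x t0

def alb {V : Type} [MetricSpace V] (q : GP) (X : ℕ → Finset V) (x : V) (t0 σ : ℕ) : ℝ :=
  min (al X x σ) (2 * bet q X x t0)

structure Cand {V : Type} [MetricSpace V] (q : GP) (X : ℕ → Finset V) (t0 T : ℕ) (x : V)
    (jt : ℤ) (τ e : ℕ) (y : V) (j : ℤ) (b e' : ℕ) : Prop where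
  τe : τ + 1 ≤ e
  eT : e ≤ T
  yX : y ∈ X e
  xy : dist x y ≤ al X x (τ + 1)
  ale : al X x (τ + 1) - 8 * q.η ^ j ≤ al X x e
  jtj : jt ≤ j
  del : alb q X x t0 τ - al X x (τ + 1) ≤ 4 * q.η ^ j
  t0b : t0 ≤ b
  be : b < e'
  ee : e' ≤ e
  ee' : e ≤ e' + 1
  yX' : y ∈ X e'
  acts : ∀ σ, b < σ → σ ≤ e' → act q (X σ) (true, j)
  far : ∀ z ∈ X b, 2 * q.η * q.η ^ j ≤ dist y z
  gap : ∀ s ∈ X e, dist s y ≤ q.η ^ 2 * q.η ^ j ∨ q.hi (true, j) < dist s y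
  unp : ∀ j' : ℤ, jt ≤ j' → j' < j → act q (X e) (true, j') →
    ∃ b', t0 ≤ b' ∧ b' < e ∧ ¬ act q (X b') (true, j') ∧
      (∀ σ, b' < σ → σ ≤ e → act q (X σ) (true, j')) ∧
      ∃ z ∈ X b', dist y z < 12 * q.η * q.η ^ j'

/-- basic situation of the lower bound -/
structure Sit {V : Type} [MetricSpace V] (q : GP) (X : ℕ → Finset V) (t0 T : ℕ) (x : V)
    (jt : ℤ) (τ : ℕ) : Prop where
  ch : Chain X T (q.k + 1)
  last : X T = {x}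
  ne : (X t0).Nonempty
  t0τ : t0 ≤ τ
  τT : τ < T
  top1 : q.η ^ 3 * al X x t0 < q.η ^ jt
  top2 : q.η ^ jt ≤ q.η ^ 2 * al X x t0
  drop : al X x (τ + 1) < alb q X x t0 τ

def Good {V : Type} [MetricSpace V] (q : GP) (c : NP) (X : ℕ → Finset V) (t0 T : ℕ) (x : V)
    (co : ℕ → ℝ) (τ : ℕ) : Prop :=
  ∃ b e, t0 ≤ b ∧ b ≤ τ ∧ τ < e ∧ e ≤ T ∧
    c.a * q.η * c.m / (q.Δ + 12) * (alb q X x t0 (min (b + 1) τ) - alb q X x t0 e) ≤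
      ∑ σ ∈ Ico b e, co σ

end

end Vale.Agent.P235
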