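import Vale.Agent.P235.Stm

namespace Vale.Agent.P235

open Finset
open scoped BigOperators

noncomputable section

/-! ## Graph side -/

def GMS : Prop :=
  ∀ (V : Type) [Fintype V] (G : SimpleGraph V) (l : Sym2 V → ℝ), G.Connected →
    (∀ e ∈ G.edgeSet, 0 < l e) →
    ∃ m : MetricSpace V, (∀ x y, @dist V m.toDist x y = gdist G l x y) ∧ @Geo V m G l

def ELS : Prop :=
  ∀ (V : Type) [Fintype V] (G : SimpleGraph V) (k : ℕ), TreewidthLE G k →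
    ∃ (o : LinearOrder V) (S : V → Finset V), @Elim V o G S k

structure TreeF {V : Type} [LinearOrder V] (S : V → Finset V) (dep : V → ℕ) : Prop where
  tr : Tr S dep
  lt : ∀ v, ∀ u ∈ S v, u < v
  parmem : ∀ v, (S v).Nonempty → par S v ∈ S v
  sub : ∀ v, (S v).Nonempty → S v ⊆ insert (par S v) (S (par S v))
  refl : ∀ v, Desc S v v
  trans : ∀ u v x, Desc S u v → Desc S v x → Desc S u x
  le : ∀ v x, Desc S v x → v ≤ x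
  anc : ∀ v, ∀ u ∈ S v, Desc S u v
  out : ∀ v x, Desc S v x → ∀ u ∈ S x, Desc S v u ∨ u ∈ S v
  lca : ∀ x y, ∃ w,
    (x = w ∨ ∃ v, (S v).Nonempty ∧ par S v = w ∧ Desc S v x ∧ ¬ Desc S v y) ∧
    (y = w ∨ ∃ v, (S v).Nonempty ∧ par S v = w ∧ Desc S v y ∧ ¬ Desc S v x)
  ch_top : ∀ t, ch S dep t (ndep dep t) = t
  ch_par : ∀ t σ, σ < ndep dep t → npar S (ch S dep t (σ + 1)) = ch S dep t σ
  ch_dep : ∀ t σ, σ ≤ ndep dep t → ndep dep (ch S dep t σ) = σ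
  npar_dep : ∀ t, ndep dep t ≠ 0 → ndep dep (npar S t) + 1 = ndep dep t
  root : ∀ t, ndep dep t = 0 → nX S t = ∅
  ch_desc : ∀ x v, Desc S v x → dep v ≤ dep x ∧ ch S dep (x, 2) (2 * dep v) = (v, 0)
  ch_anc : ∀ t σ, Desc S (ch S dep t σ).1 t.1

def TF1S : Prop :=
  ∀ (V : Type) [Fintype V] [LinearOrder V] (G : SimpleGraph V) (S : V → Finset V) (k : ℕ),
    G.Connected → Elim G S k → ∃ dep, TreeF S dep

def TF2S : Prop :=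
  ∀ (V : Type) [Fintype V] [LinearOrder V] [MetricSpace V] (G : SimpleGraph V) (l : Sym2 V → ℝ)
    (S : V → Finset V) (k : ℕ) (dep : V → ℕ), Geo G l → Elim G S k → TreeF S dep →
    ∀ t, Chain (fun σ => nX S (ch S dep t σ)) (ndep dep t) (k + 1)

/-! ## Padded partitions -/

def dIn {V : Type} (G : SimpleGraph V) (l : Sym2 V → ℝ) (C : Finset V) (u v : V) : ℝ :=
  sInf {x : ℝ | ∃ p : G.Walk u v, (∀ z ∈ p.support, z ∈ C) ∧ wlen l p = x}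

def win (r : ℝ) (m s : ℕ) (h : ℝ) : ℤ := (⌊h / r⌋ + s) / (m : ℤ)

open Classical in
def comp {V : Type} [Fintype V] (G : SimpleGraph V) (C : Finset V) (x : V) : Finset V :=
  univ.filter (fun y => ∃ p : G.Walk x y, ∀ z ∈ p.support, z ∈ C)

def mn {V : Type} [LinearOrder V] (C : Finset V) (x : V) : V :=
  if h : C.Nonempty then C.min' h else x

def cell {V : Type} [Fintype V] [LinearOrder V] (G : SimpleGraph V) (l : Sym2 V → ℝ) (r : ℝ)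
    (m : ℕ) (z : ℕ → ℕ) : ℕ → V → Finset V
  | 0, _ => univ
  | j + 1, x =>
    comp G ((cell G l r m z j x).filter (fun y =>
      win r m (z j) (dIn G l (cell G l r m z j x) (mn (cell G l r m z j x) x) y) =
        win r m (z j) (dIn G l (cell G l r m z j x) (mn (cell G l r m z j x) x) x))) x

def fcell {V : Type} [Fintype V] [LinearOrder V] [MetricSpace V] (G : SimpleGraph V)
    (l : Sym2 V → ℝ) (S : V → Finset V) (k : ℕ) (r : ℝ) (m : ℕ) (z : ℕ → ℕ) (x : V) : Finset V :=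
  (cell G l r m z (k + 1) x).filter (fun y =>
    ∀ c ∈ insert (mn (cell G l r m z (k + 1) x) x) (S (mn (cell G l r m z (k + 1) x) x)),
      win r m (z (k + 1)) (dist c y) = win r m (z (k + 1)) (dist c x))

def zext {n m : ℕ} (z : Fin n → Fin m) (i : ℕ) : ℕ := if h : i < n then (z ⟨i, h⟩).val else 0

def PAD1S : Prop :=
  ∀ (V : Type) [Fintype V] [LinearOrder V] [MetricSpace V] (G : SimpleGraph V) (l : Sym2 V → ℝ)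
    (S : V → Finset V) (k : ℕ) (dep : V → ℕ) (m : ℕ) (r : ℝ) (z : ℕ → ℕ), 0 < m → 0 < r →
    Geo G l → Elim G S k → TreeF S dep → Part (3 * (m : ℝ) * r) (fcell G l S k r m z)

open Classical in
def PAD2S : Prop :=
  ∀ (V : Type) [Fintype V] [LinearOrder V] [MetricSpace V] (G : SimpleGraph V) (l : Sym2 V → ℝ)
    (S : V → Finset V) (k : ℕ) (m : ℕ) (r : ℝ) (x : V), 0 < m → 0 < r →
    Geo G l → Elim G S k →
    ((univ.filter (fun z : Fin (k + 2) → Fin m =>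
      ¬ padded (fcell G l S k r m (zext z)) r x)).card : ℝ) * m ≤
      4 * ((k : ℝ) + 1) * Fintype.card (Fin (k + 2) → Fin m)

/-! ## Cut functional -/

structure CutA : Prop where
  rep : ∀ (V : Type) [LinearOrder V] (L : ℝ) (X : Finset V) (g : Finset V → ℝ) (F : V → ℝ),
    cutI L X g F = ∑ A ∈ X.powerset, cutI L X (fun A' => if A' = A then 1 else 0) F * g A
  mono : ∀ (V : Type) [LinearOrder V] (L : ℝ) (X : Finset V) (g g' : Finset V → ℝ) (F : V → ℝ),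
    0 ≤ L → (∀ A, A ⊆ X → g A ≤ g' A) → cutI L X g F ≤ cutI L X g' F
  lin : ∀ (V : Type) [LinearOrder V] (L : ℝ) (X : Finset V) (g g' : Finset V → ℝ) (F : V → ℝ)
    (a b : ℝ), cutI L X (fun A => a * g A + b * g' A) F = a * cutI L X g F + b * cutI L X g' F
  res : ∀ (V : Type) [LinearOrder V] (L : ℝ) (X Y : Finset V) (g : Finset V → ℝ) (F : V → ℝ),
    Y ⊆ X → cutI L X (fun A => g (A ∩ Y)) F = cutI L Y g F
  congr : ∀ (V : Type) [LinearOrder V] (L : ℝ) (X : Finset V) (g : Finset V → ℝ) (F F' : V → ℝ),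
    (∀ s ∈ X, F s = F' s) → cutI L X g F = cutI L X g F'
  const : ∀ (V : Type) [LinearOrder V] (L : ℝ) (X : Finset V) (c : ℝ) (F : V → ℝ),
    cutI L X (fun _ => c) F = 2 * L * c
  xor : ∀ (V : Type) [LinearOrder V] (L : ℝ) (X : Finset V) (F : V → ℝ) (s t : V),
    s ∈ X → t ∈ X → |F s| ≤ L → |F t| ≤ L →
    cutI L X (fun A => |ind s A - ind t A|) F = |F s - F t|
  lip : ∀ (V : Type) [LinearOrder V] (L : ℝ) (X : Finset V) (g : Finset V → ℝ) (F F' : V → ℝ),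
    0 ≤ L → U01 g → |cutI L X g F - cutI L X g F'| ≤ ∑ s ∈ X, |F s - F' s|

structure CutB : Prop where
  rank : ∀ (V : Type) [LinearOrder V] (L : ℝ) (X : Finset V) (g : Finset V → ℝ) (F0 F : V → ℝ),
    (∀ s ∈ X, ∀ t ∈ up X F0 s, F s ≤ F t) → (∀ s ∈ X, |F s| ≤ L) →
    cutI L X g F = L * (g ∅ + g X) + ∑ s ∈ X, cc X g F0 s * F s
  aff : ∀ (V : Type) [LinearOrder V] (L : ℝ) (X J : Finset V) (g : Finset V → ℝ) (F : V → ℝ)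
    (u : ℝ), J ⊆ X → (∀ s ∈ J, ∀ t ∈ X, t ∉ J → |u| ≤ |F s - F t|) →
    (∀ s ∈ X, |F s| + |u| ≤ L) →
    cutI L X g (fun s => F s + if s ∈ J then u else 0) = cutI L X g F + u * ∑ s ∈ J, cc X g F s
  shift : ∀ (V : Type) [LinearOrder V] (L : ℝ) (X : Finset V) (g : Finset V → ℝ) (F : V → ℝ)
    (C : ℝ), (∀ s ∈ X, |F s| ≤ L) → (∀ s ∈ X, |F s + C| ≤ L) →
    cutI L X g (fun s => F s + C) = cutI L X g F + C * (g X - g ∅)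

def CutHS : Prop :=
  ∀ (V : Type) [LinearOrder V] (L : ℝ) (X J : Finset V) (g : Finset V → ℝ) (F : V → ℝ)
    (y : V) (r R : ℝ), J ⊆ X → y ∈ J → U01 g → (∀ s ∈ J, |F s - F y| ≤ r) →
    (∀ s ∈ X, s ∉ J → R ≤ |F s - F y|) → r ≤ R → (∀ s ∈ X, |F s| + R ≤ L) →
    (1 - ∑ s ∈ J, cc X g F s) * (R - r) ≤ cutI L X (fun A => |g A - ind y A|) F

/-! ## Expectations -/

structure ExF : Prop where
  lin : ∀ (V ι : Type) [Fintype ι] [DecidableEq ι] (M : ℕ) (S : St V ι)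
    (f g : S.Ω → (ι → Fin M) → ℝ) (a b : ℝ),
    Ex S (fun ω l => a * f ω l + b * g ω l) = a * Ex S f + b * Ex S g
  sum : ∀ (V ι : Type) [Fintype ι] [DecidableEq ι] (M : ℕ) (S : St V ι) (α : Type)
    (J : Finset α) (f : α → S.Ω → (ι → Fin M) → ℝ),
    Ex S (fun ω l => ∑ s ∈ J, f s ω l) = ∑ s ∈ J, Ex S (f s)
  mono : ∀ (V ι : Type) [Fintype ι] [DecidableEq ι] (M : ℕ) (S : St V ι)
    (f g : S.Ω → (ι → Fin M) → ℝ), (∀ ω, 0 ≤ S.P ω) → (∀ ω l, f ω l ≤ g ω l) → Ex S f ≤ Ex S g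
  om : ∀ (V ι : Type) [Fintype ι] [DecidableEq ι] (M : ℕ) (S : St V ι) (f : S.Ω → ℝ), 0 < M →
    Ex S (fun ω (_ : ι → Fin M) => f ω) = ∑ ω, S.P ω * f ω
  indep : ∀ (V ι : Type) [Fintype ι] [DecidableEq ι] (M : ℕ) (S : St V ι)
    (w : S.Ω → (ι → Fin M) → ℝ) (i : ι) (φ : Fin M → ℝ), Indep w i →
    Ex S (fun ω l => w ω l * φ (l i)) = Ex S w * 𝔼 j, φ j
  swap : ∀ (ι : Type) [Fintype ι] [DecidableEq ι] (M : ℕ) (i : ι)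
    (f : (ι → Fin M) → Fin M → ℝ),
    𝔼 l : ι → Fin M, 𝔼 j : Fin M, f l j =
      𝔼 l : ι → Fin M, 𝔼 j : Fin M, f (Function.update l i j) (l i)
  resample : ∀ (ι : Type) [Fintype ι] [DecidableEq ι] (M : ℕ) (i : ι) (f : (ι → Fin M) → ℝ),
    𝔼 l : ι → Fin M, f l = 𝔼 l : ι → Fin M, 𝔼 j : Fin M, f (Function.update l i j)
  vabs : ∀ (M : ℕ) (j : Fin M), 2 ≤ M → |vv M j| ≤ 1
  vmean : ∀ M : ℕ, 2 ≤ M → 𝔼 j : Fin M, vv M j = 0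
  vsep : ∀ (M : ℕ) (j j' : Fin M), 2 ≤ M → j ≠ j' → 2 / (M : ℝ) ≤ |vv M j - vv M j'|
  m2pos : ∀ M : ℕ, 2 ≤ M → 0 < m2 M
  m2le : ∀ M : ℕ, 2 ≤ M → m2 M ≤ 1

structure M0F : Prop where
  a0 : ∀ p : MP, p.OK → 0 < p.a ∧ p.a ≤ 1 ∧ p.a * p.N ≤ 1 / 4 ∧ p.κ * p.N ≤ 1 / 4 ∧ p.lam ≤ 1
  U1 : ∀ (V ι : Type) [MetricSpace V] (p : MP) (r : ℕ) (B : ℝ) (S : St V ι) (A : Finset ι),
    p.OK → Inv p r B S A → ∀ ω i, i < r → |S.U ω i| ≤ 1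
  bd : ∀ (V ι : Type) [MetricSpace V] (p : MP) (r : ℕ) (B : ℝ) (S : St V ι) (A A' : Finset ι)
    (ψ : ι → V → ℝ), p.OK → Inv p r B S A → A'.card ≤ p.N → (∀ i, LB B (ψ i)) → 0 ≤ B →
    ∀ ω l s, |Fr p r S A' ψ ω l s| ≤ ((r : ℝ) + 1) * B
  lip : ∀ (V ι : Type) [MetricSpace V] (p : MP) (r : ℕ) (B : ℝ) (S : St V ι) (A A' : Finset ι)
    (ψ : ι → V → ℝ), p.OK → Inv p r B S A → A'.card ≤ p.N → (∀ i, LB B (ψ i)) →
    ∀ ω l s t, |Fr p r S A' ψ ω l s - Fr p r S A' ψ ω l t| ≤ ((r : ℝ) + 1) * dist s t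
  split : ∀ (V ι : Type) [DecidableEq ι] (p : MP) (r : ℕ) (S : St V ι) (A : Finset ι)
    (ψ : ι → V → ℝ) (i : ι), i ∈ A → ∀ ω l s,
    Fr p r S A ψ ω l s = Fr p r S (A.erase i) ψ ω l s + p.a * (S.β ω i * vv p.M (l i) * ψ i s)
  upd : ∀ (V ι : Type) [DecidableEq ι] (p : MP) (r : ℕ) (S : St V ι) (A : Finset ι)
    (ψ : ι → V → ℝ) (i : ι), i ∉ A → ∀ ω l j,
    Fr p r S A ψ ω (Function.update l i j) = Fr p r S A ψ ω l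
  ex : ∀ (k N M : ℕ) (eb : ℝ), 2 ≤ M → 0 < eb → eb ≤ 1 →
    ∃ p : MP, p.OK ∧ p.k = k ∧ p.N = N ∧ p.M = M ∧ p.eb = eb

/-! ## Machine steps -/

def M1S : Prop :=
  ∀ (V ι : Type) [LinearOrder V] [MetricSpace V] [Fintype ι] [DecidableEq ι] (p : MP) (B L : ℝ)
    (X : Finset V) (S : St V ι) (A : Finset ι) (ψ : ι → V → ℝ) (i : ι), p.OK →
    Inv p p.k B S A → A.card ≤ p.N → i ∈ A → LB B (ψ i) →
    ∃ S' : St V ι, Inv p (p.k + 1) B S' (A.erase i) ∧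
      Rel L X S (Fr p p.k S A ψ) S' (Fr p (p.k + 1) S' (A.erase i) ψ) (A.erase i) ∅

def M2S : Prop :=
  ∀ (V ι : Type) [LinearOrder V] [MetricSpace V] [Fintype ι] [DecidableEq ι] (p : MP) (B L : ℝ)
    (X : Finset V) (S : St V ι) (A : Finset ι) (ψ : ι → V → ℝ), p.OK →
    Inv p (p.k + 1) B S A → A.card ≤ p.N → (∀ i, LB B (ψ i)) → X.card ≤ p.k + 1 → 0 ≤ B →
    ((p.k : ℝ) + 2) * B ≤ L →
    ∃ S' : St V ι, Inv p p.k B S' A ∧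
      Rel L X S (Fr p (p.k + 1) S A ψ) S' (Fr p p.k S' A ψ) A ∅

def M3S : Prop :=
  ∀ (V ι : Type) [LinearOrder V] [MetricSpace V] [Fintype ι] [DecidableEq ι] (p : MP) (B L : ℝ)
    (X : Finset V) (S : St V ι) (A : Finset ι) (ψ : ι → V → ℝ), p.OK →
    Inv p p.k B S A → A.card ≤ p.N → (∀ i, LB B (ψ i)) → X.card ≤ p.k + 1 → 0 ≤ B →
    ((p.k : ℝ) + 2) * B ≤ L →
    ∃ S' : St V ι, Inv p p.k B S' A ∧ Fintype.card S'.Ω ≤ p.G ∧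
      Rel L X S (Fr p p.k S A ψ) S' (Fr p p.k S' A ψ) A ∅

def M4S : Prop :=
  ∀ (V ι : Type) [LinearOrder V] [MetricSpace V] [Fintype ι] [DecidableEq ι] (p : MP) (B L : ℝ)
    (X : Finset V) (S : St V ι) (A A' : Finset ι) (ψ ψ' : ι → V → ℝ), p.OK →
    Inv p p.k B S A → Fintype.card S.Ω ≤ p.G → Disjoint A A' → (A ∪ A').card ≤ p.N →
    (∀ i ∈ A, ψ' i = ψ i) → (∀ i ∈ A', ∀ s ∈ X, ψ' i s = 0) →
    ∃ S' : St V ι, Inv p p.k B S' (A ∪ A') ∧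
      Rel L X S (Fr p p.k S A ψ) S' (Fr p p.k S' (A ∪ A') ψ') A A'

def talv {τ ι : Type} [DecidableEq ι] (pa : τ → τ) (dp : τ → ℕ) (A : τ → Finset ι) (t : τ) :
    Finset ι :=
  if dp t = 0 then ∅ else A (pa t) ∪ A t

def TMS : Prop :=
  ∀ (V ι τ : Type) [LinearOrder V] [MetricSpace V] [Fintype ι] [DecidableEq ι] (p : MP)
    (B L : ℝ) (pa : τ → τ) (dp : τ → ℕ) (X : τ → Finset V) (A : τ → Finset ι)
    (Φ : τ → ι → V → ℝ), p.OK → 0 ≤ B → ((p.k : ℝ) + 2) * B ≤ L →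
    (∀ t, dp t ≠ 0 → dp (pa t) + 1 = dp t) → (∀ t, dp t = 0 → A t = ∅) →
    (∀ t, (X t).card ≤ p.k + 1) → (∀ t, 2 * (A t).card ≤ p.N) → (∀ t i, LB B (Φ t i)) →
    (∀ t i, ∀ s ∈ X t, Φ t i s = 0) →
    ∃ (S : τ → St V ι) (Ψ : τ → ι → V → ℝ),
      (∀ t, Inv p p.k B (S t) (talv pa dp A t)) ∧ (∀ t i, LB B (Ψ t i)) ∧
      (∀ t, dp t ≠ 0 → ∀ i, Ψ t i = if i ∈ A (pa t) then Ψ (pa t) i else Φ (pa t) i) ∧
      ∀ t, dp t ≠ 0 → Rel L (X (pa t)) (S (pa t))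
        (Fr p p.k (S (pa t)) (talv pa dp A (pa t)) (Ψ (pa t))) (S t)
        (Fr p p.k (S t) (talv pa dp A t) (Ψ t)) (A (pa t)) (A t \ A (pa t))

/-! ## One-state estimates -/

def SAS : Prop :=
  ∀ (V ι : Type) [LinearOrder V] [MetricSpace V] [Fintype ι] [DecidableEq ι] (p : MP) (B : ℝ)
    (S : St V ι) (A : Finset ι) (ψ : ι → V → ℝ) (i : ι) (s t : V) (d : ℝ), p.OK →
    Inv p p.k B S A → i ∈ A → 0 < d → p.M * d ≤ p.a * |ψ i s - ψ i t| →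
    pcl S (Fr p p.k S A ψ) s t d ≤ p.eb + 1 / p.M

def SPS : Prop :=
  ∀ (V ι : Type) [LinearOrder V] [MetricSpace V] [Fintype ι] [DecidableEq ι] (p : MP) (B L : ℝ)
    (X : Finset V) (S : St V ι) (A : Finset ι) (ψ : ι → V → ℝ) (s t : V), p.OK →
    Inv p p.k B S A → A.card ≤ p.N → (∀ i, LB B (ψ i)) → 0 ≤ B → ((p.k : ℝ) + 2) * B ≤ L →
    s ∈ X → t ∈ X →
    Ex S (fun ω l => cutI L X (fun C => |ind s C - ind t C|) (Fr p p.k S A ψ ω l)) ≤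
        ((p.k : ℝ) + 1) * dist s t ∧
      ∀ d e : ℝ, 0 ≤ d → pcl S (Fr p p.k S A ψ) s t d ≤ e →
        d * (1 - e) ≤
          Ex S (fun ω l => cutI L X (fun C => |ind s C - ind t C|) (Fr p p.k S A ψ ω l))

def SSS : Prop :=
  ∀ (V ι : Type) [LinearOrder V] [MetricSpace V] [Fintype ι] [DecidableEq ι] (p : MP) (B L : ℝ)
    (X J : Finset V) (S : St V ι) (A : Finset ι) (ψ : ι → V → ℝ) (i : ι) (g : Finset V → ℝ)
    (h δ D e : ℝ), p.OK → Inv p p.k B S A → A.card ≤ p.N → (∀ i, LB B (ψ i)) → 0 ≤ B →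
    X.card ≤ p.k + 1 → i ∈ A → J ⊆ X → U01 g → 0 ≤ h → 0 ≤ δ → 0 < D → 0 ≤ e →
    ((p.k : ℝ) + 2) * B + D ≤ L →
    (∀ s ∈ X, |ψ i s - (if s ∈ J then h else 0)| ≤ δ) →
    (∀ s ∈ J, ∀ t ∈ X, t ∉ J → pcl S (Fr p p.k S A ψ) s t D ≤ e) →
    4 * p.a * (h + 2 * δ) ≤ D →
    ∃ w : S.Ω → (ι → Fin p.M) → ℝ, W01 w ∧ Indep w i ∧
      p.a * h * m2 p.M * |∑ s ∈ J, Ex S (fun ω l => cc X g (Fr p p.k S A ψ ω l) s)| ≤
        |Ex S (fun ω l => w ω l * vv p.M (l i) * cutI L X g (Fr p p.k S A ψ ω l))| +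
          5 * ((p.k : ℝ) + 1) * p.a * δ +
          p.a * h * m2 p.M * (((p.k : ℝ) + 1) * (p.eb + ((p.k : ℝ) + 1) ^ 2 * e))

def SHS : Prop :=
  ∀ (V ι : Type) [LinearOrder V] [MetricSpace V] [Fintype ι] [DecidableEq ι] (p : MP) (B L : ℝ)
    (X J : Finset V) (S : St V ι) (A : Finset ι) (ψ : ι → V → ℝ) (g : Finset V → ℝ) (y : V)
    (r R e : ℝ), p.OK → Inv p p.k B S A → A.card ≤ p.N → (∀ i, LB B (ψ i)) → 0 ≤ B →
    X.card ≤ p.k + 1 → J ⊆ X → y ∈ J → U01 g → 0 ≤ e → ((p.k : ℝ) + 2) * B + R ≤ L →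
    (∀ s ∈ J, dist s y ≤ r) → ((p.k : ℝ) + 1) * r ≤ R →
    (∀ s ∈ X, s ∉ J → pcl S (Fr p p.k S A ψ) s y R ≤ e) →
    (1 - ∑ s ∈ J, Ex S (fun ω l => cc X g (Fr p p.k S A ψ ω l) s) -
        ((p.k : ℝ) + 2) * ((p.k : ℝ) + 1) * e) * (R - ((p.k : ℝ) + 1) * r) ≤
      Ex S (fun ω l => cutI L X (fun C => |g C - ind y C|) (Fr p p.k S A ψ ω l))

def SBS : Prop :=
  ∀ (V ι : Type) [Fintype V] [LinearOrder V] [MetricSpace V] [Fintype ι] [DecidableEq ι]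
    (p : MP) (B L : ℝ) (X : ℕ → Finset V) (T : ℕ) (A : ℕ → Finset ι) (Φ Ψ : ℕ → ι → V → ℝ)
    (S : ℕ → St V ι) (W : Finset V → ℝ) (g : ℕ → Finset V → ℝ) (i : ι) (b e : ℕ), p.OK →
    0 ≤ L → ChSt p B L X T A Φ Ψ S W →
    (∀ σ, σ < T → X σ ⊆ X (σ + 1) ∨ X (σ + 1) ⊆ X σ) → Born A i b e → e ≤ T →
    Ψ e i = Φ b i ∧ i ∈ alv A e ∧
    ∀ w : (S e).Ω → (ι → Fin p.M) → ℝ, W01 w → Indep w i →
      |Ex (S e) (fun ω l => w ω l * vv p.M (l i) *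
        cutI L (X e) (g e) (Fr p p.k (S e) (alv A e) (Ψ e) ω l))| ≤ ∑ σ ∈ Ico b e, cost W X g σ

/-! ## Geometry -/

structure PsiF : Prop where
  le_cap : ∀ (V : Type) [Fintype V] [DecidableEq V] [MetricSpace V] (Z P : Finset V) (c : ℝ)
    (s : V), psi Z P c s ≤ c
  le_dist : ∀ (V : Type) [Fintype V] [DecidableEq V] [MetricSpace V] (Z P : Finset V) (c : ℝ)
    (s z : V), (z ∈ Z ∨ z ∉ P) → psi Z P c s ≤ dist s z
  le_psi : ∀ (V : Type) [Fintype V] [DecidableEq V] [MetricSpace V] (Z P : Finset V) (c d : ℝ)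
    (s : V), d ≤ c → (∀ z, (z ∈ Z ∨ z ∉ P) → d ≤ dist s z) → d ≤ psi Z P c s
  nonneg : ∀ (V : Type) [Fintype V] [DecidableEq V] [MetricSpace V] (Z P : Finset V) (c : ℝ)
    (s : V), 0 ≤ c → 0 ≤ psi Z P c s
  zero : ∀ (V : Type) [Fintype V] [DecidableEq V] [MetricSpace V] (Z P : Finset V) (c : ℝ)
    (s : V), 0 ≤ c → (s ∈ Z ∨ s ∉ P) → psi Z P c s = 0
  lip : ∀ (V : Type) [Fintype V] [DecidableEq V] [MetricSpace V] (Z P : Finset V) (c : ℝ)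
    (s t : V), |psi Z P c s - psi Z P c t| ≤ dist s t

structure Base : Prop where
  ca : CutA
  cb : CutB
  chs : CutHS
  ex : ExF
  m0 : M0F
  ps : PsiF

def ACGS : Prop :=
  ∀ (V : Type) [Fintype V] [LinearOrder V] [MetricSpace V] (q : GP) (cl : Sc → V → Finset V)
    (X : ℕ → Finset V) (T e : ℕ) (s t : V), 3 ≤ q.Δ → Chain X T (q.k + 1) → Parts q cl →
    e ≤ T → s ∈ X e → t ∈ X e → s ≠ t → ACpad q cl (X e) →
    ∃ (j : ℤ) (P : Finset V) (b : ℕ), BornG q cl X (false, j) P b e ∧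
      dist s t ≤ 2 * q.Δ * |psi (X b ∩ P) P (q.cap (false, j)) s -
        psi (X b ∩ P) P (q.cap (false, j)) t|

open Classical in
/-- counting active scales -/
def CNT1S : Prop :=
  ∀ (V : Type) [Fintype V] [MetricSpace V] (q : GP) (m : ℕ), q.Δ = 3 * m → 0 < q.ζ → q.ζ < 1 →
    ∃ R : Finset Sc, (∀ Y : Finset V, ∀ j, act q Y j → j ∈ R) ∧
      (∀ j ∈ R, ∃ s t : V, q.lo j < dist s t) ∧
      ∀ Y : Finset V, Y.card ≤ q.k + 1 →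
        (R.filter (fun j => act q Y j)).card ≤ (q.k + 1) ^ 2 * (2 * q.k + 6 * m + 12)

open Classical in
def CNT2S : Prop :=
  ∀ (V Z : Type) [Fintype V] [MetricSpace V] [Fintype Z] (q : GP) (cl : Z → Sc → V → Finset V)
    (ep : ℝ) (X : ℕ → Finset V) (e : ℕ), 0 < q.Δ → 0 < q.ζ → q.ζ < 1 → 0 ≤ ep →
    (∀ j x, ((univ.filter (fun z => ¬ padded (cl z j) (q.scl j) x)).card : ℝ) ≤
      ep * Fintype.card Z) →
    (X e).card ≤ q.k + 1 → (X (e - 1)).card ≤ q.k + 1 →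
    ((univ.filter (fun z => ¬ Pad q (cl z) X e)).card : ℝ) ≤
      ((q.k : ℝ) + 1) ^ 3 * (4 * q.k + 20) * ep * Fintype.card Z

def GEO1S : Prop :=
  ∀ (V : Type) [MetricSpace V] (q : GP) (X : ℕ → Finset V) (t0 T : ℕ) (x : V) (jt : ℤ) (τ : ℕ),
    0 < q.ζ → 100 * q.ζ ≤ 1 → Sit q X t0 T x jt τ → ∃ e y j b e', Cand q X t0 T x jt τ e y j b e'

/-- one cell of a chain step -/
def GEO2aS : Prop :=
  ∀ (V : Type) [Fintype V] [LinearOrder V] [MetricSpace V] (q : GP) (c : NP) (Rm : ℝ)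
    (cl : Sc → V → Finset V) (X : ℕ → Finset V) (t0 T : ℕ) (x : V) (jt : ℤ) (τ e : ℕ) (y : V)
    (j : ℤ) (b e' : ℕ) (co : ℕ → ℝ) (u : ℕ → V → ℝ) (L L' d1 : ℝ) (j' : ℤ) (s : V), c.OK q →
    Sit q X t0 T x jt τ → Cand q X t0 T x jt τ e y j b e' → Parts q cl → Pad q cl X e →
    (∀ σ, 0 ≤ co σ) → (∀ s t : V, dist s t ≤ q.η ^ (2 * q.k + 4) * Rm) →
    SLh q c Rm cl X t0 T co u → jt ≤ j' → j' < j → q.η ^ j' ≤ d1 → d1 < q.η ^ (j' - 1) →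
    0 ≤ L → L ≤ q.η ^ 2 * d1 → d1 ≤ L' → L' * q.η ^ (2 * q.k) ≤ d1 →
    (∃ s1 ∈ X e, dist s1 y = d1) →
    (∀ t ∈ X e, dist t y ≤ L ∨ (d1 ≤ dist t y ∧ dist t y ≤ L') ∨ L' < q.η ^ 2 * dist t y) →
    s ∈ X e → L < dist s y → dist s y ≤ L' →
    Good q c X t0 T x co τ ∨
      |∑ t ∈ (X e).filter (fun t => L < dist t y ∧ dist t y ≤ L' ∧ t ∈ cl (true, j') s), u e t| ≤
        1 / (5 * ((q.k : ℝ) + 1))

/-- the success step -/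
def GEO2bS : Prop :=
  ∀ (V : Type) [Fintype V] [LinearOrder V] [MetricSpace V] (q : GP) (c : NP) (Rm : ℝ)
    (cl : Sc → V → Finset V) (X : ℕ → Finset V) (t0 T : ℕ) (x : V) (jt : ℤ) (τ e : ℕ) (y : V)
    (j : ℤ) (b e' : ℕ) (co : ℕ → ℝ) (u : ℕ → V → ℝ), c.OK q →
    Sit q X t0 T x jt τ → Cand q X t0 T x jt τ e y j b e' → Parts q cl → Pad q cl X e →
    (∀ σ, 0 ≤ co σ) → (∀ s t : V, dist s t ≤ q.η ^ (2 * q.k + 4) * Rm) →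
    SLh q c Rm cl X t0 T co u →
    7 / 10 ≤ ∑ t ∈ (X e).filter (fun t => dist t y ≤ q.η ^ 2 * q.η ^ j), u e t →
    Good q c X t0 T x co τ

def GEO2S : Prop :=
  ∀ (V : Type) [Fintype V] [LinearOrder V] [MetricSpace V] (q : GP) (c : NP) (Rm : ℝ)
    (cl : Sc → V → Finset V) (X : ℕ → Finset V) (t0 T : ℕ) (x : V) (jt : ℤ) (τ e : ℕ) (y : V)
    (j : ℤ) (b e' : ℕ) (co : ℕ → ℝ) (u : ℕ → V → ℝ), c.OK q →
    Sit q X t0 T x jt τ → Cand q X t0 T x jt τ e y j b e' → Parts q cl → Pad q cl X e →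
    (∀ σ, 0 ≤ co σ) → (∀ s t : V, dist s t ≤ q.η ^ (2 * q.k + 4) * Rm) →
    SLh q c Rm cl X t0 T co u → Hh q c Rm cl X t0 T x co u →
    Good q c X t0 T x co τ ∨ bet q X x t0 ≤ ∑ σ ∈ Ico t0 T, co σ

def COVS : Prop :=
  ∀ (t0 T : ℕ) (co f : ℕ → ℝ) (c : ℝ) (S : Finset ℕ), 0 ≤ c → (∀ σ, 0 ≤ co σ) →
    (∀ σ, t0 ≤ σ → σ < T → f (σ + 1) ≤ f σ) →
    (∀ τ ∈ S, ∃ b e, t0 ≤ b ∧ b ≤ τ ∧ τ < e ∧ e ≤ T ∧
      c * (f (min (b + 1) τ) - f e) ≤ ∑ σ ∈ Ico b e, co σ) →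
    c * ∑ τ ∈ S, (f τ - f (τ + 1)) ≤ 8 * ∑ σ ∈ Ico t0 T, co σ

open Classical in
def GEO3S : Prop :=
  ∀ (V Z : Type) [Fintype V] [LinearOrder V] [MetricSpace V] [Fintype Z] (q : GP)
    (c : NP) (Rm : ℝ) (cl : Z → Sc → V → Finset V) (X : ℕ → Finset V) (t0 T : ℕ) (x : V)
    (co : Z → ℕ → ℝ) (u : Z → ℕ → V → ℝ), c.OK q → Chain X T (q.k + 1) → X T = {x} →
    (X t0).Nonempty → t0 ≤ T → (∀ z, Parts q (cl z)) →
    (∀ e, e ≤ T → 2 * (univ.filter (fun z => ¬ Pad q (cl z) X e)).card ≤ Fintype.card Z) →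
    (∀ z σ, 0 ≤ co z σ) → (∀ s t : V, dist s t ≤ q.η ^ (2 * q.k + 4) * Rm) →
    (∀ z, SLh q c Rm (cl z) X t0 T (co z) (u z)) →
    (∀ z, Hh q c Rm (cl z) X t0 T x (co z) (u z)) →
    c.a * q.η ^ 5 * c.m / (16 * (q.Δ + 12)) * al X x t0 * Fintype.card Z ≤
      ∑ z, ∑ σ ∈ Ico t0 T, co z σ

/-! ## Markov lemma and gluing -/

def MKS : Prop :=
  ∀ M0 : ℕ, ∃ C : ℝ, 0 < C ∧ ∀ (Ω : Type) [Fintype Ω] (W : Ω → ℝ) (t0 T : ℕ) (Y : ℕ → Ω → ℝ),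
    t0 ≤ T → (∀ ω, 0 ≤ W ω) → (∀ σ ω, 0 ≤ Y σ ω ∧ Y σ ω ≤ 1) → (∀ ω, Y T ω = 0 ∨ Y T ω = 1) →
    (∀ σ, ∃ Vs : Finset ℝ, Vs.card ≤ M0 ∧ ∀ ω, Y σ ω ∈ Vs) →
    (∀ σ, t0 ≤ σ → σ < T → ∀ φ : ℝ → ℝ,
      ∑ ω, W ω * (Y (σ + 1) ω * φ (Y σ ω)) = ∑ ω, W ω * (Y σ ω * φ (Y σ ω))) →
    ∃ th : ℕ → ℝ, 0 < th T ∧ th T < 1 ∧
      ∑ σ ∈ Ico t0 T, ∑ ω, W ω * |(if th (σ + 1) < Y (σ + 1) ω then (1 : ℝ) else 0) -
        (if th σ < Y σ ω then 1 else 0)| ≤ C * ∑ ω, W ω * (Y t0 ω * (1 - Y t0 ω))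

def CI {V : Type} [Fintype V] [LinearOrder V] (S : V → Finset V) (W : Finset V → ℝ) : Prop :=
  ∀ v (φ : Finset V → ℝ), U01 φ → ∃ φ' : Finset V → ℝ, U01 φ' ∧ ∀ h : Finset V → ℝ,
    ∑ C, W C * (φ (C ∩ insert v (S v)) * h (C \ desc S v)) =
      ∑ C, W C * (φ' (C ∩ S v) * h (C \ desc S v))

def BNS : Prop :=
  ∀ (V : Type) [Fintype V] [LinearOrder V] (S : V → Finset V) (dep : V → ℕ)
    (μ : Nd V → (Finset V → ℝ) → ℝ) (Z : ℝ), TreeF S dep → 0 ≤ Z →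
    (∀ t, ∃ m : Finset V → ℝ, (∀ a, 0 ≤ m a) ∧ ∀ g, μ t g = ∑ a ∈ (nX S t).powerset, m a * g a) →
    (∀ v g, μ (v, 1) (fun a => g (a ∩ S v)) = μ (v, 0) g) →
    (∀ v, (S v).Nonempty → ∀ g, μ (v, 0) g = μ (par S v, 1) (fun a => g (a ∩ S v))) →
    (∀ v g, μ (v, 2) g = μ (v, 1) (fun a => g (a ∩ {v}))) →
    (∀ v, ¬ (S v).Nonempty → μ (v, 0) (fun _ => 1) = Z) →
    ∃ W : Finset V → ℝ, (∀ C, 0 ≤ W C) ∧ (∀ t g, ∑ C, W C * g (C ∩ nX S t) = μ t g) ∧ CI S W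

def PK3S : Prop :=
  ∀ k : ℕ, ∃ C : ℝ, 0 < C ∧ ∀ (V : Type) [Fintype V] [LinearOrder V] (S : V → Finset V)
    (dep : V → ℕ) (W : Finset V → ℝ) (v x y : V), TreeF S dep → (∀ v, (S v).card ≤ k) →
    (∀ C, 0 ≤ W C) → CI S W → Desc S v x → ¬ Desc S v y →
    ∃ g : ℕ → Finset V → ℝ, (∀ σ, U01 (g σ)) ∧ (∀ a, g (ndep dep (x, 2)) a = ind x a) ∧
      ∑ σ ∈ Ico (2 * dep v) (ndep dep (x, 2)),
        cost W (fun σ => nX S (ch S dep (x, 2) σ)) g σ ≤ C * DW W x y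

/-- the index set matches the geometric activity -/
structure Idx {V ι : Type} [Fintype V] [LinearOrder V] [MetricSpace V] (q : GP)
    (cl : Sc → V → Finset V) (X : ℕ → Finset V) (T : ℕ) (A : ℕ → Finset ι) (Φ : ℕ → ι → V → ℝ)
    (sc : ι → Sc) (ce : ι → Finset V) : Prop where
  mem : ∀ σ, σ ≤ T → ∀ i, i ∈ A σ ↔ ActG q cl (X σ) (sc i) (ce i)
  surj : ∀ σ, σ ≤ T → ∀ j P, ActG q cl (X σ) j P → ∃ i, sc i = j ∧ ce i = P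
  phi : ∀ σ i, Φ σ i = psi (X σ ∩ ce i) (ce i) (q.cap (sc i))

def PK1S : Prop :=
  ∀ (V : Type) [Fintype V] [LinearOrder V] [MetricSpace V] (S : V → Finset V) (dep : V → ℕ)
    (p : MP) (q : GP) (m : ℕ) (cl : Sc → V → Finset V) (B L : ℝ), p.OK → q.k = p.k →
    q.Δ = 3 * m → 0 < q.ζ → q.ζ < 1 → 2 * (p.k + 1) ^ 3 * (2 * p.k + 6 * m + 12) ≤ p.N →
    TreeF S dep → (∀ v, (S v).card ≤ p.k) →
    (∀ t, Chain (fun σ => nX S (ch S dep t σ)) (ndep dep t) (p.k + 1)) → 0 ≤ B →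
    (∀ s t : V, dist s t ≤ q.η ^ 3 * B) → ((p.k : ℝ) + 2) * B ≤ L →
    ∃ W : Finset V → ℝ, (∀ C, 0 ≤ W C) ∧ CI S W ∧
      ∃ (ι : Type) (_ : Fintype ι) (_ : DecidableEq ι) (sc : ι → Sc) (ce : ι → Finset V),
        ∀ t : Nd V, ∃ (A : ℕ → Finset ι) (Φ Ψ : ℕ → ι → V → ℝ) (St' : ℕ → St V ι),
          ChSt p B L (fun σ => nX S (ch S dep t σ)) (ndep dep t) A Φ Ψ St' W ∧
          Idx q cl (fun σ => nX S (ch S dep t σ)) (ndep dep t) A Φ sc ce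

/-- relation between the machine constants and the numeric constants -/
structure Link (p : MP) (q : GP) (c : NP) : Prop where
  k : q.k = p.k
  a : c.a = p.a
  m : c.m = m2 p.M
  θ : 2 * q.Δ * p.M * c.θ ≤ p.a
  ε : ((p.k : ℝ) + 2) ^ 3 * (2 * p.eb + 1 / p.M) ≤ c.ε

def PK2S : Prop :=
  ∀ (V ι : Type) [Fintype V] [LinearOrder V] [MetricSpace V] [Fintype ι] [DecidableEq ι]
    (p : MP) (q : GP) (c : NP) (B L Rm : ℝ) (cl : Sc → V → Finset V) (X : ℕ → Finset V) (T : ℕ)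
    (A : ℕ → Finset ι) (Φ Ψ : ℕ → ι → V → ℝ) (S : ℕ → St V ι) (W : Finset V → ℝ)
    (sc : ι → Sc) (ce : ι → Finset V), p.OK → c.OK q → Link p q c → 0 ≤ B → 0 ≤ Rm →
    ((p.k : ℝ) + 2) * B + Rm ≤ L → Chain X T (p.k + 1) → Parts q cl →
    ChSt p B L X T A Φ Ψ S W → Idx q cl X T A Φ sc ce →
    (∀ s ∈ X T, ∀ t ∈ X T, DW W s t ≤ ((p.k : ℝ) + 1) * dist s t) ∧
    (ACpad q cl (X T) → ∀ s ∈ X T, ∀ t ∈ X T, c.θ / 2 * dist s t ≤ DW W s t) ∧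
    ∀ (x : V) (t0 : ℕ) (g : ℕ → Finset V → ℝ), X T = {x} → (∀ σ, U01 (g σ)) →
      (∀ a, g T a = ind x a) → (∀ s t, DW W s t ≤ ((p.k : ℝ) + 1) * dist s t) →
      ∃ u : ℕ → V → ℝ, SLh q c Rm cl X t0 T (cost W X g) u ∧ Hh q c Rm cl X t0 T x (cost W X g) u

def PK4S : Prop :=
  ∀ (V : Type) [Fintype V] [LinearOrder V] [MetricSpace V] (G : SimpleGraph V) (l : Sym2 V → ℝ)
    (S : V → Finset V) (k : ℕ) (W : Finset V → ℝ) (K : ℝ), Geo G l → Elim G S k →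
    (∀ C, 0 ≤ W C) → 0 ≤ K →
    (∀ v, ∀ s ∈ insert v (S v), ∀ t ∈ insert v (S v), DW W s t ≤ K * dist s t) →
    ∀ x y, DW W x y ≤ K * dist x y

def FINS : Prop :=
  ∀ (V : Type) [Fintype V] [LinearOrder V] [MetricSpace V] (S : V → Finset V) (dep : V → ℕ)
    (D : V → V → ℝ) (K c1 c2 : ℝ), TreeF S dep → 0 < c1 → 0 < c2 → 0 ≤ K →
    (∀ x y, D x y = D y x) → (∀ x y z, D x z ≤ D x y + D y z) → (∀ x y, 0 ≤ D x y) →
    (∀ x y, D x y ≤ K * dist x y) →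
    (∀ v, ∀ s ∈ insert v (S v), ∀ t ∈ insert v (S v), c1 * dist s t ≤ D s t) →
    (∀ v x y, (S v).Nonempty → Desc S v x → ¬ Desc S v y →
      c2 * Metric.infDist x (S v : Set V) ≤ D x y) →
    ∀ x y, dist x y ≤ (2 / c2 + (1 + 2 * K / c2) / c1) * D x y

def EMBS : Prop :=
  ∀ (V Z : Type) [Fintype V] [DecidableEq V] [Fintype Z] (d : V → V → ℝ) (W : Z → Finset V → ℝ)
    (c C : ℝ), 0 ≤ c → (∀ z A, 0 ≤ W z A) → (∀ x y, d x y ≤ c * ∑ z, DW (W z) x y) →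
    (∀ x y, c * ∑ z, DW (W z) x y ≤ C * d x y) → EmbedsL1 d C

def CONS : Prop :=
  ∀ k : ℕ, ∃ (p : MP) (q : GP) (c : NP) (m : ℕ), p.OK ∧ c.OK q ∧ Link p q c ∧ p.k = k ∧ 0 < m ∧
    q.Δ = 3 * m ∧ 2 * (p.k + 1) ^ 3 * (2 * p.k + 6 * m + 12) ≤ p.N ∧
    2 * (((k : ℝ) + 1) ^ 3 * (4 * k + 20) * (4 * ((k : ℝ) + 1) / m)) ≤ 1

def Target : Prop :=
  ∀ k : ℕ, ∃ C : ℝ, ∀ (V : Type) [Fintype V] (G : SimpleGraph V), G.Connected →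
    TreewidthLE G k → ∀ l : Sym2 V → ℝ, (∀ e ∈ G.edgeSet, 0 < l e) → EmbedsL1 (gdist G l) C

end

end Vale.Agent.P235
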