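import Vale.Agent.P235.Sts

namespace Vale.Agent.P235

open Finset
open scoped BigOperators

namespace TM2Aux

/-- skip the index `m` -/
def sk (m i : ℕ) : ℕ := if i < m then i else i + 1

theorem sk_lt {m i k : ℕ} (h : i < k) : sk m i < k + 1 := by
  unfold sk
  split_ifs <;> omega

theorem sum_sk (f : ℕ → ℝ) (a m k : ℕ) (ha : a ≤ m) (hk : m ≤ k) :
    ∑ j ∈ Ico a (k + 1), f j = f m + ∑ j ∈ Ico a k, f (sk m j) := by
  induction k, hk using Nat.le_induction with
  | base =>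
    rw [sum_Ico_succ_top ha, add_comm]
    refine congrArg _ (sum_congr rfl fun j hj => ?_)
    rw [sk, if_pos (mem_Ico.mp hj).2]
  | succ k hk ih =>
    rw [sum_Ico_succ_top (by omega), ih, sum_Ico_succ_top (by omega : a ≤ k), add_assoc]
    rw [show sk m k = k + 1 from if_neg (by omega)]

theorem dep {V : Type} (X : Finset V) (k : ℕ) (ξ : ℕ → V → ℝ) (hX : X.card ≤ k + 1) :
    ∃ (b : ℕ → ℝ) (C : ℝ), (∀ s ∈ X, ∑ i ∈ range (k + 1), b i * ξ i s = C) ∧
      ∃ i, i < k + 1 ∧ b i ≠ 0 := by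
  by_cases hne : X.Nonempty
  swap
  · refine ⟨fun _ => 1, 0, fun s hs => absurd ⟨s, hs⟩ hne, 0, by omega, one_ne_zero⟩
  obtain ⟨s₀, hs₀⟩ := hne
  have hn : ¬ LinearIndependent ℝ
      (fun (i : Fin (k + 2)) (s : X) => if i.val < k + 1 then ξ i.val s.1 else (1 : ℝ)) := by
    intro h
    have := h.fintype_card_le_finrank
    rw [Module.finrank_fintype_fun_eq_card, Fintype.card_fin, Fintype.card_coe] at this
    omega
  obtain ⟨g, hg, i₀, hi₀⟩ := Fintype.not_linearIndependent_iff.mp hn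
  have key : ∀ s ∈ X, ∑ i ∈ range (k + 1),
      (if h : i < k + 2 then g ⟨i, h⟩ else 0) * ξ i s = -g (Fin.last (k + 1)) := by
    intro s hs
    have h1 := congrFun hg ⟨s, hs⟩
    rw [Finset.sum_apply, Fin.sum_univ_castSucc] at h1
    simp only [Pi.smul_apply, smul_eq_mul, Fin.val_castSucc, Fin.is_lt, if_true, Fin.val_last,
      lt_irrefl, if_false, mul_one, Pi.zero_apply] at h1
    rw [Finset.sum_range, eq_neg_iff_add_eq_zero, ← h1]
    refine congrArg (· + _) (sum_congr rfl fun i _ => ?_)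
    rw [dif_pos (by omega)]
    rfl
  refine ⟨fun i => if h : i < k + 2 then g ⟨i, h⟩ else 0, _, key, ?_⟩
  by_contra hcon
  push Not at hcon
  have h2 : g (Fin.last (k + 1)) = 0 := by
    have := key s₀ hs₀
    rw [sum_eq_zero fun i hi => by rw [hcon i (mem_range.mp hi), zero_mul]] at this
    linarith
  apply hi₀
  by_cases h : i₀.val < k + 1
  · have := hcon i₀.val h
    rwa [dif_pos i₀.isLt] at this
  · have : i₀ = Fin.last (k + 1) := by
      apply Fin.ext
      have := i₀.isLt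
      rw [Fin.val_last]
      omega
    rw [this, h2]

theorem pivot (k : ℕ) (b : ℕ → ℝ) (lam t : ℝ) (hl : 0 < lam) (ht : 1 ≤ t)
    (hb : ∃ i, i < k + 1 ∧ b i ≠ 0) :
    ∃ (m : ℕ) (r : ℕ → ℝ) (d : ℝ), m ≤ k ∧ r m = 1 ∧ (∀ i, lam ^ i * r i = d * b i) ∧
      (∀ i, i < m → |r i| ≤ 1 / t) ∧ ∀ i, i < k + 1 → |r i| ≤ t ^ k := by
  obtain ⟨m, hm, hmax⟩ := Finset.exists_max_image (range (k + 1))
    (fun i => |b i| / (lam ^ i * t ^ i)) ⟨0, mem_range.mpr (by omega)⟩
  have ht0 : 0 < t := by linarith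
  have hmk : m ≤ k := by have := mem_range.mp hm; omega
  have hbm : b m ≠ 0 := by
    intro h0
    obtain ⟨i, hi, hbi⟩ := hb
    have h1 := hmax i (mem_range.mpr hi)
    have h2 : 0 < |b i| / (lam ^ i * t ^ i) := by
      have := abs_pos.mpr hbi
      positivity
    simp only [h0, abs_zero, zero_div] at h1
    linarith
  have hr : ∀ i, i < k + 1 → |lam ^ m * b i / (lam ^ i * b m)| * t ^ m ≤ t ^ i := by
    intro i hi
    have h1 := hmax i (mem_range.mpr hi)
    have hp : 0 < |b m| := abs_pos.mpr hbm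
    rw [div_le_div_iff₀ (by positivity) (by positivity)] at h1
    rw [abs_div, abs_mul, abs_mul, abs_of_pos (pow_pos hl m), abs_of_pos (pow_pos hl i),
      div_mul_eq_mul_div, div_le_iff₀ (by positivity)]
    nlinarith
  refine ⟨m, fun i => lam ^ m * b i / (lam ^ i * b m), lam ^ m / b m, hmk, ?_, ?_, ?_, ?_⟩
  · exact div_self (mul_ne_zero (pow_pos hl m).ne' hbm)
  · intro i
    have := (pow_pos hl i).ne'
    field_simp
  · intro i hi
    have h1 := hr i (by omega)
    have h2 : t ^ (i + 1) ≤ t ^ m := pow_le_pow_right₀ ht hi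
    have h3 := abs_nonneg (lam ^ m * b i / (lam ^ i * b m))
    have h4 : 0 < t ^ i := pow_pos ht0 i
    rw [le_div_iff₀ ht0]
    refine le_of_mul_le_mul_right ?_ h4
    rw [pow_succ] at h2
    nlinarith
  · intro i hi
    have h1 := hr i hi
    have h2 : t ^ i ≤ t ^ k := pow_le_pow_right₀ ht (by omega)
    have h3 := abs_nonneg (lam ^ m * b i / (lam ^ i * b m))
    have h4 : 1 ≤ t ^ m := one_le_pow₀ ht
    nlinarith

theorem rel_shift (hb : Base) {V ι : Type} [LinearOrder V] [Fintype ι] [DecidableEq ι] (M : ℕ)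
    (hM : 2 ≤ M) (L : ℝ) (X : Finset V) (S : St V ι) (U' : S.Ω → ℕ → ℝ) (ξ' : ℕ → V → ℝ)
    (F F' : S.Ω → (ι → Fin M) → V → ℝ) (C : S.Ω → ℝ) (A : Finset ι)
    (hC : ∑ ω, S.P ω * C ω = 0) (hF : ∀ ω l, ∀ s ∈ X, F ω l s = F' ω l s + C ω)
    (h1 : ∀ ω l s, |F ω l s| ≤ L) (h2 : ∀ ω l s, |F' ω l s| ≤ L) :
    Rel L X S F ⟨S.Ω, S.fin, S.P, U', S.β, ξ'⟩ F' A ∅ := by
  have key : ∀ g ω l, cutI L X g (F ω l) = cutI L X g (F' ω l) + C ω * (g X - g ∅) := by
    intro g ω l
    rw [hb.ca.congr V L X g (F ω l) (fun s => F' ω l s + C ω) (hF ω l)]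
    exact hb.cb.shift V L X g (F' ω l) (C ω) (fun s _ => h2 ω l s)
      (fun s hs => by rw [← hF ω l s hs]; exact h1 ω l s)
  refine ⟨fun g => ?_, fun i _ w hw hi => ⟨w, hw, hi, fun g => ?_⟩, fun i hi => absurd hi (notMem_empty i)⟩
  · show Ex S (fun ω l => cutI L X g (F' ω l)) = _
    have e1 : (fun ω l => cutI L X g (F ω l)) =
        fun ω l => 1 * cutI L X g (F' ω l) + (g X - g ∅) * C ω := by
      funext ω l
      rw [key]
      ring
    rw [e1, hb.ex.lin V ι M S (fun ω l => cutI L X g (F' ω l)) (fun ω _ => C ω),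
      hb.ex.om V ι M S C (by omega), hC]
    ring
  · show Ex S (fun ω l => w ω l * vv M (l i) * cutI L X g (F' ω l)) = _
    have e1 : (fun ω l => w ω l * vv M (l i) * cutI L X g (F ω l)) =
        fun ω l => 1 * (w ω l * vv M (l i) * cutI L X g (F' ω l)) +
          (g X - g ∅) * (w ω l * C ω * vv M (l i)) := by
      funext ω l
      rw [key]
      ring
    have hi' : Indep (fun ω l => w ω l * C ω) i := by
      intro ω l j
      show w ω (Function.update l i j) * C ω = w ω l * C ω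
      rw [hi ω l j]
    rw [e1, hb.ex.lin V ι M S (fun ω l => w ω l * vv M (l i) * cutI L X g (F' ω l))
      (fun ω l => w ω l * C ω * vv M (l i)),
      hb.ex.indep V ι M S (fun ω l => w ω l * C ω) i (vv M) hi', hb.ex.vmean M hM]
    ring

end TM2Aux

end Vale.Agent.P235
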