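import Vale.Agent.P235.Sts

namespace Vale.Agent.P235

open Finset
open scoped BigOperators

noncomputable section

namespace TM3Aux

variable {V ι : Type}

def qP (S : St V ι) {T : Type} [DecidableEq T] (cls : S.Ω → T) (s : T) : ℝ :=
  ∑ ω ∈ univ.filter (fun ω => cls ω = s), S.P ω

def qU (S : St V ι) {T : Type} [DecidableEq T] (cls : S.Ω → T) (s : T) (i : ℕ) : ℝ :=
  (∑ ω ∈ univ.filter (fun ω => cls ω = s), S.P ω * S.U ω i) / qP S cls s

/-- the state obtained by merging the fibres of `cls` -/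
abbrev quo (S : St V ι) (T : Type) [Fintype T] [DecidableEq T] (cls : S.Ω → T) (rep : T → S.Ω) :
    St V ι where
  Ω := T
  fin := inferInstance
  P := qP S cls
  U := qU S cls
  β := fun s i => S.β (rep s) i
  ξ := S.ξ

variable {S : St V ι} {T : Type} [Fintype T] [DecidableEq T] {cls : S.Ω → T} {rep : T → S.Ω}

theorem master (cls : S.Ω → T) (f : S.Ω → ℝ) :
    ∑ s : T, ∑ ω ∈ univ.filter (fun ω => cls ω = s), f ω = ∑ ω, f ω :=
  sum_fiberwise univ cls f

theorem Ppos (hP : ∀ ω, 0 < S.P ω) (hr : ∀ s, cls (rep s) = s) (s : T) :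
    0 < qP S cls s :=
  sum_pos (fun ω _ => hP ω) ⟨rep s, mem_filter.2 ⟨mem_univ _, hr s⟩⟩

theorem PU (hP : ∀ ω, 0 < S.P ω) (hr : ∀ s, cls (rep s) = s) (s : T) (i : ℕ) :
    qP S cls s * qU S cls s i =
      ∑ ω ∈ univ.filter (fun ω => cls ω = s), S.P ω * S.U ω i :=
  mul_div_cancel₀ _ (Ppos hP hr s).ne'

theorem PG (G : T → ℝ) (s : T) : qP S cls s * G s =
    ∑ ω ∈ univ.filter (fun ω => cls ω = s), S.P ω * G (cls ω) := by
  show (∑ ω ∈ univ.filter (fun ω => cls ω = s), S.P ω) * G s = _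
  rw [sum_mul]
  exact sum_congr rfl fun ω h => by rw [(mem_filter.1 h).2]

theorem sumPG (G : T → ℝ) : ∑ s : T, qP S cls s * G s = ∑ ω, S.P ω * G (cls ω) := by
  rw [← master cls]
  exact sum_congr rfl fun s _ => PG G s

theorem inv [MetricSpace V] {p : MP} {r : ℕ} {B : ℝ} {A : Finset ι} (h : Inv p r B S A)
    (hr : ∀ s, cls (rep s) = s) (hβ : ∀ ω, ∀ i ∈ A, S.β (rep (cls ω)) i = S.β ω i) :
    Inv p r B (quo S T cls rep) A where
  Ppos := Ppos h.Ppos hr
  Psum := (master cls S.P).trans h.Psum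
  β01 := fun s i => h.β01 (rep s) i
  U0 := fun i hi => by
    refine Eq.trans ?_ (h.U0 i hi)
    rw [← master cls]
    exact sum_congr rfl fun s _ => PU h.Ppos hr s i
  lb := h.lb
  fl := fun i hi => by
    refine (h.fl i hi).trans_eq ?_
    refine Eq.trans ?_ (sumPG (fun s => S.β (rep s) i)).symm
    exact sum_congr rfl fun ω _ => by rw [hβ ω i hi]
  Q := fun i hi c hc g hg => by
    have h0 := h.Q i hi c hc (fun ω => g (cls ω)) (fun ω => hg _)
    have e1 : ∑ s : T, qP S cls s * g s * (qU S cls s i +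
        ∑ j ∈ Ioo i r, c j * qU S cls s j) =
        ∑ ω, S.P ω * g (cls ω) * (S.U ω i + ∑ j ∈ Ioo i r, c j * S.U ω j) := by
      rw [← master cls]
      refine sum_congr rfl fun s _ => ?_
      have a1 : qP S cls s * g s * (qU S cls s i +
          ∑ j ∈ Ioo i r, c j * qU S cls s j) =
          g s * (qP S cls s * qU S cls s i +
            ∑ j ∈ Ioo i r, c j * (qP S cls s * qU S cls s j)) := by
        rw [mul_comm _ (g s), mul_assoc, mul_add, mul_sum]
        refine congrArg _ (congrArg _ (sum_congr rfl fun j _ => by ring))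
      rw [a1]
      simp only [PU h.Ppos hr, mul_sum]
      rw [sum_comm, ← sum_add_distrib, mul_sum]
      refine sum_congr rfl fun ω hω => ?_
      rw [(mem_filter.1 hω).2, mul_add, mul_add, mul_sum, mul_sum]
      refine congrArg₂ _ (by ring) (sum_congr rfl fun j _ => by ring)
    have e2 : ∑ s : T, qP S cls s * (∑ i' ∈ A, S.β (rep s) i') *
        min (g s) (1 - g s) =
        ∑ ω, S.P ω * (∑ i' ∈ A, S.β ω i') * min (g (cls ω)) (1 - g (cls ω)) := by
      simp only [mul_assoc]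
      refine (sumPG (fun s => (∑ i' ∈ A, S.β (rep s) i') * min (g s) (1 - g s))).trans ?_
      refine sum_congr rfl fun ω _ => ?_
      rw [sum_congr rfl fun i hi => hβ ω i hi]
    have e3 := sumPG (S := S) (cls := cls) g
    exact (congrArg₂ (· ≤ ·) (congrArg₂ (· + ·) (congrArg abs e1) (congrArg (p.κ * ·) e2))
      (congrArg (fun x => x - x ^ 2 / 2) e3)).mpr h0

theorem PF {p : MP} {r : ℕ} {A : Finset ι} (ψ : ι → V → ℝ) (hP : ∀ ω, 0 < S.P ω)
    (hr : ∀ s, cls (rep s) = s) (hβ : ∀ ω, ∀ i ∈ A, S.β (rep (cls ω)) i = S.β ω i) (s : T)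
    (l : ι → Fin p.M) (x : V) :
    qP S cls s * Fr p r (quo S T cls rep) A ψ s l x =
      ∑ ω ∈ univ.filter (fun ω => cls ω = s), S.P ω * Fr p r S A ψ ω l x := by
  unfold Fr
  simp only [mul_add, sum_add_distrib]
  refine congrArg₂ _ ?_ ?_
  · simp only [mul_sum]
    rw [sum_comm]
    refine sum_congr rfl fun i _ => ?_
    have a1 : qP S cls s * (p.lam ^ i * qU S cls s i *
        S.ξ i x) =
        p.lam ^ i * S.ξ i x * (qP S cls s * qU S cls s i) := by
      ring
    rw [a1, PU hP hr, mul_sum]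
    exact sum_congr rfl fun ω _ => by ring
  · refine (PG (fun s => p.a * ∑ i ∈ A, S.β (rep s) i * vv p.M (l i) * ψ i x) s).trans ?_
    refine sum_congr rfl fun ω _ => ?_
    rw [sum_congr rfl fun i hi => by rw [hβ ω i hi]]

theorem Pcut [LinearOrder V] (hb : CutB) {M : ℕ} {L : ℝ} {X : Finset V}
    {F : S.Ω → (ι → Fin M) → V → ℝ} {F' : T → (ι → Fin M) → V → ℝ} (hP : ∀ ω, 0 < S.P ω)
    (hr : ∀ s, cls (rep s) = s)
    (hF : ∀ s l x, qP S cls s * F' s l x =
      ∑ ω ∈ univ.filter (fun ω => cls ω = s), S.P ω * F ω l x)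
    (hpat : ∀ ω l, ∀ a ∈ X, ∀ b ∈ X, F (rep (cls ω)) l a ≤ F (rep (cls ω)) l b → F ω l a ≤ F ω l b)
    (h1 : ∀ ω l x, |F ω l x| ≤ L) (h2 : ∀ s l x, |F' s l x| ≤ L) (g : Finset V → ℝ) (s : T)
    (l : ι → Fin M) :
    qP S cls s * cutI L X g (F' s l) =
      ∑ ω ∈ univ.filter (fun ω => cls ω = s), S.P ω * cutI L X g (F ω l) := by
  have hup : ∀ ω ∈ univ.filter (fun ω => cls ω = s), ∀ a ∈ X, ∀ b ∈ up X (F (rep s) l) a,
      F ω l a ≤ F ω l b := fun ω hω a ha b hb => by
    obtain ⟨b1, b2⟩ := mem_filter.1 hb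
    refine hpat ω l a ha b b1 ?_
    rw [(mem_filter.1 hω).2]
    exact b2.elim le_of_lt fun h => h.1.le
  have hup' : ∀ a ∈ X, ∀ b ∈ up X (F (rep s) l) a, F' s l a ≤ F' s l b := fun a ha b hb => by
    refine le_of_mul_le_mul_left ?_ (Ppos hP hr s)
    rw [hF, hF]
    exact sum_le_sum fun ω hω => mul_le_mul_of_nonneg_left (hup ω hω a ha b hb) (hP ω).le
  have e : ∑ ω ∈ univ.filter (fun ω => cls ω = s), S.P ω * cutI L X g (F ω l) =
      ∑ ω ∈ univ.filter (fun ω => cls ω = s), S.P ω *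
        (L * (g ∅ + g X) + ∑ x ∈ X, cc X g (F (rep s) l) x * F ω l x) :=
    sum_congr rfl fun ω hω => by
      rw [hb.rank V L X g (F (rep s) l) (F ω l) (hup ω hω) (fun x _ => h1 ω l x)]
  rw [hb.rank V L X g (F (rep s) l) (F' s l) hup' (fun x _ => h2 s l x), e]
  simp only [mul_add (S.P _), sum_add_distrib]
  rw [mul_add]
  refine congrArg₂ _ (PG (fun _ => L * (g ∅ + g X)) s) ?_
  simp only [mul_sum]
  rw [sum_comm]
  refine sum_congr rfl fun x _ => ?_
  rw [mul_left_comm, hF, mul_sum]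
  exact sum_congr rfl fun ω _ => by ring

theorem exq [Fintype ι] [DecidableEq ι] {M : ℕ} {c : S.Ω → (ι → Fin M) → ℝ}
    {c' : T → (ι → Fin M) → ℝ}
    (hc : ∀ s l, qP S cls s * c' s l =
      ∑ ω ∈ univ.filter (fun ω => cls ω = s), S.P ω * c ω l) (w : T → (ι → Fin M) → ℝ) :
    Ex (quo S T cls rep) (fun s l => w s l * c' s l) = Ex S (fun ω l => w (cls ω) l * c ω l) := by
  unfold Ex
  rw [← master cls]
  refine sum_congr rfl fun s _ => ?_
  simp only [mul_expect]
  rw [← expect_sum_comm]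
  refine expect_congr rfl fun l _ => ?_
  rw [mul_left_comm, hc, mul_sum]
  refine sum_congr rfl fun ω hω => ?_
  rw [(mem_filter.1 hω).2]
  ring

end TM3Aux

open TM3Aux

theorem m3s (hb : Base) : M3S := by
  classical
  intro V ι _ _ _ _ p B L X S A ψ hp h hA hψ hX hB hL
  have hM : 0 < p.M := by have := hp.M2; omega
  let ext : (A → Fin p.M) → ι → Fin p.M := fun l0 i => if h : i ∈ A then l0 ⟨i, h⟩ else ⟨0, hM⟩
  have hext : ∀ ω l, Fr p p.k S A ψ ω (ext fun i => l i) = Fr p p.k S A ψ ω l := fun ω l => by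
    funext x
    unfold Fr
    refine congrArg _ (congrArg _ (sum_congr rfl fun i hi => ?_))
    simp only [ext, dif_pos hi]
  let sig : S.Ω → ((A → Fin p.M) → X → X → Bool) × (A → Bool) := fun ω =>
    (fun l0 a b => decide (Fr p p.k S A ψ ω (ext l0) a ≤ Fr p p.k S A ψ ω (ext l0) b),
      fun i => decide (S.β ω i = 1))
  let T := {s // s ∈ univ.image sig}
  let cls : S.Ω → T := fun ω => ⟨sig ω, mem_image_of_mem sig (mem_univ ω)⟩
  have hsurj : ∀ s : T, ∃ ω, cls ω = s := fun s => by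
    obtain ⟨ω, -, e⟩ := mem_image.1 s.2
    exact ⟨ω, Subtype.ext e⟩
  choose rep hr using hsurj
  have hsig : ∀ ω, sig (rep (cls ω)) = sig ω := fun ω => congrArg Subtype.val (hr (cls ω))
  have hβ : ∀ ω, ∀ i ∈ A, S.β (rep (cls ω)) i = S.β ω i := fun ω i hi => by
    have := congrFun (congrArg Prod.snd (hsig ω)) ⟨i, hi⟩
    simp only [sig, decide_eq_decide] at this
    rcases h.β01 ω i with c | c <;> rcases h.β01 (rep (cls ω)) i with d | d
    · rw [c, d]
    · exact absurd (c.symm.trans (this.1 d)) zero_ne_one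
    · exact absurd (d.symm.trans (this.2 c)) zero_ne_one
    · rw [c, d]
  have hpat : ∀ ω l, ∀ a ∈ X, ∀ b ∈ X, Fr p p.k S A ψ (rep (cls ω)) l a ≤
      Fr p p.k S A ψ (rep (cls ω)) l b → Fr p p.k S A ψ ω l a ≤ Fr p p.k S A ψ ω l b :=
    fun ω l a ha b hb => by
      have := congrFun (congrFun (congrFun (congrArg Prod.fst (hsig ω)) fun i => l i) ⟨a, ha⟩)
        ⟨b, hb⟩
      simp only [sig, decide_eq_decide, hext] at this
      exact this.1
  have hinv := inv h hr hβ
  have hLb : ((p.k : ℝ) + 1) * B ≤ L := by linarith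
  have hcut := Pcut hb.cb (L := L) (X := X) (F := Fr p p.k S A ψ)
    (F' := Fr p p.k (quo S T cls rep) A ψ) h.Ppos hr (PF ψ h.Ppos hr hβ) hpat
    (fun ω l x => (hb.m0.bd V ι p p.k B S A A ψ hp h hA hψ hB ω l x).trans hLb)
    (fun s l x => (hb.m0.bd V ι p p.k B _ A A ψ hp hinv hA hψ hB s l x).trans hLb)
  refine ⟨quo S T cls rep, hinv, ?_, ⟨fun g => ?_, fun i _ w' h1 h2 => ?_, fun i hi => ?_⟩⟩
  · refine le_trans (Fintype.card_le_of_injective (fun s : T => s.1) Subtype.val_injective) ?_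
    simp only [Fintype.card_prod, Fintype.card_fun, Fintype.card_bool, Fintype.card_coe,
      Fintype.card_fin, ← pow_mul, ← pow_add]
    unfold MP.G
    refine Nat.pow_le_pow_right (by norm_num) (Nat.add_le_add ?_ hA)
    rw [sq]
    exact Nat.mul_le_mul (Nat.mul_le_mul hX hX) (Nat.pow_le_pow_right hM hA)
  · have := exq (rep := rep) (hcut g) (fun _ _ => 1)
    simpa only [one_mul] using this
  · exact ⟨fun ω l => w' (cls ω) l, fun ω l => h1 _ l, fun ω l j => h2 _ l j,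
      fun g => exq (hcut g) (fun s l => w' s l * vv p.M (l i))⟩
  · exact absurd hi (notMem_empty i)

end

end Vale.Agent.P235
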